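import Mathlib
import Crest.Prelude.Def_QuadraticTransport

/-!
# Power cells and potentials for semi-discrete optimal transport

Shared definitions for the proof of S0109: affine pieces, the convex potential `pot` (maximum of
finitely many affine functions), the power cells `cell`, sources `IsSource`, solutions `IsSol`,
and the dual functional `Phi`.
-/

set_option autoImplicit false

open MeasureTheory Set Filter Topology
open scoped ENNReal NNReal RealInnerProductSpace

namespace Crest.Agent.Lib.OT

section Basic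

variable {E : Type*} [NormedAddCommGroup E] [InnerProductSpace ℝ E]
variable {ι : Type*}

/-- The affine piece `x ↦ ⟪x, y i⟫ - φ i`. -/
noncomputable def piece (y : ι → E) (φ : ι → ℝ) (i : ι) (x : E) : ℝ := ⟪x, y i⟫ - φ i

/-- The power cell of index `i`: where the `i`th piece is the largest one. -/
def cell (y : ι → E) (φ : ι → ℝ) (i : ι) : Set E := {x | ∀ j, piece y φ j x ≤ piece y φ i x}

variable [Fintype ι]

/-- The convex potential: maximum of the affine pieces. -/
noncomputable def pot (y : ι → E) (φ : ι → ℝ) (x : E) : ℝ := ⨆ i, piece y φ i x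

omit [Fintype ι] in
theorem continuous_piece (y : ι → E) (φ : ι → ℝ) (i : ι) : Continuous (piece y φ i) := by
  unfold piece
  fun_prop

theorem piece_le_pot (y : ι → E) (φ : ι → ℝ) (i : ι) (x : E) : piece y φ i x ≤ pot y φ x :=
  le_ciSup (Set.finite_range (fun i => piece y φ i x)).bddAbove i

theorem pot_eq_of_mem_cell {y : ι → E} {φ : ι → ℝ} {i : ι} {x : E} (h : x ∈ cell y φ i) :
    pot y φ x = piece y φ i x := by
  have : Nonempty ι := ⟨i⟩
  exact le_antisymm (ciSup_le h) (piece_le_pot y φ i x)

theorem mem_cell_iff_pot_eq {y : ι → E} {φ : ι → ℝ} {i : ι} {x : E} :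
    x ∈ cell y φ i ↔ pot y φ x = piece y φ i x :=
  ⟨pot_eq_of_mem_cell, fun h j => h ▸ piece_le_pot y φ j x⟩

variable [Nonempty ι]

theorem exists_mem_cell (y : ι → E) (φ : ι → ℝ) (x : E) : ∃ i, x ∈ cell y φ i := by
  obtain ⟨i, hi⟩ := Finite.exists_max (fun i => piece y φ i x)
  exact ⟨i, hi⟩

theorem iUnion_cell (y : ι → E) (φ : ι → ℝ) : ⋃ i, cell y φ i = univ := by
  ext x
  simpa using exists_mem_cell y φ x

omit [Fintype ι] [Nonempty ι] in
theorem isClosed_cell (y : ι → E) (φ : ι → ℝ) (i : ι) : IsClosed (cell y φ i) := by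
  have : cell y φ i = ⋂ j, {x | piece y φ j x ≤ piece y φ i x} := by
    ext x; simp [cell]
  rw [this]
  exact isClosed_iInter fun j => isClosed_le (continuous_piece y φ j) (continuous_piece y φ i)

/-- Subgradient inequality at a point of a cell. -/
theorem pot_ge_of_mem_cell {y : ι → E} {φ : ι → ℝ} {i : ι} {x : E} (h : x ∈ cell y φ i) (z : E) :
    pot y φ x + ⟪z - x, y i⟫ ≤ pot y φ z := by
  have h1 := piece_le_pot y φ i z
  rw [pot_eq_of_mem_cell h]
  simp only [piece, inner_sub_left] at h1 ⊢
  linarith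

/-- Lipschitz bound for the potential. -/
theorem abs_pot_sub_pot_le {y : ι → E} {φ : ι → ℝ} {L : ℝ} (hL : ∀ i, ‖y i‖ ≤ L) (x x' : E) :
    |pot y φ x - pot y φ x'| ≤ L * ‖x - x'‖ := by
  have key : ∀ a b : E, pot y φ a - pot y φ b ≤ L * ‖a - b‖ := by
    intro a b
    obtain ⟨i, hi⟩ := exists_mem_cell y φ a
    have h1 := pot_ge_of_mem_cell hi b
    have h2 : ⟪a - b, y i⟫ ≤ L * ‖a - b‖ := by
      calc ⟪a - b, y i⟫ ≤ ‖a - b‖ * ‖y i‖ := real_inner_le_norm _ _
        _ ≤ ‖a - b‖ * L := by gcongr; exact hL i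
        _ = L * ‖a - b‖ := mul_comm _ _
    have h3 : ⟪b - a, y i⟫ = - ⟪a - b, y i⟫ := by
      rw [← inner_neg_left, neg_sub]
    linarith
  rw [abs_le]
  constructor
  · have := key x' x
    rw [norm_sub_rev] at this
    linarith
  · exact key x x'

theorem continuous_pot (y : ι → E) (φ : ι → ℝ) : Continuous (pot y φ) := by
  have hL : ∀ i, ‖y i‖ ≤ ∑ j, ‖y j‖ := fun i =>
    Finset.single_le_sum (f := fun j => ‖y j‖) (fun _ _ => norm_nonneg _) (Finset.mem_univ i)
  refine (LipschitzWith.of_dist_le_mul (K := ⟨∑ j, ‖y j‖, Finset.sum_nonneg fun _ _ => norm_nonneg _⟩)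
    fun a b => ?_).continuous
  simp only [Real.dist_eq, dist_eq_norm, NNReal.coe_mk]
  exact abs_pot_sub_pot_le hL a b

/-- The potential is convex on the whole space. -/
theorem convexOn_pot (y : ι → E) (φ : ι → ℝ) : ConvexOn ℝ univ (pot y φ) := by
  refine ⟨convex_univ, fun a _ b _ s t hs ht hst => ?_⟩
  obtain ⟨i, hi⟩ := exists_mem_cell y φ (s • a + t • b)
  rw [pot_eq_of_mem_cell hi]
  have h1 := piece_le_pot y φ i a
  have h2 := piece_le_pot y φ i b
  have : piece y φ i (s • a + t • b) = s * piece y φ i a + t * piece y φ i b := by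
    simp only [piece, inner_add_left, real_inner_smul_left]
    have : φ i = (s + t) * φ i := by rw [hst, one_mul]
    nlinarith
  rw [this]
  simp only [smul_eq_mul]
  gcongr

omit [Nonempty ι] in
/-- Adding a constant to the weights does not change the cells. -/
theorem cell_add_const (y : ι → E) (φ : ι → ℝ) (c : ℝ) (i : ι) :
    cell y (fun j => φ j + c) i = cell y φ i := by
  ext x
  simp only [cell, piece, mem_setOf_eq]
  constructor <;> intro h j <;> have := h j <;> linarith

theorem pot_add_const (y : ι → E) (φ : ι → ℝ) (c : ℝ) (x : E) :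
    pot y (fun j => φ j + c) x = pot y φ x - c := by
  obtain ⟨i, hi⟩ := exists_mem_cell y φ x
  have hi' : x ∈ cell y (fun j => φ j + c) i := by rw [cell_add_const]; exact hi
  rw [pot_eq_of_mem_cell hi, pot_eq_of_mem_cell hi']
  simp only [piece]
  ring

/-- Dependence of the potential on the weights. -/
theorem abs_pot_sub_pot_weights_le {y : ι → E} {φ φ' : ι → ℝ} {B : ℝ} (hB : ∀ i, |φ i - φ' i| ≤ B)
    (x : E) : |pot y φ x - pot y φ' x| ≤ B := by
  have key : ∀ {a b : ι → ℝ}, (∀ i, |a i - b i| ≤ B) → pot y a x - pot y b x ≤ B := by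
    intro a b hab
    obtain ⟨i, hi⟩ := exists_mem_cell y a x
    rw [pot_eq_of_mem_cell hi]
    have h1 := piece_le_pot y b i x
    have h2 := (abs_le.mp (hab i)).1
    simp only [piece] at h1 ⊢
    linarith
  rw [abs_le]
  constructor
  · have := key (a := φ') (b := φ) (fun i => by rw [abs_sub_comm]; exact hB i)
    linarith
  · exact key hB

omit [Nonempty ι] [Fintype ι] in
/-- The midpoint of a point of the `φ`-cell and a point of the `φ'`-cell lies in the cell of the
mean weights. -/
theorem mid_mem_cell {y : ι → E} {φ φ' : ι → ℝ} {i : ι} {x x' : E} (hx : x ∈ cell y φ i)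
    (hx' : x' ∈ cell y φ' i) :
    (1 / 2 : ℝ) • (x + x') ∈ cell y (fun j => (φ j + φ' j) / 2) i := by
  intro j
  have h1 := hx j
  have h2 := hx' j
  simp only [piece, inner_smul_left, inner_add_left, RCLike.conj_to_real] at h1 h2 ⊢
  linarith

omit [Nonempty ι] [Fintype ι] in
/-- Two different cells meet inside a hyperplane. -/
theorem cell_inter_subset_hyperplane (y : ι → E) (φ : ι → ℝ) (i j : ι) :
    cell y φ i ∩ cell y φ j ⊆ {x | ⟪x, y i - y j⟫ = φ i - φ j} := by
  rintro x ⟨h1, h2⟩
  have h3 := h1 j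
  have h4 := h2 i
  simp only [piece] at h3 h4
  simp only [mem_setOf_eq, inner_sub_right]
  linarith

end Basic

section Measure

variable {E : Type*} [NormedAddCommGroup E] [InnerProductSpace ℝ E] [MeasurableSpace E]
variable {ι : Type*}

/-- A source: probability measure carried by a compact set `K` and not charging hyperplanes. -/
structure IsSource (P : Measure E) (K : Set E) : Prop where
  prob : IsProbabilityMeasure P
  compact : IsCompact K
  conc : P Kᶜ = 0
  null_hyper : ∀ (v : E) (c : ℝ), v ≠ 0 → P {x | ⟪x, v⟫ = c} = 0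

/-- `φ` solves the semi-discrete problem: each cell has the prescribed `P`-mass. -/
def IsSol (P : Measure E) (y : ι → E) (m : ι → ℝ) (φ : ι → ℝ) : Prop :=
  ∀ i, P.real (cell y φ i) = m i

variable [Fintype ι]

/-- The dual functional. -/
noncomputable def Phi (P : Measure E) (y : ι → E) (m : ι → ℝ) (φ : ι → ℝ) : ℝ :=
  ∫ x, pot y φ x ∂P + ∑ i, m i * φ i

end Measure

end Crest.Agent.Lib.OT
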