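import Crest.Agent.Lib.OT.Uniform

/-!
# Identification of optimal maps with gradients of convex potentials

If `u` is Lipschitz and convex on the convex body `K`, and the gradient of `u` pushes the uniform
measure on `K` to `μ`, then every quadratic optimal map from the uniform measure to `μ` agrees with
`gradient u` almost everywhere.
-/

set_option autoImplicit false

open MeasureTheory Set Filter Topology
open scoped ENNReal NNReal RealInnerProductSpace
open Crest.AnalysisR.OT

namespace Crest.Agent.Lib.OT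

section Identify

variable {d : ℕ}

theorem measurable_gradient_euclid (u : EuclideanSpace ℝ (Fin d) → ℝ) :
    Measurable (gradient u) := by
  have h : gradient u = fun x => (InnerProductSpace.toDual ℝ (EuclideanSpace ℝ (Fin d))).symm
      (fderiv ℝ u x) := rfl
  rw [h]
  exact (LinearIsometryEquiv.continuous _).measurable.comp (measurable_fderiv ℝ u)

/-- The directional derivative through the gradient. -/
theorem hasDerivAt_line_of_differentiableAt {u : EuclideanSpace ℝ (Fin d) → ℝ}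
    {x : EuclideanSpace ℝ (Fin d)} (hd : DifferentiableAt ℝ u x) (e : EuclideanSpace ℝ (Fin d)) :
    HasDerivAt (fun t : ℝ => u (x + t • e)) ⟪gradient u x, e⟫ 0 := by
  have h1 : HasFDerivAt u (InnerProductSpace.toDual ℝ _ (gradient u x)) x :=
    hd.hasGradientAt.hasFDerivAt
  have h2 : HasDerivAt (fun t : ℝ => x + t • e) e 0 := by
    simpa using ((hasDerivAt_id (0 : ℝ)).smul_const e).const_add x
  have h3 : HasFDerivAt u (InnerProductSpace.toDual ℝ _ (gradient u x)) (x + (0 : ℝ) • e) := by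
    simpa using h1
  have := h3.comp_hasDerivAt (0 : ℝ) h2
  simpa [Function.comp_def] using this

/-- Subgradient inequality at a point of differentiability. -/
theorem convexOn_subgrad {K : Set (EuclideanSpace ℝ (Fin d))} {u : EuclideanSpace ℝ (Fin d) → ℝ}
    (hc : ConvexOn ℝ K u) {x z : EuclideanSpace ℝ (Fin d)} (hx : x ∈ K) (hz : z ∈ K)
    (hd : DifferentiableAt ℝ u x) : u x + ⟪gradient u x, z - x⟫ ≤ u z := by
  have h1 := hasDerivAt_line_of_differentiableAt hd (z - x)
  have h2 := (hasDerivAt_iff_tendsto_slope_zero.mp h1).mono_left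
    (nhdsWithin_mono (0 : ℝ) (fun t (ht : t ∈ Ioi (0 : ℝ)) => (ne_of_gt ht : t ≠ 0)))
  have h3 : ⟪gradient u x, z - x⟫ ≤ u z - u x := by
    refine le_of_tendsto h2 ?_
    filter_upwards [Ioc_mem_nhdsGT (zero_lt_one' ℝ)] with t ht
    have h0 : (0 : ℝ) + t = t := zero_add t
    simp only [zero_add, zero_smul, add_zero, smul_eq_mul]
    have hconv := hc.2 hx hz (by linarith [ht.2] : (0 : ℝ) ≤ 1 - t) ht.1.le (by ring)
    have heq : (1 - t) • x + t • z = x + t • (z - x) := by
      rw [smul_sub, sub_smul, one_smul]; abel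
    rw [heq] at hconv
    simp only [smul_eq_mul] at hconv
    rw [inv_mul_le_iff₀ ht.1]
    nlinarith
  linarith

/-- A global lower affine support at a point of differentiability is the gradient. -/
theorem subgrad_eq_gradient {u : EuclideanSpace ℝ (Fin d) → ℝ} {x w : EuclideanSpace ℝ (Fin d)}
    (hd : DifferentiableAt ℝ u x)
    (hs : ∀ᶠ z in 𝓝 x, u x + ⟪w, z - x⟫ ≤ u z) : w = gradient u x := by
  set e := w - gradient u x with he
  have h1 := hasDerivAt_line_of_differentiableAt hd e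
  have h2 : HasDerivAt (fun t : ℝ => u (x + t • e) - u x - t * ⟪w, e⟫)
      (⟪gradient u x, e⟫ - 1 * ⟪w, e⟫) 0 :=
    (h1.sub_const _).sub ((hasDerivAt_id (0 : ℝ)).mul_const _)
  have hcont : Tendsto (fun t : ℝ => x + t • e) (𝓝 0) (𝓝 x) := by
    have : Continuous (fun t : ℝ => x + t • e) := by fun_prop
    simpa using this.tendsto 0
  have hmin : IsLocalMin (fun t : ℝ => u (x + t • e) - u x - t * ⟪w, e⟫) 0 := by
    have := hcont.eventually hs
    filter_upwards [this] with t ht
    simp only [zero_smul, add_zero, sub_self, zero_mul]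
    have : x + t • e - x = t • e := by abel
    rw [this, inner_smul_right] at ht
    linarith
  have h3 := hmin.hasDerivAt_eq_zero h2
  have h4 : ⟪e, e⟫ = 0 := by
    rw [he, inner_sub_left] at *
    linarith
  have h5 : e = 0 := inner_self_eq_zero.mp h4
  exact sub_eq_zero.mp h5

/-- Conversion of the displacement lintegral to a real integral for a.e. bounded maps. -/
theorem lintegral_disp_eq {K : Set (EuclideanSpace ℝ (Fin d))} (hKc : IsCompact K)
    (hKi : (interior K).Nonempty) {Y : Set (EuclideanSpace ℝ (Fin d))} (hYc : IsCompact Y)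
    {S : EuclideanSpace ℝ (Fin d) → EuclideanSpace ℝ (Fin d)} (hS : Measurable S)
    (hSY : ∀ᵐ x ∂(uniformProbOn K), S x ∈ Y) :
    Integrable (fun x => ‖x - S x‖ ^ 2) (uniformProbOn K) ∧
    ∫⁻ x, ‖x - S x‖ₑ ^ 2 ∂(uniformProbOn K)
      = ENNReal.ofReal (∫ x, ‖x - S x‖ ^ 2 ∂(uniformProbOn K)) := by
  have hU := uniform_isProb hKc hKi
  obtain ⟨R, hR⟩ := hKc.isBounded.exists_norm_le
  obtain ⟨R', hR'⟩ := hYc.isBounded.exists_norm_le
  have hint : Integrable (fun x => ‖x - S x‖ ^ 2) (uniformProbOn K) := by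
    refine Integrable.of_bound (by fun_prop) ((R + R') ^ 2) ?_
    filter_upwards [uniform_ae_mem hKc, hSY] with x hx hy
    have h1 : ‖x - S x‖ ≤ R + R' :=
      (norm_sub_le _ _).trans (add_le_add (hR x hx) (hR' _ hy))
    rw [Real.norm_of_nonneg (by positivity)]
    gcongr
  refine ⟨hint, ?_⟩
  rw [ofReal_integral_eq_lintegral_ofReal hint (Filter.Eventually.of_forall fun x => by positivity)]
  refine lintegral_congr fun x => ?_
  rw [ENNReal.ofReal_pow (norm_nonneg _), ofReal_norm]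

theorem optimal_ae_eq_gradient {K : Set (EuclideanSpace ℝ (Fin d))} (hKc : IsCompact K)
    (hKv : Convex ℝ K) (hKi : (interior K).Nonempty) {Y : Set (EuclideanSpace ℝ (Fin d))}
    (hYc : IsCompact Y) {μ : Measure (EuclideanSpace ℝ (Fin d))} (hμ : IsProbabilityOn Y μ)
    {u : EuclideanSpace ℝ (Fin d) → ℝ} {L : ℝ≥0} (hu : LipschitzWith L u) (hc : ConvexOn ℝ K u)
    (hG : (uniformProbOn K).map (gradient u) = μ)
    {T : EuclideanSpace ℝ (Fin d) → EuclideanSpace ℝ (Fin d)}
    (hT : IsOptimalMap (uniformProbOn K) μ T) : T =ᵐ[uniformProbOn K] gradient u := by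
  classical
  have hU := uniform_isProb hKc hKi
  have hGm : Measurable (gradient u) := measurable_gradient_euclid u
  obtain ⟨hμp, hμY⟩ := hμ
  obtain ⟨hTm, hTmap, hTopt⟩ := hT
  have hYm : MeasurableSet Y := hYc.isClosed.measurableSet
  have hKne : K.Nonempty := hKi.mono interior_subset
  have hTY : ∀ᵐ x ∂(uniformProbOn K), T x ∈ Y := by
    rw [ae_iff]
    have : (uniformProbOn K).map T Yᶜ = 0 := by rw [hTmap]; exact hμY
    rw [Measure.map_apply hTm hYm.compl] at this
    exact this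
  have hGY : ∀ᵐ x ∂(uniformProbOn K), gradient u x ∈ Y := by
    rw [ae_iff]
    have : (uniformProbOn K).map (gradient u) Yᶜ = 0 := by rw [hG]; exact hμY
    rw [Measure.map_apply hGm hYm.compl] at this
    exact this
  have hKae := uniform_ae_mem hKc
  obtain ⟨R, hR⟩ := hKc.isBounded.exists_norm_le
  obtain ⟨R', hR'⟩ := hYc.isBounded.exists_norm_le
  -- cost comparison
  obtain ⟨hintT, hT1⟩ := lintegral_disp_eq hKc hKi hYc hTm hTY
  obtain ⟨hintG, hG1⟩ := lintegral_disp_eq hKc hKi hYc hGm hGY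
  have hcomp := hTopt _ hGm hG
  rw [hT1, hG1, ENNReal.ofReal_le_ofReal_iff (integral_nonneg fun x => by positivity)] at hcomp
  -- inner product integrals
  have hinner : ∀ S : EuclideanSpace ℝ (Fin d) → EuclideanSpace ℝ (Fin d), Measurable S →
      (∀ᵐ x ∂(uniformProbOn K), S x ∈ Y) →
      Integrable (fun x => ⟪x, S x⟫) (uniformProbOn K) := by
    intro S hS hSY
    refine Integrable.of_bound (hf := ?_) (R * R') ?_
    · exact (measurable_id.inner hS).aestronglyMeasurable
    · filter_upwards [hKae, hSY] with x hx hy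
      calc ‖⟪x, S x⟫‖ ≤ ‖x‖ * ‖S x‖ := norm_inner_le_norm _ _
        _ ≤ R * R' := mul_le_mul (hR x hx) (hR' _ hy) (norm_nonneg _)
            ((norm_nonneg x).trans (hR x hx))
  have hnorm2 : ∀ S : EuclideanSpace ℝ (Fin d) → EuclideanSpace ℝ (Fin d), Measurable S →
      (uniformProbOn K).map S = μ →
      ∫ x, ‖S x‖ ^ 2 ∂(uniformProbOn K) = ∫ y, ‖y‖ ^ 2 ∂μ := by
    intro S hS hmap
    rw [← hmap, integral_map hS.aemeasurable (by fun_prop)]
  have hnormS : ∀ S : EuclideanSpace ℝ (Fin d) → EuclideanSpace ℝ (Fin d), Measurable S →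
      (∀ᵐ x ∂(uniformProbOn K), S x ∈ Y) →
      Integrable (fun x => ‖S x‖ ^ 2) (uniformProbOn K) := by
    intro S hS hSY
    refine Integrable.of_bound (by fun_prop) (R' ^ 2) ?_
    filter_upwards [hSY] with x hy
    rw [Real.norm_of_nonneg (by positivity)]
    have := hR' _ hy
    gcongr
  have hnormx : Integrable (fun x : EuclideanSpace ℝ (Fin d) => ‖x‖ ^ 2) (uniformProbOn K) :=
    uniform_integrable_of_continuous hKc hKi (by fun_prop)
  have hexpand : ∀ S : EuclideanSpace ℝ (Fin d) → EuclideanSpace ℝ (Fin d), Measurable S →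
      (∀ᵐ x ∂(uniformProbOn K), S x ∈ Y) →
      ∫ x, ‖x - S x‖ ^ 2 ∂(uniformProbOn K) = ∫ x, ‖x‖ ^ 2 ∂(uniformProbOn K)
        - 2 * ∫ x, ⟪x, S x⟫ ∂(uniformProbOn K) + ∫ x, ‖S x‖ ^ 2 ∂(uniformProbOn K) := by
    intro S hS hSY
    have h1 := hinner S hS hSY
    have h2 := hnormS S hS hSY
    have h3 : ∀ x, ‖x - S x‖ ^ 2 = (‖x‖ ^ 2 - 2 * ⟪x, S x⟫) + ‖S x‖ ^ 2 :=
      fun x => norm_sub_sq_real x (S x)
    simp_rw [h3]
    have e1 : ∫ x, (‖x‖ ^ 2 - 2 * ⟪x, S x⟫) + ‖S x‖ ^ 2 ∂(uniformProbOn K)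
        = ∫ x, (‖x‖ ^ 2 - 2 * ⟪x, S x⟫) ∂(uniformProbOn K) + ∫ x, ‖S x‖ ^ 2 ∂(uniformProbOn K) :=
      integral_add (f := fun x => ‖x‖ ^ 2 - 2 * ⟪x, S x⟫) (g := fun x => ‖S x‖ ^ 2)
        (hnormx.sub (h1.const_mul 2)) h2
    have e2 : ∫ x, (‖x‖ ^ 2 - 2 * ⟪x, S x⟫) ∂(uniformProbOn K)
        = ∫ x, ‖x‖ ^ 2 ∂(uniformProbOn K) - ∫ x, 2 * ⟪x, S x⟫ ∂(uniformProbOn K) :=
      integral_sub hnormx (h1.const_mul 2)
    rw [e1, e2, integral_const_mul]
  have hIle : ∫ x, ⟪x, gradient u x⟫ ∂(uniformProbOn K) ≤ ∫ x, ⟪x, T x⟫ ∂(uniformProbOn K) := by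
    rw [hexpand T hTm hTY, hexpand _ hGm hGY, hnorm2 T hTm hTmap, hnorm2 _ hGm hG] at hcomp
    linarith
  -- the conjugate
  let ustar : EuclideanSpace ℝ (Fin d) → ℝ := fun y => sSup ((fun x => ⟪x, y⟫ - u x) '' K)
  have hustar_cont : Continuous ustar := by
    refine hKc.continuous_sSup (f := fun y x => ⟪x, y⟫ - u x) ?_
    have hcu : Continuous u := hu.continuous
    change Continuous (fun p : EuclideanSpace ℝ (Fin d) × EuclideanSpace ℝ (Fin d) =>
      ⟪p.2, p.1⟫ - u p.2)
    fun_prop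
  have hbdd : ∀ y, BddAbove ((fun x => ⟪x, y⟫ - u x) '' K) := by
    intro y
    have hcu : Continuous u := hu.continuous
    exact (hKc.image (f := fun x => ⟪x, y⟫ - u x) (by fun_prop)).bddAbove
  have hFY : ∀ x ∈ K, ∀ y, ⟪x, y⟫ - u x ≤ ustar y := fun x hx y =>
    le_csSup (hbdd y) (mem_image_of_mem _ hx)
  -- a.e. good points
  have hdiff : ∀ᵐ x ∂(uniformProbOn K), DifferentiableAt ℝ u x :=
    uniform_ac.ae_le (hu.ae_differentiableAt (μ := volume))
  have hfront : ∀ᵐ x ∂(uniformProbOn K), x ∉ frontier K := by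
    have h0 : volume (frontier K) = 0 := hKv.addHaar_frontier volume
    exact uniform_ac.ae_le (measure_eq_zero_iff_ae_notMem.mp h0)
  have hint_ae : ∀ᵐ x ∂(uniformProbOn K), x ∈ interior K := by
    filter_upwards [hKae, hfront] with x hx hf
    by_contra hni
    exact hf ⟨subset_closure hx, hni⟩
  -- conjugate at the gradient
  have hconjG : ∀ᵐ x ∂(uniformProbOn K), ustar (gradient u x) = ⟪x, gradient u x⟫ - u x := by
    filter_upwards [hKae, hdiff] with x hx hd
    refine le_antisymm ?_ (hFY x hx _)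
    refine csSup_le (hKne.image _) ?_
    rintro _ ⟨z, hz, rfl⟩
    have := convexOn_subgrad hc hx hz hd
    simp only [inner_sub_right] at this
    simp only
    rw [real_inner_comm (gradient u x) z, real_inner_comm (gradient u x) x]
    linarith
  have hustarY : ∃ C, ∀ y ∈ Y, ‖ustar y‖ ≤ C := by
    obtain ⟨C, hC⟩ := hYc.exists_bound_of_continuousOn (f := ustar) hustar_cont.continuousOn
    exact ⟨C, hC⟩
  obtain ⟨C, hC⟩ := hustarY
  have hintS : ∀ S : EuclideanSpace ℝ (Fin d) → EuclideanSpace ℝ (Fin d), Measurable S →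
      (∀ᵐ x ∂(uniformProbOn K), S x ∈ Y) →
      Integrable (fun x => ustar (S x)) (uniformProbOn K) := by
    intro S hS hSY
    refine Integrable.of_bound (hf := ?_) C ?_
    · exact (hustar_cont.measurable.comp hS).aestronglyMeasurable
    · filter_upwards [hSY] with x hy
      exact hC _ hy
  have hintu : Integrable u (uniformProbOn K) :=
    uniform_integrable_of_continuous hKc hKi hu.continuous
  have hmapT : ∫ x, ustar (T x) ∂(uniformProbOn K) = ∫ y, ustar y ∂μ := by
    rw [← hTmap, integral_map hTm.aemeasurable hustar_cont.aestronglyMeasurable]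
  have hmapG : ∫ x, ustar (gradient u x) ∂(uniformProbOn K) = ∫ y, ustar y ∂μ := by
    rw [← hG, integral_map hGm.aemeasurable hustar_cont.aestronglyMeasurable]
  -- the nonnegative defect
  let D : EuclideanSpace ℝ (Fin d) → ℝ := fun x => u x + ustar (T x) - ⟪x, T x⟫
  have hDnn : 0 ≤ᵐ[uniformProbOn K] D := by
    filter_upwards [hKae] with x hx
    have := hFY x hx (T x)
    simp only [Pi.zero_apply, D]
    linarith
  have hDint : Integrable D (uniformProbOn K) :=
    (hintu.add (hintS T hTm hTY)).sub (hinner T hTm hTY)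
  have hDeq : ∫ x, D x ∂(uniformProbOn K) = ∫ x, u x ∂(uniformProbOn K) +
      ∫ x, ustar (T x) ∂(uniformProbOn K) - ∫ x, ⟪x, T x⟫ ∂(uniformProbOn K) := by
    have e1 : ∫ x, D x ∂(uniformProbOn K) = ∫ x, (u x + ustar (T x)) ∂(uniformProbOn K)
        - ∫ x, ⟪x, T x⟫ ∂(uniformProbOn K) :=
      integral_sub (f := fun x => u x + ustar (T x)) (g := fun x => ⟪x, T x⟫)
        (hintu.add (hintS T hTm hTY)) (hinner T hTm hTY)
    have e2 : ∫ x, (u x + ustar (T x)) ∂(uniformProbOn K) = ∫ x, u x ∂(uniformProbOn K)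
        + ∫ x, ustar (T x) ∂(uniformProbOn K) :=
      integral_add (f := u) (g := fun x => ustar (T x)) hintu (hintS T hTm hTY)
    rw [e1, e2]
  have hGeq : ∫ x, ustar (gradient u x) ∂(uniformProbOn K) =
      ∫ x, ⟪x, gradient u x⟫ ∂(uniformProbOn K) - ∫ x, u x ∂(uniformProbOn K) := by
    rw [← integral_sub (hinner _ hGm hGY) hintu]
    exact integral_congr_ae hconjG
  have hDle : ∫ x, D x ∂(uniformProbOn K) ≤ 0 := by
    rw [hDeq, hmapT, ← hmapG, hGeq]
    linarith
  have hD0 : ∫ x, D x ∂(uniformProbOn K) = 0 :=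
    le_antisymm hDle (integral_nonneg_of_ae hDnn)
  have hDae : D =ᵐ[uniformProbOn K] 0 := (integral_eq_zero_iff_of_nonneg_ae hDnn hDint).mp hD0
  filter_upwards [hDae, hint_ae, hdiff] with x hD hxi hd
  have hDx : u x + ustar (T x) = ⟪x, T x⟫ := by
    have : u x + ustar (T x) - ⟪x, T x⟫ = 0 := hD
    linarith
  refine subgrad_eq_gradient hd ?_
  filter_upwards [mem_interior_iff_mem_nhds.mp hxi] with z hz
  have h1 := hFY z hz (T x)
  rw [inner_sub_right, real_inner_comm z, real_inner_comm x]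
  linarith

end Identify

end Crest.Agent.Lib.OT
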