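import Mathlib

/-!
# S0109 Key: the finite real arithmetic behind `key_stability`
-/

set_option autoImplicit false

namespace Crest.Agent.Lib.OT

theorem key_Q_bound {m n a a' G : ℝ} (hn : 0 < n) (hm : 0 < m) (ha1 : m / 2 ≤ a) (ha2 : a ≤ m)
    (ha'1 : n / 2 ≤ a') (ha'2 : a' ≤ n) (hmn1 : n / 2 ≤ m) (hG : (m - n) ^ 2 ≤ n * G) :
    (a - a') ^ 2 / (a + a') ≤ 3 * G + 3 * n * (m / a - n / a') ^ 2 := by
  have ha0 : 0 < a := by linarith
  have ha'0 : 0 < a' := by linarith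
  have hsum : 3 * n / 4 ≤ a + a' := by linarith
  have hG0 : 0 ≤ G := by
    by_contra hneg
    push Not at hneg
    have : n * G < 0 := mul_neg_of_pos_of_neg hn hneg
    nlinarith [sq_nonneg (m - n)]
  set e := m / a with he
  set e' := n / a' with he'
  have he1 : 1 ≤ e := by rw [he, le_div_iff₀ ha0]; linarith
  have he'1 : 1 ≤ e' := by rw [he', le_div_iff₀ ha'0]; linarith
  have hae : a = m / e := by
    rw [he]; field_simp
  have hae' : a' = n / e' := by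
    rw [he']; field_simp
  have he0 : 0 < e := by linarith
  have he'0 : 0 < e' := by linarith
  have hdiff : a - a' = (m - n) * (1 / e) + n * ((e' - e) * (1 / e) * (1 / e')) := by
    rw [hae, hae']
    field_simp
    ring
  have hx1 : (1 / e) ^ 2 ≤ 1 := by
    have : 1 / e ≤ 1 := by rw [div_le_one he0]; exact he1
    have h0 : 0 ≤ 1 / e := by positivity
    nlinarith
  have hx2 : ((1 / e) * (1 / e')) ^ 2 ≤ 1 := by
    have h1 : 1 / e ≤ 1 := by rw [div_le_one he0]; exact he1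
    have h2 : 1 / e' ≤ 1 := by rw [div_le_one he'0]; exact he'1
    have h01 : 0 ≤ 1 / e := by positivity
    have h02 : 0 ≤ 1 / e' := by positivity
    have : (1 / e) * (1 / e') ≤ 1 := by nlinarith
    have h0 : 0 ≤ (1 / e) * (1 / e') := by positivity
    nlinarith
  have hsq : (a - a') ^ 2 ≤ 2 * (m - n) ^ 2 + 2 * n ^ 2 * (e - e') ^ 2 := by
    rw [hdiff]
    have h1 : ((m - n) * (1 / e)) ^ 2 ≤ (m - n) ^ 2 := by
      rw [mul_pow]
      nlinarith [sq_nonneg (m - n)]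
    have h2 : (n * ((e' - e) * (1 / e) * (1 / e'))) ^ 2 ≤ n ^ 2 * (e - e') ^ 2 := by
      have : (n * ((e' - e) * (1 / e) * (1 / e'))) ^ 2
          = n ^ 2 * (e - e') ^ 2 * ((1 / e) * (1 / e')) ^ 2 := by ring
      rw [this]
      have h3 : 0 ≤ n ^ 2 * (e - e') ^ 2 := by positivity
      nlinarith
    nlinarith [sq_nonneg ((m - n) * (1 / e) - n * ((e' - e) * (1 / e) * (1 / e')))]
  rw [div_le_iff₀ (by linarith)]
  have hδ : 0 ≤ (e - e') ^ 2 := sq_nonneg _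
  have hR : (3 * G + 3 * n * (e - e') ^ 2) * (3 * n / 4) ≤ (3 * G + 3 * n * (e - e') ^ 2) * (a + a') :=
    mul_le_mul_of_nonneg_left hsum (by positivity)
  have hexp : (3 * G + 3 * n * (e - e') ^ 2) * (3 * n / 4)
      = 9 / 4 * (n * G) + 9 / 4 * (n ^ 2 * (e - e') ^ 2) := by ring
  have hn2 : 0 ≤ n ^ 2 * (e - e') ^ 2 := by positivity
  nlinarith [sq_nonneg (m - n)]

theorem key_H_bound {n a a' : ℝ} (hn : 0 < n) (ha1 : n / 4 ≤ a) (ha'1 : n / 4 ≤ a') :
    n / 4 ≤ 2 * a * a' / (a + a') := by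
  have ha0 : 0 < a := by linarith
  have ha'0 : 0 < a' := by linarith
  rw [le_div_iff₀ (by linarith)]
  nlinarith [mul_le_mul_of_nonneg_right ha1 ha'0.le, mul_le_mul_of_nonneg_right ha'1 ha0.le]

/-- Per index: `(μ - μ')² ≤ 18 D₂² + 2 D₁²`. -/
theorem key_mean_bound {m n a a' p q R lam : ℝ} (hR : 0 < R) (hlam : lam = 1 / (384 * R ^ 2))
    (hn : 0 < n) (hm : 0 < m) (ha1 : m / 2 ≤ a) (ha2 : a ≤ m)
    (ha'1 : n / 2 ≤ a') (ha'2 : a' ≤ n) (hq : |q| ≤ n * R) :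
    (p / m - q / n) ^ 2 ≤ 18 * ((p / a - q / a') / 3) ^ 2
      + 2 * ((m / a - n / a') / (2 * lam * R)) ^ 2 := by
  have ha0 : 0 < a := by linarith
  have ha'0 : 0 < a' := by linarith
  have hlam0 : 0 < lam := by rw [hlam]; positivity
  set e := m / a with he
  set e' := n / a' with he'
  have he1 : 1 ≤ e := by rw [he, le_div_iff₀ ha0]; linarith
  have he0 : 0 < e := by linarith
  set μ' := q / n with hμ'
  have hμ'R : |μ'| ≤ R := by
    rw [hμ', abs_div, abs_of_pos hn, div_le_iff₀ hn]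
    linarith
  have hl : 2 * lam * R * R ≤ 1 := by
    rw [hlam]
    have : 2 * (1 / (384 * R ^ 2)) * R * R = 1 / 192 := by field_simp; norm_num
    rw [this]; norm_num
  have hl0 : 0 < 2 * lam * R := by positivity
  -- main identity
  have hid : p / m - μ' = (p / a - q / a') * (1 / e) + μ' * (e' - e) * (1 / e) := by
    have hm0 : m ≠ 0 := hm.ne'
    have hn0 : n ≠ 0 := hn.ne'
    rw [hμ', he, he']
    field_simp
    ring
  have hx : 1 / e ≤ 1 := by rw [div_le_one he0]; exact he1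
  have hx0 : 0 ≤ 1 / e := by positivity
  set B := p / a - q / a' with hB
  have hbd : |p / m - μ'| ≤ |B| + R * |e - e'| := by
    rw [hid]
    calc |B * (1 / e) + μ' * (e' - e) * (1 / e)|
        ≤ |B * (1 / e)| + |μ' * (e' - e) * (1 / e)| := abs_add_le _ _
      _ ≤ |B| + R * |e - e'| := by
        refine add_le_add ?_ ?_
        · rw [abs_mul, abs_of_nonneg hx0]
          nlinarith [abs_nonneg B]
        · rw [abs_mul, abs_mul, abs_of_nonneg hx0, abs_sub_comm e' e]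
          have h1 : |μ'| * |e - e'| ≤ R * |e - e'| :=
            mul_le_mul_of_nonneg_right hμ'R (abs_nonneg _)
          have h2 : 0 ≤ |μ'| * |e - e'| := by positivity
          nlinarith
  set D1 := (e - e') / (2 * lam * R) with hD1
  have hee : e - e' = 2 * lam * R * D1 := by
    rw [hD1]; field_simp
  have hRee : R * |e - e'| ≤ |D1| := by
    rw [hee, abs_mul, abs_of_pos hl0]
    nlinarith [abs_nonneg D1]
  have hbd2 : |p / m - μ'| ≤ |B| + |D1| := by linarith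
  have hB3 : B ^ 2 = 9 * (B / 3) ^ 2 := by ring
  have h0 : 0 ≤ |p / m - μ'| := abs_nonneg _
  calc (p / m - μ') ^ 2 = |p / m - μ'| ^ 2 := (sq_abs _).symm
    _ ≤ (|B| + |D1|) ^ 2 := by gcongr
    _ ≤ 2 * |B| ^ 2 + 2 * |D1| ^ 2 := by nlinarith [sq_nonneg (|B| - |D1|)]
    _ = 18 * (B / 3) ^ 2 + 2 * D1 ^ 2 := by
      rw [sq_abs, sq_abs, hB3]; ring

/-- Per index: `(p-r)²/m ≤ 3 n (μ-μ')² + 48 R² G`. -/
theorem key_pr_bound {m n p q r R G : ℝ} (hn : 0 < n) (hm : 0 < m)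
    (hmn1 : n / 2 ≤ m) (hmn2 : m ≤ 3 * n / 2)
    (hr : (r - m * (q / n)) ^ 2 ≤ 4 * R ^ 2 * n * G) :
    (p - r) ^ 2 / m ≤ 3 * n * (p / m - q / n) ^ 2 + 48 * R ^ 2 * G := by
  set μ' := q / n with hμ'
  set t := r - m * μ' with ht
  set s := p / m - μ' with hs
  have hp : p = m * (s + μ') := by rw [hs]; field_simp; ring
  have hr' : r = t + m * μ' := by rw [ht]; ring
  have hpr : p - r = m * s - t := by rw [hp, hr']; ring
  rw [hpr, div_le_iff₀ hm]
  have h1 : (m * s - t) ^ 2 ≤ 2 * (m * s) ^ 2 + 2 * t ^ 2 := by nlinarith [sq_nonneg (m * s + t)]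
  have hms : 2 * (m * s) ^ 2 ≤ 3 * n * s ^ 2 * m := by
    have : 2 * m ≤ 3 * n := by linarith
    have h2 : 0 ≤ s ^ 2 * m := by positivity
    nlinarith
  -- t^2 ≤ 4R²nG, need 2 t² ≤ 48 R² G m; n ≤ 2 m
  have hG0' : 0 ≤ 4 * R ^ 2 * G * (2 * m - n) ∨ True := Or.inr trivial
  have hRG : 0 ≤ R ^ 2 * G := by
    have : 0 ≤ 4 * R ^ 2 * n * G := le_trans (sq_nonneg _) hr
    have h3 : 0 ≤ n * (R ^ 2 * G) := by nlinarith
    exact nonneg_of_mul_nonneg_right h3 hn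
  have ht2 : 2 * t ^ 2 ≤ 48 * (R ^ 2 * G) * m := by
    have h4 : 2 * t ^ 2 ≤ 8 * (R ^ 2 * G) * n := by nlinarith
    have h5 : 8 * (R ^ 2 * G) * n ≤ 48 * (R ^ 2 * G) * m := by
      have : n ≤ 6 * m := by linarith
      nlinarith
    linarith
  calc (m * s - t) ^ 2 ≤ 2 * (m * s) ^ 2 + 2 * t ^ 2 := h1
    _ ≤ 3 * n * s ^ 2 * m + 48 * (R ^ 2 * G) * m := add_le_add hms ht2
    _ = (3 * n * s ^ 2 + 48 * R ^ 2 * G) * m := by ring

theorem key_master {ι : Type*} [Fintype ι] {R lam G : ℝ} (hR : 0 < R)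
    (hlam : lam = 1 / (384 * R ^ 2))
    (m n a a' p q r Gi : ι → ℝ)
    (hn : ∀ i, 0 < n i) (hm : ∀ i, 0 < m i)
    (ha1 : ∀ i, m i / 2 ≤ a i) (ha2 : ∀ i, a i ≤ m i)
    (ha'1 : ∀ i, n i / 2 ≤ a' i) (ha'2 : ∀ i, a' i ≤ n i)
    (hmn1 : ∀ i, n i / 2 ≤ m i) (hmn2 : ∀ i, m i ≤ 3 * n i / 2)
    (hGi : ∀ i, (m i - n i) ^ 2 ≤ n i * Gi i) (hG : ∑ i, Gi i = G)
    (hP1a : lam / 4 * ∑ i, (2 * a i * a' i / (a i + a' i)) *
        ((m i / a i - n i / a' i) / (2 * lam * R)) ^ 2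
        ≤ ∑ i, (a i - a' i) ^ 2 / (a i + a' i))
    (hP1b : lam / 4 * ∑ i, (2 * a i * a' i / (a i + a' i)) * ((p i / a i - q i / a' i) / 3) ^ 2
        ≤ ∑ i, (a i - a' i) ^ 2 / (a i + a' i))
    (hq : ∀ i, |q i| ≤ n i * R)
    (hr : ∀ i, (r i - m i * (q i / n i)) ^ 2 ≤ 4 * R ^ 2 * n i * Gi i) :
    ∑ i, (p i - r i) ^ 2 / m i ≤ 2211888 * R ^ 2 * G := by
  have hlam0 : 0 < lam := by rw [hlam]; positivity
  have hl0 : 0 < 2 * lam * R := by positivity
  set D1 : ι → ℝ := fun i => (m i / a i - n i / a' i) / (2 * lam * R) with hD1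
  set D2 : ι → ℝ := fun i => (p i / a i - q i / a' i) / 3 with hD2
  set S1 : ℝ := ∑ i, n i * D1 i ^ 2 with hS1
  set S2 : ℝ := ∑ i, n i * D2 i ^ 2 with hS2
  set Q : ℝ := ∑ i, (a i - a' i) ^ 2 / (a i + a' i) with hQ
  have hS1nn : 0 ≤ S1 := Finset.sum_nonneg fun i _ => mul_nonneg (hn i).le (sq_nonneg _)
  have hS2nn : 0 ≤ S2 := Finset.sum_nonneg fun i _ => mul_nonneg (hn i).le (sq_nonneg _)
  -- lower bounds for H
  have hHi : ∀ i, n i / 4 ≤ 2 * a i * a' i / (a i + a' i) := fun i =>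
    key_H_bound (hn i) (by linarith [ha1 i, hmn1 i]) (by linarith [ha'1 i, hn i])
  have hLow : ∀ D : ι → ℝ, (1 / 4) * ∑ i, n i * D i ^ 2
      ≤ ∑ i, (2 * a i * a' i / (a i + a' i)) * D i ^ 2 := by
    intro D
    rw [Finset.mul_sum]
    refine Finset.sum_le_sum fun i _ => ?_
    have := mul_le_mul_of_nonneg_right (hHi i) (sq_nonneg (D i))
    calc 1 / 4 * (n i * D i ^ 2) = n i / 4 * D i ^ 2 := by ring
      _ ≤ _ := this
  -- bound on Q
  have hQb : Q ≤ 3 * G + (lam / 32) * S1 := by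
    have h3 : ∀ i, (a i - a' i) ^ 2 / (a i + a' i) ≤ 3 * Gi i + (lam / 32) * (n i * D1 i ^ 2) := by
      intro i
      have := key_Q_bound (hn i) (hm i) (ha1 i) (ha2 i) (ha'1 i) (ha'2 i) (hmn1 i) (hGi i)
      have he : m i / a i - n i / a' i = 2 * lam * R * D1 i := by
        simp only [hD1]; field_simp
      have hc : 3 * n i * (2 * lam * R * D1 i) ^ 2 = (lam / 32) * (n i * D1 i ^ 2) := by
        have h12 : 12 * (lam * R ^ 2) = 1 / 32 := by
          rw [hlam]; field_simp; norm_num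
        calc 3 * n i * (2 * lam * R * D1 i) ^ 2 = lam * (12 * (lam * R ^ 2)) * (n i * D1 i ^ 2) := by ring
          _ = _ := by rw [h12]; ring
      rw [he, hc] at this
      exact this
    calc Q ≤ ∑ i, (3 * Gi i + (lam / 32) * (n i * D1 i ^ 2)) := Finset.sum_le_sum fun i _ => h3 i
      _ = 3 * G + (lam / 32) * S1 := by
        rw [Finset.sum_add_distrib, ← Finset.mul_sum, ← Finset.mul_sum, hG]
  -- S1 bound
  have hS1b : lam * S1 ≤ 96 * G := by
    have h1 := hLow D1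
    have h2 : lam / 4 * ((1 / 4) * S1) ≤ Q := le_trans
      (mul_le_mul_of_nonneg_left h1 (by positivity)) hP1a
    nlinarith
  have hS2b : lam * S2 ≤ 96 * G := by
    have h1 := hLow D2
    have h2 : lam / 4 * ((1 / 4) * S2) ≤ Q := le_trans
      (mul_le_mul_of_nonneg_left h1 (by positivity)) hP1b
    nlinarith
  -- per index
  have hper : ∀ i, (p i - r i) ^ 2 / m i ≤ 54 * (n i * D2 i ^ 2) + 6 * (n i * D1 i ^ 2)
      + 48 * R ^ 2 * Gi i := by
    intro i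
    have h1 := key_pr_bound (p := p i) (hn i) (hm i) (hmn1 i) (hmn2 i) (hr i)
    have h2 := key_mean_bound (p := p i) hR hlam (hn i) (hm i) (ha1 i) (ha2 i) (ha'1 i) (ha'2 i) (hq i)
    have h3 : 3 * n i * (p i / m i - q i / n i) ^ 2
        ≤ 3 * n i * (18 * D2 i ^ 2 + 2 * D1 i ^ 2) :=
      mul_le_mul_of_nonneg_left h2 (by have := hn i; positivity)
    nlinarith
  calc ∑ i, (p i - r i) ^ 2 / m i
      ≤ ∑ i, (54 * (n i * D2 i ^ 2) + 6 * (n i * D1 i ^ 2) + 48 * R ^ 2 * Gi i) :=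
        Finset.sum_le_sum fun i _ => hper i
    _ = 54 * S2 + 6 * S1 + 48 * R ^ 2 * G := by
        rw [Finset.sum_add_distrib, Finset.sum_add_distrib, ← Finset.mul_sum, ← Finset.mul_sum,
          ← Finset.mul_sum, hG]
    _ ≤ 2211888 * R ^ 2 * G := by
        have hinv : 1 / lam = 384 * R ^ 2 := by rw [hlam]; field_simp
        have hR2 : 0 < R ^ 2 := by positivity
        have hS1' : S1 ≤ 96 * G * (384 * R ^ 2) := by
          rw [← hinv]
          rw [mul_one_div, le_div_iff₀ hlam0]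
          linarith
        have hS2' : S2 ≤ 96 * G * (384 * R ^ 2) := by
          rw [← hinv]
          rw [mul_one_div, le_div_iff₀ hlam0]
          linarith
        nlinarith

end Crest.Agent.Lib.OT
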