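import Crest.Agent.Lib.OT.KeyCell
import Crest.Agent.Lib.OT.KeyArith

/-!
# S0109 Key: `key_stability`, the Prékopa–Leindler heart of the stability estimate
-/

set_option autoImplicit false

open MeasureTheory Set Filter Topology Function
open scoped ENNReal NNReal RealInnerProductSpace
open Crest.AnalysisR.OT

namespace Crest.Agent.Lib.OT

variable {d : ℕ} {K : Set (EuclideanSpace ℝ (Fin d))}

theorem key_setInt_le (hKc : IsCompact K) (hKi : (interior K).Nonempty)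
    (S : Set (EuclideanSpace ℝ (Fin d))) {f : EuclideanSpace ℝ (Fin d) → ℝ}
    (hf : Integrable f (uniformProbOn K)) {C : ℝ} (h : ∀ x ∈ K, f x ≤ C) :
    ∫ x in S, f x ∂(uniformProbOn K) ≤ C * (uniformProbOn K).real S := by
  have := uniform_isProb hKc hKi
  have h1 : ∫ x in S, f x ∂(uniformProbOn K) ≤ ∫ _x in S, C ∂(uniformProbOn K) := by
    refine setIntegral_mono_ae hf.integrableOn (integrable_const _).integrableOn ?_
    filter_upwards [uniform_ae_mem hKc] with x hx using h x hx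
  rw [setIntegral_const, smul_eq_mul] at h1
  linarith

theorem key_setInt_ge (hKc : IsCompact K) (hKi : (interior K).Nonempty)
    (S : Set (EuclideanSpace ℝ (Fin d))) {f : EuclideanSpace ℝ (Fin d) → ℝ}
    (hf : Integrable f (uniformProbOn K)) {C : ℝ} (h : ∀ x ∈ K, C ≤ f x) :
    C * (uniformProbOn K).real S ≤ ∫ x in S, f x ∂(uniformProbOn K) := by
  have := uniform_isProb hKc hKi
  have h1 : ∫ _x in S, C ∂(uniformProbOn K) ≤ ∫ x in S, f x ∂(uniformProbOn K) := by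
    refine setIntegral_mono_ae (integrable_const _).integrableOn hf.integrableOn ?_
    filter_upwards [uniform_ae_mem hKc] with x hx using h x hx
  rw [setIntegral_const, smul_eq_mul] at h1
  linarith

theorem key_sum_partition {ι : Type*} [Fintype ι] (hKc : IsCompact K) (hKi : (interior K).Nonempty)
    (S : ι → Set (EuclideanSpace ℝ (Fin d))) (hS : ∀ i, MeasurableSet (S i))
    (hU : ⋃ i, S i = univ) (hd : Pairwise (AEDisjoint (uniformProbOn K) on S))
    {f : EuclideanSpace ℝ (Fin d) → ℝ} (hf : Integrable f (uniformProbOn K)) :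
    ∑ i, ∫ x in S i, f x ∂(uniformProbOn K) = ∫ x, f x ∂(uniformProbOn K) := by
  have h := integral_iUnion_ae (fun i => (hS i).nullMeasurableSet) hd (f := f) hf.integrableOn
  rw [hU, setIntegral_univ, tsum_fintype] at h
  exact h.symm

theorem key_sum_le {ι : Type*} [Fintype ι]
    (S : ι → Set (EuclideanSpace ℝ (Fin d))) (hS : ∀ i, MeasurableSet (S i))
    (hd : Pairwise (AEDisjoint (uniformProbOn K) on S))
    {f : EuclideanSpace ℝ (Fin d) → ℝ} (hf : Integrable f (uniformProbOn K)) (hf0 : ∀ x, 0 ≤ f x) :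
    ∑ i, ∫ x in S i, f x ∂(uniformProbOn K) ≤ ∫ x, f x ∂(uniformProbOn K) := by
  have h := integral_iUnion_ae (fun i => (hS i).nullMeasurableSet) hd (f := f) hf.integrableOn
  rw [tsum_fintype] at h
  rw [← h]
  exact setIntegral_le_integral hf (Eventually.of_forall hf0)

theorem key_cs {X : Type*} [MeasurableSpace X] (ν : Measure X) {f g : X → ℝ}
    (hff : Integrable (fun x => f x ^ 2) ν) (hgg : Integrable (fun x => g x ^ 2) ν)
    (hfg : Integrable (fun x => f x * g x) ν) :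
    (∫ x, f x * g x ∂ν) ^ 2 ≤ (∫ x, f x ^ 2 ∂ν) * (∫ x, g x ^ 2 ∂ν) := by
  have h : ∀ t : ℝ, 0 ≤ (∫ x, f x ^ 2 ∂ν) * (t * t) + (-2 * ∫ x, f x * g x ∂ν) * t
      + ∫ x, g x ^ 2 ∂ν := by
    intro t
    have hnn : 0 ≤ ∫ x, (t * f x - g x) ^ 2 ∂ν := integral_nonneg fun x => sq_nonneg _
    have hex : ∀ x, (t * f x - g x) ^ 2 = (t * t) * f x ^ 2 + (-2 * t) * (f x * g x) + g x ^ 2 := by
      intro x; ring
    simp_rw [hex] at hnn
    have h1 : ∫ x, ((t * t) * f x ^ 2 + (-2 * t) * (f x * g x) + g x ^ 2) ∂ν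
        = (t * t) * (∫ x, f x ^ 2 ∂ν) + (-2 * t) * (∫ x, f x * g x ∂ν) + ∫ x, g x ^ 2 ∂ν := by
      rw [integral_add (f := fun x => (t * t) * f x ^ 2 + (-2 * t) * (f x * g x))
        ((hff.const_mul _).add (hfg.const_mul _)) hgg,
        integral_add (hff.const_mul _) (hfg.const_mul _), integral_const_mul, integral_const_mul]
    rw [h1] at hnn
    linarith
  have hd := discrim_le_zero h
  unfold discrim at hd
  nlinarith

/-- (P1) in summed form. -/
theorem key_P1 {ι : Type*} [Fintype ι] (hKc : IsCompact K) (hKv : Convex ℝ K)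
    (hKi : (interior K).Nonempty) (x₀ : EuclideanSpace ℝ (Fin d)) {lam : ℝ} (hlam : 0 < lam)
    (A A' M : ι → Set (EuclideanSpace ℝ (Fin d))) (hA : ∀ i, MeasurableSet (A i))
    (hA' : ∀ i, MeasurableSet (A' i)) (hM : ∀ i, MeasurableSet (M i))
    (hAU : ⋃ i, A i = univ) (hAU' : ⋃ i, A' i = univ)
    (hAd : Pairwise (AEDisjoint (uniformProbOn K) on A))
    (hAd' : Pairwise (AEDisjoint (uniformProbOn K) on A'))
    (hMd : Pairwise (AEDisjoint (uniformProbOn K) on M))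
    (hmid : ∀ i, ∀ x ∈ A i ∩ K, ∀ x' ∈ A' i ∩ K, (1 / 2 : ℝ) • (x + x') ∈ M i)
    (a a' : ι → ℝ) (ha : ∀ i, a i = ∫ x in A i, keyW lam x₀ x ∂(uniformProbOn K))
    (ha' : ∀ i, a' i = ∫ x in A' i, keyW lam x₀ x ∂(uniformProbOn K))
    (ha0 : ∀ i, 0 < a i) (ha'0 : ∀ i, 0 < a' i)
    (ζ : ι → EuclideanSpace ℝ (Fin d) → ℝ) (hζ : ∀ i, Continuous (ζ i))
    (hζL : ∀ i, ∀ x ∈ K, ∀ x' ∈ K, |ζ i x - ζ i x'| ≤ ‖x - x'‖) :
    lam / 4 * ∑ i, (2 * a i * a' i / (a i + a' i)) *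
        ((∫ x in A i, keyW lam x₀ x * ζ i x ∂(uniformProbOn K)) / a i
          - (∫ x in A' i, keyW lam x₀ x * ζ i x ∂(uniformProbOn K)) / a' i) ^ 2
      ≤ ∑ i, (a i - a' i) ^ 2 / (a i + a' i) := by
  set D : ι → ℝ := fun i => (∫ x in A i, keyW lam x₀ x * ζ i x ∂(uniformProbOn K)) / a i
          - (∫ x in A' i, keyW lam x₀ x * ζ i x ∂(uniformProbOn K)) / a' i with hD
  set H : ι → ℝ := fun i => 2 * a i * a' i / (a i + a' i) with hH
  set Q : ι → ℝ := fun i => (a i - a' i) ^ 2 / (a i + a' i) with hQ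
  have hwI : Integrable (keyW lam x₀) (uniformProbOn K) :=
    uniform_integrable_of_continuous hKc hKi (keyW_continuous lam x₀)
  set Z := ∫ x, keyW lam x₀ x ∂(uniformProbOn K) with hZ
  have hsumA : ∑ i, a i = Z := by
    simp_rw [ha]
    exact key_sum_partition hKc hKi A hA hAU hAd hwI
  have hsumA' : ∑ i, a' i = Z := by
    simp_rw [ha']
    exact key_sum_partition hKc hKi A' hA' hAU' hAd' hwI
  have hsumM : ∑ i, ∫ x in M i, keyW lam x₀ x ∂(uniformProbOn K) ≤ Z :=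
    key_sum_le M hM hMd hwI (fun x => (keyW_pos lam x₀ x).le)
  have hcell : ∀ i, H i * (1 + lam * D i ^ 2 / 8) ≤ ∫ x in M i, keyW lam x₀ x ∂(uniformProbOn K) :=
    fun i => key_cell_ineq hKc hKv hKi x₀ hlam (hA i) (hA' i) (hM i) (hmid i) (hζ i) (hζL i)
      (ha i) (ha' i) (ha0 i) (ha'0 i)
  have hid : ∀ i, (a i + a' i) / 2 = H i + Q i / 2 := by
    intro i
    have h0 : a i + a' i ≠ 0 := (add_pos (ha0 i) (ha'0 i)).ne'
    simp only [hH, hQ]
    field_simp
    ring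
  have h1 : ∑ i, H i + lam / 8 * ∑ i, H i * D i ^ 2 ≤ Z := by
    refine le_trans (le_of_eq ?_) (le_trans (Finset.sum_le_sum fun i _ => hcell i) hsumM)
    rw [Finset.mul_sum, ← Finset.sum_add_distrib]
    refine Finset.sum_congr rfl fun i _ => ?_
    ring
  have h2 : Z = ∑ i, H i + (1 / 2) * ∑ i, Q i := by
    have : ∑ i, (a i + a' i) / 2 = Z := by
      rw [← Finset.sum_div, Finset.sum_add_distrib, hsumA, hsumA']; ring
    rw [← this, Finset.mul_sum, ← Finset.sum_add_distrib]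
    refine Finset.sum_congr rfl fun i _ => ?_
    rw [hid]; ring
  linarith

theorem key_exp_lip {A B : ℝ} (hA : A ≤ 1 / 768) (hB : B ≤ 1 / 768) :
    |Real.exp A - Real.exp B| ≤ 2 * |A - B| := by
  have hexp : ∀ y : ℝ, y ≤ 1 / 768 → Real.exp y ≤ 2 := by
    intro y hy
    have h1 : Real.exp y ≤ Real.exp (1 / 768) := Real.exp_le_exp.mpr hy
    have h2 := Real.add_one_le_exp (-(1 / 768 : ℝ))
    have h3 : Real.exp (1 / 768) * Real.exp (-(1 / 768)) = 1 := by
      rw [← Real.exp_add]; simp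
    have h4 : 0 < Real.exp (1 / 768 : ℝ) := Real.exp_pos _
    nlinarith
  have key : ∀ A B : ℝ, B ≤ A → A ≤ 1 / 768 → Real.exp A - Real.exp B ≤ 2 * (A - B) := by
    intro A B hBA hA
    have h1 := Real.add_one_le_exp (B - A)
    have h2 : Real.exp B = Real.exp A * Real.exp (B - A) := by
      rw [← Real.exp_add]; congr 1; ring
    rw [h2]
    have h3 := hexp A hA
    have h4 : 0 < Real.exp A := Real.exp_pos _
    have : Real.exp A * (B - A + 1) ≤ Real.exp A * Real.exp (B - A) :=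
      mul_le_mul_of_nonneg_left h1 h4.le
    nlinarith
  rcases le_total A B with h | h
  · rw [abs_sub_comm, abs_sub_comm A B, abs_of_nonneg (sub_nonneg.mpr (Real.exp_le_exp.mpr h)),
      abs_of_nonneg (sub_nonneg.mpr h)]
    exact key B A h hB
  · rw [abs_of_nonneg (sub_nonneg.mpr (Real.exp_le_exp.mpr h)), abs_of_nonneg (sub_nonneg.mpr h)]
    exact key A B h hA

/-- Pointwise facts for the weight on `K`. -/
structure KeySetup (K : Set (EuclideanSpace ℝ (Fin d))) (x₀ : EuclideanSpace ℝ (Fin d)) (R lam : ℝ) :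
    Prop where
  hR : 0 < R
  hlam : lam = 1 / (384 * R ^ 2)
  hKR : ∀ x ∈ K, ‖x - x₀‖ ≤ R

namespace KeySetup

variable {x₀ : EuclideanSpace ℝ (Fin d)} {R lam : ℝ}

theorem lam_pos (h : KeySetup K x₀ R lam) : 0 < lam := by
  rw [h.hlam]; have := h.hR; positivity

theorem lamR (h : KeySetup K x₀ R lam) : lam * R ^ 2 = 1 / 384 := by
  rw [h.hlam]; have := h.hR; field_simp

theorem V_le (h : KeySetup K x₀ R lam) {x : EuclideanSpace ℝ (Fin d)} (hx : x ∈ K) :
    lam / 2 * ‖x - x₀‖ ^ 2 ≤ 1 / 768 := by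
  have h1 := h.hKR x hx
  have h2 : ‖x - x₀‖ ^ 2 ≤ R ^ 2 := pow_le_pow_left₀ (norm_nonneg _) h1 2
  have h3 := h.lamR
  have h4 := h.lam_pos
  nlinarith

theorem V_nonneg (h : KeySetup K x₀ R lam) (x : EuclideanSpace ℝ (Fin d)) :
    0 ≤ lam / 2 * ‖x - x₀‖ ^ 2 := by
  have h4 := h.lam_pos
  positivity

theorem w_le_one (h : KeySetup K x₀ R lam) (x : EuclideanSpace ℝ (Fin d)) :
    keyW lam x₀ x ≤ 1 := by
  unfold keyW
  rw [Real.exp_le_one_iff]
  linarith [h.V_nonneg x]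

theorem half_le_w (h : KeySetup K x₀ R lam) {x : EuclideanSpace ℝ (Fin d)} (hx : x ∈ K) :
    1 / 2 ≤ keyW lam x₀ x := by
  unfold keyW
  have h1 := Real.add_one_le_exp (-(lam / 2 * ‖x - x₀‖ ^ 2))
  have := h.V_le hx
  linarith

/-- `1 / w`. -/
noncomputable def inv (lam : ℝ) (x₀ x : EuclideanSpace ℝ (Fin d)) : ℝ :=
  Real.exp (lam / 2 * ‖x - x₀‖ ^ 2)

theorem inv_continuous (lam : ℝ) (x₀ : EuclideanSpace ℝ (Fin d)) : Continuous (inv lam x₀) := by
  unfold inv
  fun_prop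

theorem w_mul_inv (lam : ℝ) (x₀ x : EuclideanSpace ℝ (Fin d)) :
    keyW lam x₀ x * inv lam x₀ x = 1 := by
  unfold keyW inv
  rw [← Real.exp_add]; simp

theorem inv_lip (h : KeySetup K x₀ R lam) {x x' : EuclideanSpace ℝ (Fin d)} (hx : x ∈ K)
    (hx' : x' ∈ K) : |inv lam x₀ x - inv lam x₀ x'| ≤ 2 * lam * R * ‖x - x'‖ := by
  unfold inv
  refine le_trans (key_exp_lip (h.V_le hx) (h.V_le hx')) ?_
  have h4 := h.lam_pos
  have hu := h.hKR x hx
  have hv := h.hKR x' hx'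
  have hR := h.hR
  set u := ‖x - x₀‖
  set v := ‖x' - x₀‖
  have huv : |u - v| ≤ ‖x - x'‖ := by
    have := abs_norm_sub_norm_le (x - x₀) (x' - x₀)
    simpa [sub_sub_sub_cancel_right] using this
  have hu0 : 0 ≤ u := norm_nonneg _
  have hv0 : 0 ≤ v := norm_nonneg _
  have h1 : lam / 2 * u ^ 2 - lam / 2 * v ^ 2 = lam / 2 * (u + v) * (u - v) := by ring
  rw [h1, abs_mul, abs_of_nonneg (by positivity : 0 ≤ lam / 2 * (u + v))]
  have h2 : lam / 2 * (u + v) ≤ lam * R := by nlinarith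
  have h3 : lam / 2 * (u + v) * |u - v| ≤ lam * R * ‖x - x'‖ :=
    mul_le_mul h2 huv (abs_nonneg _) (by positivity)
  linarith

theorem inv_le_two (h : KeySetup K x₀ R lam) {x : EuclideanSpace ℝ (Fin d)} (hx : x ∈ K) :
    inv lam x₀ x ≤ 2 := by
  have h1 := w_mul_inv lam x₀ x
  have h2 := h.half_le_w hx
  have h3 : 0 < inv lam x₀ x := Real.exp_pos _
  nlinarith

theorem zeta1_lip (h : KeySetup K x₀ R lam) {x x' : EuclideanSpace ℝ (Fin d)} (hx : x ∈ K)
    (hx' : x' ∈ K) : |inv lam x₀ x / (2 * lam * R) - inv lam x₀ x' / (2 * lam * R)| ≤ ‖x - x'‖ := by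
  have hl : 0 < 2 * lam * R := by have := h.lam_pos; have := h.hR; positivity
  rw [← sub_div, abs_div, abs_of_pos hl, div_le_iff₀ hl]
  have := h.inv_lip hx hx'
  linarith

theorem zeta2_lip (h : KeySetup K x₀ R lam) {b : EuclideanSpace ℝ (Fin d)} (hb : ‖b‖ ≤ 1)
    {x x' : EuclideanSpace ℝ (Fin d)} (hx : x ∈ K) (hx' : x' ∈ K) :
    |⟪x - x₀, b⟫ * inv lam x₀ x / 3 - ⟪x' - x₀, b⟫ * inv lam x₀ x' / 3| ≤ ‖x - x'‖ := by
  have hn : 0 ≤ ‖x - x'‖ := norm_nonneg _
  have hR := h.hR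
  have hxi : |⟪x - x₀, b⟫ - ⟪x' - x₀, b⟫| ≤ ‖x - x'‖ := by
    rw [← inner_sub_left]
    have h1 : x - x₀ - (x' - x₀) = x - x' := by abel
    rw [h1]
    have h2 := abs_real_inner_le_norm (x - x') b
    have h3 : ‖x - x'‖ * ‖b‖ ≤ ‖x - x'‖ * 1 := mul_le_mul_of_nonneg_left hb hn
    linarith
  have hxi' : |⟪x' - x₀, b⟫| ≤ R := by
    have h2 := abs_real_inner_le_norm (x' - x₀) b
    have h3 : ‖x' - x₀‖ * ‖b‖ ≤ R * 1 :=
      mul_le_mul (h.hKR x' hx') hb (norm_nonneg _) hR.le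
    linarith
  have hinv := h.inv_le_two hx
  have hinv0 : 0 ≤ inv lam x₀ x := (Real.exp_pos _).le
  have hl := h.inv_lip hx hx'
  set s := ⟪x - x₀, b⟫
  set s' := ⟪x' - x₀, b⟫
  set I := inv lam x₀ x
  set I' := inv lam x₀ x'
  have hsplit : s * I / 3 - s' * I' / 3 = ((s - s') * I + s' * (I - I')) / 3 := by ring
  rw [hsplit, abs_div, abs_of_pos (by norm_num : (0 : ℝ) < 3), div_le_iff₀ (by norm_num)]
  have h5 : |(s - s') * I + s' * (I - I')| ≤ |s - s'| * I + |s'| * |I - I'| := by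
    refine le_trans (abs_add_le _ _) ?_
    rw [abs_mul, abs_mul, abs_of_nonneg hinv0]
  have h6 : |s - s'| * I ≤ ‖x - x'‖ * 2 := mul_le_mul hxi hinv hinv0 hn
  have h7 : |s'| * |I - I'| ≤ R * (2 * lam * R * ‖x - x'‖) :=
    mul_le_mul hxi' hl (abs_nonneg _) hR.le
  have h8 : R * (2 * lam * R * ‖x - x'‖) = 2 * (lam * R ^ 2) * ‖x - x'‖ := by ring
  rw [h8, h.lamR] at h7
  nlinarith

end KeySetup

/-- All facts about one index, in a form usable by `key_master`. -/
theorem key_index_facts (hKc : IsCompact K) (hKi : (interior K).Nonempty)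
    {x₀ : EuclideanSpace ℝ (Fin d)} {R lam : ℝ} (hS : KeySetup K x₀ R lam)
    {A A' : Set (EuclideanSpace ℝ (Fin d))} (hA : MeasurableSet A) (hA' : MeasurableSet A')
    {g : EuclideanSpace ℝ (Fin d) → ℝ} (hg : Continuous g) (hgb : ∀ x ∈ K, |g x| ≤ 1 / 2)
    {m : ℝ} (hm : 0 < m) (hAm : (uniformProbOn K).real A = m)
    (hAm' : ∫ x in A', (1 + g x) ∂(uniformProbOn K) = m)
    {b : EuclideanSpace ℝ (Fin d)} (hb : ‖b‖ ≤ 1) :
    let U := uniformProbOn K
    let n := U.real A'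
    let a := ∫ x in A, keyW lam x₀ x ∂U
    let a' := ∫ x in A', keyW lam x₀ x ∂U
    let G := ∫ x in A', g x ^ 2 ∂U
    let q := ∫ x in A', ⟪x - x₀, b⟫ ∂U
    let r := ∫ x in A', ⟪x - x₀, b⟫ * (1 + g x) ∂U
    0 < n ∧ m / 2 ≤ a ∧ a ≤ m ∧ n / 2 ≤ a' ∧ a' ≤ n ∧ n / 2 ≤ m ∧ m ≤ 3 * n / 2 ∧
      (m - n) ^ 2 ≤ n * G ∧ |q| ≤ n * R ∧ (r - m * (q / n)) ^ 2 ≤ 4 * R ^ 2 * n * G := by
  intro U n a a' G q r
  have hprob := uniform_isProb hKc hKi
  have hR := hS.hR
  have hwI : Integrable (keyW lam x₀) U := uniform_integrable_of_continuous hKc hKi (keyW_continuous lam x₀)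
  have hgI : Integrable g U := uniform_integrable_of_continuous hKc hKi hg
  have hg2I : Integrable (fun x => g x ^ 2) U :=
    uniform_integrable_of_continuous hKc hKi (by fun_prop)
  have hξc : Continuous fun x : EuclideanSpace ℝ (Fin d) => ⟪x - x₀, b⟫ :=
    (continuous_id.sub continuous_const).inner continuous_const
  have hξI : Integrable (fun x : EuclideanSpace ℝ (Fin d) => ⟪x - x₀, b⟫) U :=
    uniform_integrable_of_continuous hKc hKi hξc
  have hξb : ∀ x ∈ K, |⟪x - x₀, b⟫| ≤ R := by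
    intro x hx
    have h2 := abs_real_inner_le_norm (x - x₀) b
    have h3 : ‖x - x₀‖ * ‖b‖ ≤ R * 1 :=
      mul_le_mul (hS.hKR x hx) hb (norm_nonneg _) hR.le
    linarith
  have hn0 : 0 ≤ n := measureReal_nonneg
  -- m - n
  have hint1 : ∫ _x in A', (1 : ℝ) ∂U = n := by
    rw [setIntegral_const]; simp [n]
  have hmn : m = n + ∫ x in A', g x ∂U := by
    rw [← hAm', integral_add (integrable_const _).integrableOn hgI.integrableOn, hint1]
  have hg1 : ∫ x in A', g x ∂U ≤ 1 / 2 * n :=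
    key_setInt_le hKc hKi A' hgI fun x hx => (abs_le.mp (hgb x hx)).2
  have hg2 : (-(1 / 2)) * n ≤ ∫ x in A', g x ∂U :=
    key_setInt_ge hKc hKi A' hgI fun x hx => (abs_le.mp (hgb x hx)).1
  have hn : 0 < n := by
    rcases hn0.lt_or_eq with h | h
    · exact h
    · exfalso; rw [← h] at hg1; simp only [mul_zero] at hg1; linarith
  have hmn1 : n / 2 ≤ m := by linarith
  have hmn2 : m ≤ 3 * n / 2 := by linarith
  refine ⟨hn, ?_, ?_, ?_, ?_, hmn1, hmn2, ?_, ?_, ?_⟩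
  · -- m / 2 ≤ a
    have := key_setInt_ge hKc hKi A hwI fun x hx => hS.half_le_w hx
    rw [hAm] at this
    change m / 2 ≤ ∫ x in A, keyW lam x₀ x ∂U
    linarith
  · have := key_setInt_le hKc hKi A hwI fun x _ => hS.w_le_one x
    rw [hAm] at this
    change ∫ x in A, keyW lam x₀ x ∂U ≤ m
    linarith
  · have := key_setInt_ge hKc hKi A' hwI fun x hx => hS.half_le_w hx
    change n / 2 ≤ ∫ x in A', keyW lam x₀ x ∂U
    linarith
  · have := key_setInt_le hKc hKi A' hwI fun x _ => hS.w_le_one x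
    change ∫ x in A', keyW lam x₀ x ∂U ≤ n
    linarith
  · -- (m - n)^2 ≤ n G
    have hcs := key_cs (U.restrict A') (f := fun _ => (1 : ℝ)) (g := g)
      (integrable_const _) hg2I.integrableOn (hgI.integrableOn.const_mul 1)
    simp only [one_mul, one_pow] at hcs
    rw [hint1] at hcs
    have : m - n = ∫ x in A', g x ∂U := by linarith
    rw [this]
    exact hcs
  · -- |q| ≤ n R
    have h1 := key_setInt_le hKc hKi A' hξI fun x hx => (abs_le.mp (hξb x hx)).2
    have h2 := key_setInt_ge hKc hKi A' hξI (C := -R) fun x hx => (abs_le.mp (hξb x hx)).1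
    rw [abs_le]
    constructor
    · change -(n * R) ≤ ∫ x in A', ⟪x - x₀, b⟫ ∂U
      nlinarith
    · change ∫ x in A', ⟪x - x₀, b⟫ ∂U ≤ n * R
      nlinarith
  · -- the last one
    set μ' := q / n with hμ'
    have hq' : q = μ' * n := by rw [hμ']; field_simp
    have hμ'R : |μ'| ≤ R := by
      have h1 := key_setInt_le hKc hKi A' hξI fun x hx => (abs_le.mp (hξb x hx)).2
      have h2 := key_setInt_ge hKc hKi A' hξI (C := -R) fun x hx => (abs_le.mp (hξb x hx)).1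
      rw [hμ', abs_div, abs_of_pos hn, div_le_iff₀ hn, abs_le]
      constructor
      · change -(R * n) ≤ ∫ x in A', ⟪x - x₀, b⟫ ∂U
        linarith
      · change ∫ x in A', ⟪x - x₀, b⟫ ∂U ≤ R * n
        linarith
    -- r - m μ' = ∫ (ξ - μ') g
    have hsplit : r - m * μ' = ∫ x in A', (⟪x - x₀, b⟫ - μ') * g x ∂U := by
      have h1 : ∀ x, (⟪x - x₀, b⟫ - μ') * g x
          = ⟪x - x₀, b⟫ * (1 + g x) - μ' * (1 + g x) - (⟪x - x₀, b⟫ - μ') := by
        intro x; ring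
      simp_rw [h1]
      have hI1 : Integrable (fun x : EuclideanSpace ℝ (Fin d) => ⟪x - x₀, b⟫ * (1 + g x)) U :=
        uniform_integrable_of_continuous hKc hKi (by fun_prop)
      have hI2 : Integrable (fun x : EuclideanSpace ℝ (Fin d) => 1 + g x) U :=
        uniform_integrable_of_continuous hKc hKi (by fun_prop)
      have hI3 : Integrable (fun x : EuclideanSpace ℝ (Fin d) => ⟪x - x₀, b⟫ - μ') U :=
        hξI.sub (integrable_const _)
      rw [integral_sub (f := fun x => ⟪x - x₀, b⟫ * (1 + g x) - μ' * (1 + g x))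
          (g := fun x => ⟪x - x₀, b⟫ - μ')
          (hI1.integrableOn.sub (hI2.integrableOn.const_mul _)) hI3.integrableOn,
        integral_sub hI1.integrableOn (hI2.integrableOn.const_mul _), integral_const_mul, hAm',
        integral_sub hξI.integrableOn (integrable_const _).integrableOn, setIntegral_const]
      have : (U.real A') • μ' = n * μ' := rfl
      rw [this]
      change r - m * μ' = r - μ' * m - (q - n * μ')
      rw [hq']; ring
    have hcont : Continuous fun x : EuclideanSpace ℝ (Fin d) => (⟪x - x₀, b⟫ - μ') := by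
      fun_prop
    have hcont2 : Continuous fun x : EuclideanSpace ℝ (Fin d) => (⟪x - x₀, b⟫ - μ') ^ 2 :=
      hcont.pow 2
    have hcs := key_cs (U.restrict A') (f := fun x => ⟪x - x₀, b⟫ - μ') (g := g)
      (uniform_integrable_of_continuous hKc hKi hcont2).integrableOn hg2I.integrableOn
      (uniform_integrable_of_continuous hKc hKi (hcont.mul hg)).integrableOn
    rw [hsplit]
    refine le_trans hcs ?_
    have hG0 : 0 ≤ G := integral_nonneg fun x => sq_nonneg _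
    have hsq : ∫ x in A', (⟪x - x₀, b⟫ - μ') ^ 2 ∂U ≤ 4 * R ^ 2 * n := by
      refine key_setInt_le hKc hKi A' (uniform_integrable_of_continuous hKc hKi hcont2) ?_
      intro x hx
      have h1 := abs_le.mp (hξb x hx)
      have h2 := abs_le.mp hμ'R
      have h3 : (⟪x - x₀, b⟫ - μ') ^ 2 ≤ (2 * R) ^ 2 := by
        rw [← sq_abs]
        apply pow_le_pow_left₀ (abs_nonneg _)
        rw [abs_le]
        constructor <;> linarith [h1.1, h1.2, h2.1, h2.2]
      nlinarith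
    exact mul_le_mul_of_nonneg_right hsq hG0

theorem key_stability {d : ℕ} {K : Set (EuclideanSpace ℝ (Fin d))} (hKc : IsCompact K) (hKv : Convex ℝ K) (hKi : (interior K).Nonempty) {x₀ : EuclideanSpace ℝ (Fin d)} {R : ℝ} (hR : 0 < R) (hKR : K ⊆ Metric.closedBall x₀ R) {ι : Type*} [Fintype ι] (A A' M : ι → Set (EuclideanSpace ℝ (Fin d))) (hA : ∀ i, MeasurableSet (A i)) (hA' : ∀ i, MeasurableSet (A' i)) (hM : ∀ i, MeasurableSet (M i)) (hAU : ⋃ i, A i = univ) (hAU' : ⋃ i, A' i = univ) (hAd : Pairwise (AEDisjoint (uniformProbOn K) on A)) (hAd' : Pairwise (AEDisjoint (uniformProbOn K) on A')) (hMd : Pairwise (AEDisjoint (uniformProbOn K) on M)) (hmid : ∀ i, ∀ x ∈ A i ∩ K, ∀ x' ∈ A' i ∩ K, (1 / 2 : ℝ) • (x + x') ∈ M i) (g : EuclideanSpace ℝ (Fin d) → ℝ) (hg : Continuous g) (hgb : ∀ x ∈ K, |g x| ≤ 1 / 2) (m : ι → ℝ) (hm : ∀ i, 0 < m i) (hAm : ∀ i, (uniformProbOn K).real (A i) = m i) (hAm' : ∀ i, ∫ x in A' i, (1 + g x) ∂(uniformProbOn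 K) = m i) (a : ι → EuclideanSpace ℝ (Fin d)) :
    |∑ i, (∫ x in A i, ⟪x, a i⟫ ∂(uniformProbOn K) - ∫ x in A' i, ⟪x, a i⟫ * (1 + g x) ∂(uniformProbOn K))| ≤ 2000 * R * Real.sqrt (∫ x, g x ^ 2 ∂(uniformProbOn K)) * Real.sqrt (∑ i, m i * ‖a i‖ ^ 2) := by
  classical
  set lam : ℝ := 1 / (384 * R ^ 2) with hlam
  have hS : KeySetup K x₀ R lam :=
    ⟨hR, hlam, fun x hx => by simpa [dist_eq_norm] using hKR hx⟩
  have hlam0 := hS.lam_pos
  have hprob := uniform_isProb hKc hKi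
  set U := uniformProbOn K with hU
  set b : ι → EuclideanSpace ℝ (Fin d) := fun i => ‖a i‖⁻¹ • a i with hb
  have hb1 : ∀ i, ‖b i‖ ≤ 1 := by
    intro i
    simp only [hb, norm_smul, norm_inv, norm_norm]
    by_cases h : a i = 0
    · simp [h]
    · rw [inv_mul_cancel₀ (norm_ne_zero_iff.mpr h)]
  have hab : ∀ i, a i = ‖a i‖ • b i := by
    intro i
    by_cases h : a i = 0
    · simp [h]
    · simp only [hb, smul_smul]
      rw [mul_inv_cancel₀ (norm_ne_zero_iff.mpr h), one_smul]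
  set w := keyW lam x₀ with hw
  have hwI : Integrable w U := uniform_integrable_of_continuous hKc hKi (keyW_continuous lam x₀)
  let n : ι → ℝ := fun i => U.real (A' i)
  let aw : ι → ℝ := fun i => ∫ x in A i, w x ∂U
  let aw' : ι → ℝ := fun i => ∫ x in A' i, w x ∂U
  let Gi : ι → ℝ := fun i => ∫ x in A' i, g x ^ 2 ∂U
  let p : ι → ℝ := fun i => ∫ x in A i, ⟪x - x₀, b i⟫ ∂U
  let q : ι → ℝ := fun i => ∫ x in A' i, ⟪x - x₀, b i⟫ ∂U
  let r : ι → ℝ := fun i => ∫ x in A' i, ⟪x - x₀, b i⟫ * (1 + g x) ∂U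
  have hfacts := fun i => key_index_facts hKc hKi hS (hA i) (hA' i) hg hgb (hm i) (hAm i) (hAm' i) (hb1 i)
  have hn : ∀ i, 0 < n i := fun i => (hfacts i).1
  have ha1 : ∀ i, m i / 2 ≤ aw i := fun i => (hfacts i).2.1
  have ha2 : ∀ i, aw i ≤ m i := fun i => (hfacts i).2.2.1
  have ha'1 : ∀ i, n i / 2 ≤ aw' i := fun i => (hfacts i).2.2.2.1
  have ha'2 : ∀ i, aw' i ≤ n i := fun i => (hfacts i).2.2.2.2.1
  have hmn1 : ∀ i, n i / 2 ≤ m i := fun i => (hfacts i).2.2.2.2.2.1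
  have hmn2 : ∀ i, m i ≤ 3 * n i / 2 := fun i => (hfacts i).2.2.2.2.2.2.1
  have hGi : ∀ i, (m i - n i) ^ 2 ≤ n i * Gi i := fun i => (hfacts i).2.2.2.2.2.2.2.1
  have hq : ∀ i, |q i| ≤ n i * R := fun i => (hfacts i).2.2.2.2.2.2.2.2.1
  have hr : ∀ i, (r i - m i * (q i / n i)) ^ 2 ≤ 4 * R ^ 2 * n i * Gi i :=
    fun i => (hfacts i).2.2.2.2.2.2.2.2.2
  have haw0 : ∀ i, 0 < aw i := fun i => by have := ha1 i; have := hm i; linarith
  have haw'0 : ∀ i, 0 < aw' i := fun i => by have := ha'1 i; have := hn i; linarith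
  set G := ∫ x, g x ^ 2 ∂U with hGdef
  have hg2I : Integrable (fun x => g x ^ 2) U :=
    uniform_integrable_of_continuous hKc hKi (by fun_prop)
  have hG : ∑ i, Gi i = G := key_sum_partition hKc hKi A' hA' hAU' hAd' hg2I
  have hG0 : 0 ≤ G := integral_nonneg fun x => sq_nonneg _
  have hl : 0 < 2 * lam * R := by positivity
  -- (P1) with the two test functions
  have hP1a : lam / 4 * ∑ i, (2 * aw i * aw' i / (aw i + aw' i)) *
        ((m i / aw i - n i / aw' i) / (2 * lam * R)) ^ 2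
        ≤ ∑ i, (aw i - aw' i) ^ 2 / (aw i + aw' i) := by
    have h := key_P1 hKc hKv hKi x₀ hlam0 A A' M hA hA' hM hAU hAU' hAd hAd' hMd hmid aw aw'
      (fun _ => rfl) (fun _ => rfl) haw0 haw'0
      (fun _ x => KeySetup.inv lam x₀ x / (2 * lam * R))
      (fun _ => (KeySetup.inv_continuous lam x₀).div_const _)
      (fun _ x hx x' hx' => hS.zeta1_lip hx hx')
    refine le_trans (le_of_eq ?_) h
    congr 1
    refine Finset.sum_congr rfl fun i _ => ?_
    have hc : ∀ S : Set (EuclideanSpace ℝ (Fin d)),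
        ∫ x in S, keyW lam x₀ x * (KeySetup.inv lam x₀ x / (2 * lam * R)) ∂U
          = U.real S / (2 * lam * R) := by
      intro S
      have : ∀ x, keyW lam x₀ x * (KeySetup.inv lam x₀ x / (2 * lam * R)) = 1 / (2 * lam * R) := by
        intro x
        rw [← mul_div_assoc, KeySetup.w_mul_inv]
      simp_rw [this]
      rw [setIntegral_const, smul_eq_mul]
      ring
    rw [hc, hc, hAm]
    congr 2
    simp only [n]
    field_simp
  have hξc : ∀ i, Continuous fun x : EuclideanSpace ℝ (Fin d) => ⟪x - x₀, b i⟫ := fun i =>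
    (continuous_id.sub continuous_const).inner continuous_const
  have hP1b : lam / 4 * ∑ i, (2 * aw i * aw' i / (aw i + aw' i)) *
        ((p i / aw i - q i / aw' i) / 3) ^ 2
        ≤ ∑ i, (aw i - aw' i) ^ 2 / (aw i + aw' i) := by
    have h := key_P1 hKc hKv hKi x₀ hlam0 A A' M hA hA' hM hAU hAU' hAd hAd' hMd hmid aw aw'
      (fun _ => rfl) (fun _ => rfl) haw0 haw'0
      (fun i x => ⟪x - x₀, b i⟫ * KeySetup.inv lam x₀ x / 3)
      (fun i => ((hξc i).mul (KeySetup.inv_continuous lam x₀)).div_const _)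
      (fun i x hx x' hx' => hS.zeta2_lip (hb1 i) hx hx')
    refine le_trans (le_of_eq ?_) h
    congr 1
    refine Finset.sum_congr rfl fun i _ => ?_
    have hc : ∀ S : Set (EuclideanSpace ℝ (Fin d)),
        ∫ x in S, keyW lam x₀ x * (⟪x - x₀, b i⟫ * KeySetup.inv lam x₀ x / 3) ∂U
          = (∫ x in S, ⟪x - x₀, b i⟫ ∂U) / 3 := by
      intro S
      have : ∀ x, keyW lam x₀ x * (⟪x - x₀, b i⟫ * KeySetup.inv lam x₀ x / 3) = ⟪x - x₀, b i⟫ / 3 := by
        intro x
        have := KeySetup.w_mul_inv lam x₀ x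
        calc keyW lam x₀ x * (⟪x - x₀, b i⟫ * KeySetup.inv lam x₀ x / 3)
            = ⟪x - x₀, b i⟫ * (keyW lam x₀ x * KeySetup.inv lam x₀ x) / 3 := by ring
          _ = _ := by rw [this, mul_one]
      simp_rw [this]
      rw [integral_div]
    rw [hc, hc]
    congr 2
    simp only [p, q]
    field_simp
  have hmaster := key_master hR hlam m n aw aw' p q r Gi hn hm ha1 ha2 ha'1 ha'2 hmn1 hmn2 hGi hG
    hP1a hP1b hq hr
  -- the terms
  have hterm : ∀ i, (∫ x in A i, ⟪x, a i⟫ ∂U - ∫ x in A' i, ⟪x, a i⟫ * (1 + g x) ∂U)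
      = ‖a i‖ * (p i - r i) := by
    intro i
    have hdec : ∀ x : EuclideanSpace ℝ (Fin d), ⟪x, a i⟫ = ‖a i‖ * ⟪x - x₀, b i⟫ + ⟪x₀, a i⟫ := by
      intro x
      have h1 : ⟪x - x₀, a i⟫ = ⟪x, a i⟫ - ⟪x₀, a i⟫ := inner_sub_left _ _ _
      have h2 : ⟪x - x₀, a i⟫ = ‖a i‖ * ⟪x - x₀, b i⟫ := by
        conv_lhs => rw [hab i]
        rw [real_inner_smul_right]
      linarith
    have hI1 : Integrable (fun x : EuclideanSpace ℝ (Fin d) => ⟪x - x₀, b i⟫) U :=
      uniform_integrable_of_continuous hKc hKi (hξc i)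
    have hI2 : Integrable (fun x : EuclideanSpace ℝ (Fin d) => ⟪x - x₀, b i⟫ * (1 + g x)) U :=
      uniform_integrable_of_continuous hKc hKi ((hξc i).mul (continuous_const.add hg))
    have hI3 : Integrable (fun x : EuclideanSpace ℝ (Fin d) => 1 + g x) U :=
      uniform_integrable_of_continuous hKc hKi (continuous_const.add hg)
    have e1 : ∫ x in A i, ⟪x, a i⟫ ∂U = ‖a i‖ * p i + ⟪x₀, a i⟫ * m i := by
      have e0 : ∫ x in A i, ⟪x, a i⟫ ∂U = ∫ x in A i, (‖a i‖ * ⟪x - x₀, b i⟫ + ⟪x₀, a i⟫) ∂U :=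
        integral_congr_ae (Eventually.of_forall hdec)
      rw [e0, integral_add (hI1.integrableOn.const_mul _) (integrable_const _).integrableOn,
        integral_const_mul, setIntegral_const, hAm, smul_eq_mul]
      ring
    have e2 : ∫ x in A' i, ⟪x, a i⟫ * (1 + g x) ∂U = ‖a i‖ * r i + ⟪x₀, a i⟫ * m i := by
      have : ∀ x : EuclideanSpace ℝ (Fin d), ⟪x, a i⟫ * (1 + g x)
          = ‖a i‖ * (⟪x - x₀, b i⟫ * (1 + g x)) + ⟪x₀, a i⟫ * (1 + g x) := by
        intro x; rw [hdec x]; ring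
      have e0 : ∫ x in A' i, ⟪x, a i⟫ * (1 + g x) ∂U
          = ∫ x in A' i, (‖a i‖ * (⟪x - x₀, b i⟫ * (1 + g x)) + ⟪x₀, a i⟫ * (1 + g x)) ∂U :=
        integral_congr_ae (Eventually.of_forall this)
      rw [e0, integral_add (hI2.integrableOn.const_mul _) (hI3.integrableOn.const_mul _),
        integral_const_mul, integral_const_mul, hAm']
    rw [e1, e2]; ring
  simp_rw [hterm]
  -- Cauchy–Schwarz over the indices
  set X := ∑ i, m i * ‖a i‖ ^ 2 with hX
  set Y := ∑ i, (p i - r i) ^ 2 / m i with hY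
  have hX0 : 0 ≤ X := Finset.sum_nonneg fun i _ => mul_nonneg (hm i).le (by positivity)
  have hsq1 : ∀ i, (Real.sqrt (m i) * ‖a i‖) ^ 2 = m i * ‖a i‖ ^ 2 := by
    intro i; rw [mul_pow, Real.sq_sqrt (hm i).le]
  have hsq2 : ∀ i, ((p i - r i) / Real.sqrt (m i)) ^ 2 = (p i - r i) ^ 2 / m i := by
    intro i; rw [div_pow, Real.sq_sqrt (hm i).le]
  have hprod : ∀ i, ‖a i‖ * (p i - r i) = (Real.sqrt (m i) * ‖a i‖) * ((p i - r i) / Real.sqrt (m i)) := by
    intro i
    have : Real.sqrt (m i) ≠ 0 := (Real.sqrt_pos.mpr (hm i)).ne'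
    field_simp
  have hCS : |∑ i, ‖a i‖ * (p i - r i)| ≤ Real.sqrt X * Real.sqrt Y := by
    rw [abs_le]
    constructor
    · have h1 := Real.sum_mul_le_sqrt_mul_sqrt Finset.univ (fun i => Real.sqrt (m i) * ‖a i‖)
        (fun i => -((p i - r i) / Real.sqrt (m i)))
      simp only [neg_sq, mul_neg, Finset.sum_neg_distrib, hsq1, hsq2] at h1
      simp_rw [← hprod] at h1
      linarith
    · have h1 := Real.sum_mul_le_sqrt_mul_sqrt Finset.univ (fun i => Real.sqrt (m i) * ‖a i‖)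
        (fun i => (p i - r i) / Real.sqrt (m i))
      simp only [hsq1, hsq2] at h1
      simp_rw [← hprod] at h1
      exact h1
  refine le_trans hCS ?_
  have hYb : Real.sqrt Y ≤ 2000 * R * Real.sqrt G := by
    have h1 : Y ≤ (2000 * R) ^ 2 * G := by
      refine le_trans hmaster ?_
      have : 0 ≤ R ^ 2 * G := by positivity
      nlinarith
    calc Real.sqrt Y ≤ Real.sqrt ((2000 * R) ^ 2 * G) := Real.sqrt_le_sqrt h1
      _ = 2000 * R * Real.sqrt G := by
        rw [Real.sqrt_mul (by positivity), Real.sqrt_sq (by positivity)]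
  calc Real.sqrt X * Real.sqrt Y ≤ Real.sqrt X * (2000 * R * Real.sqrt G) :=
        mul_le_mul_of_nonneg_left hYb (Real.sqrt_nonneg _)
    _ = _ := by ring

end Crest.Agent.Lib.OT
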