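import Crest.Agent.Lib.OT.Uniform
import Crest.Agent.Lib.PrekopaLeindler

/-!
# S0109 Key: the Prékopa–Leindler estimate on one cell
-/

set_option autoImplicit false

open MeasureTheory Set Filter Topology Function
open scoped ENNReal NNReal RealInnerProductSpace
open Crest.AnalysisR.OT

namespace Crest.Agent.Lib.OT

variable {d : ℕ} {K : Set (EuclideanSpace ℝ (Fin d))}

theorem key_lintegral_indicator (hKc : IsCompact K) {S : Set (EuclideanSpace ℝ (Fin d))}
    (hS : MeasurableSet S) {F : EuclideanSpace ℝ (Fin d) → ℝ} (hF : Continuous F)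
    (hF0 : ∀ x, 0 ≤ F x) :
    ∫⁻ x, (S ∩ K).indicator (fun x => ENNReal.ofReal (F x)) x
      = ENNReal.ofReal (∫ x in S ∩ K, F x) := by
  rw [lintegral_indicator (hS.inter hKc.measurableSet)]
  have hint : IntegrableOn F (S ∩ K) :=
    (hF.continuousOn.integrableOn_compact hKc).mono_set inter_subset_right
  rw [ofReal_integral_eq_lintegral_ofReal hint (Eventually.of_forall hF0)]

theorem pl_uniform (hKc : IsCompact K) (hKv : Convex ℝ K)
    {A A' M : Set (EuclideanSpace ℝ (Fin d))} (hA : MeasurableSet A) (hA' : MeasurableSet A')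
    (hM : MeasurableSet M)
    (hmid : ∀ x ∈ A ∩ K, ∀ x' ∈ A' ∩ K, (1 / 2 : ℝ) • (x + x') ∈ M)
    {F F' G : EuclideanSpace ℝ (Fin d) → ℝ} (hF : Continuous F) (hF' : Continuous F')
    (hG : Continuous G) (hF0 : ∀ x, 0 ≤ F x) (hF'0 : ∀ x, 0 ≤ F' x) (hG0 : ∀ x, 0 ≤ G x)
    (H : ∀ x ∈ A ∩ K, ∀ x' ∈ A' ∩ K, F x * F' x' ≤ G ((1 / 2 : ℝ) • (x + x')) ^ 2) :
    (∫ x in A, F x ∂(uniformProbOn K)) * (∫ x in A', F' x ∂(uniformProbOn K))
      ≤ (∫ x in M, G x ∂(uniformProbOn K)) ^ 2 := by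
  have hKm := hKc.measurableSet
  set f := (A ∩ K).indicator (fun x => ENNReal.ofReal (F x)) with hf
  set g := (A' ∩ K).indicator (fun x => ENNReal.ofReal (F' x)) with hg
  set h := (M ∩ K).indicator (fun x => ENNReal.ofReal (G x)) with hh
  have hfm : Measurable f := (hF.measurable.ennreal_ofReal).indicator (hA.inter hKm)
  have hgm : Measurable g := (hF'.measurable.ennreal_ofReal).indicator (hA'.inter hKm)
  have hhm : Measurable h := (hG.measurable.ennreal_ofReal).indicator (hM.inter hKm)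
  have hPt : ∀ x y, f x * g y ≤ h ((1 / 2 : ℝ) • (x + y)) ^ 2 := by
    intro x y
    by_cases hx : x ∈ A ∩ K
    · by_cases hy : y ∈ A' ∩ K
      · have hmidK : (1 / 2 : ℝ) • (x + y) ∈ K := by
          have := hKv hx.2 hy.2 (a := 1 / 2) (b := 1 / 2) (by norm_num) (by norm_num) (by norm_num)
          rwa [smul_add]
        have hmem : (1 / 2 : ℝ) • (x + y) ∈ M ∩ K := ⟨hmid x hx y hy, hmidK⟩
        simp only [hf, hg, hh, indicator_of_mem hx, indicator_of_mem hy, indicator_of_mem hmem]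
        rw [← ENNReal.ofReal_mul (hF0 x), ← ENNReal.ofReal_pow (hG0 _)]
        exact ENNReal.ofReal_le_ofReal (H x hx y hy)
      · simp [hg, indicator_of_notMem hy]
    · simp [hf, indicator_of_notMem hx]
  have hPL := PrekopaLeindler.prekopa_leindler f g h hfm hgm hhm hPt
  rw [hf, hg, hh, key_lintegral_indicator hKc hA hF hF0, key_lintegral_indicator hKc hA' hF' hF'0,
    key_lintegral_indicator hKc hM hG hG0] at hPL
  have hI1 : 0 ≤ ∫ x in A ∩ K, F x := integral_nonneg hF0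
  have hI2 : 0 ≤ ∫ x in A' ∩ K, F' x := integral_nonneg hF'0
  have hI3 : 0 ≤ ∫ x in M ∩ K, G x := integral_nonneg hG0
  rw [← ENNReal.ofReal_mul hI1, ← ENNReal.ofReal_pow hI3,
    ENNReal.ofReal_le_ofReal_iff (by positivity)] at hPL
  rw [setIntegral_uniform A hA F, setIntegral_uniform A' hA' F', setIntegral_uniform M hM G]
  set c := (volume K).toReal⁻¹ with hc
  have hc0 : 0 ≤ c := by rw [hc]; positivity
  calc c * (∫ x in A ∩ K, F x) * (c * ∫ x in A' ∩ K, F' x)
      = c ^ 2 * ((∫ x in A ∩ K, F x) * ∫ x in A' ∩ K, F' x) := by ring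
    _ ≤ c ^ 2 * (∫ x in M ∩ K, G x) ^ 2 := by gcongr
    _ = _ := by ring

/-- The Gaussian weight. -/
noncomputable def keyW (lam : ℝ) (x₀ : EuclideanSpace ℝ (Fin d)) (x : EuclideanSpace ℝ (Fin d)) : ℝ :=
  Real.exp (-(lam / 2 * ‖x - x₀‖ ^ 2))

theorem keyW_continuous (lam : ℝ) (x₀ : EuclideanSpace ℝ (Fin d)) : Continuous (keyW lam x₀) := by
  unfold keyW
  fun_prop

theorem keyW_pos (lam : ℝ) (x₀ x : EuclideanSpace ℝ (Fin d)) : 0 < keyW lam x₀ x := Real.exp_pos _

theorem keyW_midpoint (lam : ℝ) (x₀ x x' : EuclideanSpace ℝ (Fin d)) :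
    keyW lam x₀ ((1 / 2 : ℝ) • (x + x')) ^ 2
      = keyW lam x₀ x * keyW lam x₀ x' * Real.exp (lam / 4 * ‖x - x'‖ ^ 2) := by
  unfold keyW
  rw [← Real.exp_nat_mul, ← Real.exp_add, ← Real.exp_add]
  congr 1
  have h1 : (1 / 2 : ℝ) • (x + x') - x₀ = (1 / 2 : ℝ) • ((x - x₀) + (x' - x₀)) := by
    module
  have h2 : x - x' = (x - x₀) - (x' - x₀) := by abel
  rw [h1, h2, norm_smul]
  have hp := parallelogram_law_with_norm ℝ (x - x₀) (x' - x₀)
  have h3 : ‖(1 / 2 : ℝ)‖ = 1 / 2 := by norm_num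
  rw [h3]
  push_cast
  set a := ‖x - x₀ + (x' - x₀)‖
  set b := ‖x - x₀ - (x' - x₀)‖
  set c := ‖x - x₀‖
  set e := ‖x' - x₀‖
  have hab : a ^ 2 = 2 * (c ^ 2 + e ^ 2) - b ^ 2 := by nlinarith
  have : (2 : ℝ) * -(lam / 2 * (1 / 2 * a) ^ 2) = -(lam / 4 * a ^ 2) := by ring
  rw [this, hab]
  ring

/-- Tangent-line Jensen. -/
theorem key_jensen (hKc : IsCompact K) (hKi : (interior K).Nonempty)
    {S : Set (EuclideanSpace ℝ (Fin d))} {w ζ : EuclideanSpace ℝ (Fin d) → ℝ}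
    (hw : Continuous w) (hw0 : ∀ x, 0 ≤ w x) (hζ : Continuous ζ) (t : ℝ) {a : ℝ}
    (ha : a = ∫ x in S, w x ∂(uniformProbOn K)) (ha0 : 0 < a) (hS : MeasurableSet S) :
    a * Real.exp (t * ((∫ x in S, w x * ζ x ∂(uniformProbOn K)) / a))
      ≤ ∫ x in S, w x * Real.exp (t * ζ x) ∂(uniformProbOn K) := by
  set E1 := (∫ x in S, w x * ζ x ∂(uniformProbOn K)) / a with hE1
  have hwζ : Integrable (fun x => w x * ζ x) (uniformProbOn K) :=
    uniform_integrable_of_continuous hKc hKi (hw.mul hζ)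
  have hwI : Integrable w (uniformProbOn K) := uniform_integrable_of_continuous hKc hKi hw
  have hRI : Integrable (fun x => w x * Real.exp (t * ζ x)) (uniformProbOn K) :=
    uniform_integrable_of_continuous hKc hKi (by fun_prop)
  have hpt : ∀ x, Real.exp (t * E1) * ((1 - t * E1) * w x + t * (w x * ζ x))
      ≤ w x * Real.exp (t * ζ x) := by
    intro x
    have h1 := Real.add_one_le_exp (t * ζ x - t * E1)
    have h2 : Real.exp (t * ζ x) = Real.exp (t * E1) * Real.exp (t * ζ x - t * E1) := by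
      rw [← Real.exp_add]; congr 1; ring
    rw [h2]
    have h3 : 0 ≤ w x * Real.exp (t * E1) := mul_nonneg (hw0 x) (Real.exp_pos _).le
    nlinarith [mul_le_mul_of_nonneg_left h1 h3]
  have hLHS : ∫ x in S, Real.exp (t * E1) * ((1 - t * E1) * w x + t * (w x * ζ x)) ∂(uniformProbOn K)
      = a * Real.exp (t * E1) := by
    rw [integral_const_mul, integral_add (hwI.integrableOn.const_mul _)
      (hwζ.integrableOn.const_mul _), integral_const_mul, integral_const_mul, ← ha]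
    have : ∫ x in S, w x * ζ x ∂(uniformProbOn K) = E1 * a := by
      rw [hE1]; field_simp
    rw [this]
    ring
  rw [← hLHS]
  exact setIntegral_mono ((((hwI.const_mul _).add (hwζ.const_mul _)).const_mul _).integrableOn) hRI.integrableOn hpt

/-- The per-cell inequality. -/
theorem key_cell_ineq (hKc : IsCompact K) (hKv : Convex ℝ K) (hKi : (interior K).Nonempty)
    (x₀ : EuclideanSpace ℝ (Fin d)) {lam : ℝ} (hlam : 0 < lam)
    {A A' M : Set (EuclideanSpace ℝ (Fin d))} (hA : MeasurableSet A) (hA' : MeasurableSet A')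
    (hM : MeasurableSet M)
    (hmid : ∀ x ∈ A ∩ K, ∀ x' ∈ A' ∩ K, (1 / 2 : ℝ) • (x + x') ∈ M)
    {ζ : EuclideanSpace ℝ (Fin d) → ℝ} (hζ : Continuous ζ)
    (hζL : ∀ x ∈ K, ∀ x' ∈ K, |ζ x - ζ x'| ≤ ‖x - x'‖)
    {a a' : ℝ} (ha : a = ∫ x in A, keyW lam x₀ x ∂(uniformProbOn K))
    (ha' : a' = ∫ x in A', keyW lam x₀ x ∂(uniformProbOn K)) (ha0 : 0 < a) (ha'0 : 0 < a') :
    2 * a * a' / (a + a') *
      (1 + lam * ((∫ x in A, keyW lam x₀ x * ζ x ∂(uniformProbOn K)) / a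
        - (∫ x in A', keyW lam x₀ x * ζ x ∂(uniformProbOn K)) / a') ^ 2 / 8)
      ≤ ∫ x in M, keyW lam x₀ x ∂(uniformProbOn K) := by
  set w := keyW lam x₀ with hw
  have hwc : Continuous w := keyW_continuous lam x₀
  have hw0 : ∀ x, 0 ≤ w x := fun x => (keyW_pos lam x₀ x).le
  set E1 := (∫ x in A, w x * ζ x ∂(uniformProbOn K)) / a with hE1
  set E2 := (∫ x in A', w x * ζ x ∂(uniformProbOn K)) / a' with hE2
  set D := E1 - E2 with hD
  set τ := D / 2 with hτ
  -- the functions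
  let F : EuclideanSpace ℝ (Fin d) → ℝ := fun x => w x * Real.exp ((lam * τ) * ζ x)
  let F' : EuclideanSpace ℝ (Fin d) → ℝ :=
    fun x => w x * Real.exp ((-(lam * τ)) * ζ x) * Real.exp (-(lam * τ ^ 2))
  have hFc : Continuous F := by fun_prop
  have hF'c : Continuous F' := by fun_prop
  have hF0 : ∀ x, 0 ≤ F x := fun x => mul_nonneg (hw0 x) (Real.exp_pos _).le
  have hF'0 : ∀ x, 0 ≤ F' x := fun x =>
    mul_nonneg (mul_nonneg (hw0 x) (Real.exp_pos _).le) (Real.exp_pos _).le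
  have hPL := pl_uniform hKc hKv hA hA' hM hmid hFc hF'c hwc hF0 hF'0 hw0 (by
    intro x hx x' hx'
    rw [hw, keyW_midpoint]
    have hex : F x * F' x' = keyW lam x₀ x * keyW lam x₀ x'
        * Real.exp (lam * (τ * (ζ x - ζ x') - τ ^ 2)) := by
      simp only [F, F', ← hw]
      have : lam * (τ * (ζ x - ζ x') - τ ^ 2)
          = (lam * τ) * ζ x + (-(lam * τ)) * ζ x' + -(lam * τ ^ 2) := by ring
      rw [this, Real.exp_add, Real.exp_add]
      ring
    rw [hex]
    have hpos : 0 ≤ keyW lam x₀ x * keyW lam x₀ x' :=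
      mul_nonneg (keyW_pos _ _ _).le (keyW_pos _ _ _).le
    refine mul_le_mul_of_nonneg_left ?_ hpos
    apply Real.exp_le_exp.mpr
    have hL := hζL x hx.2 x' hx'.2
    set s := ζ x - ζ x'
    set r := ‖x - x'‖
    have h1 : s ^ 2 ≤ r ^ 2 := by
      rw [← sq_abs s]
      exact pow_le_pow_left₀ (abs_nonneg _) hL 2
    have h2 : τ * s - τ ^ 2 ≤ r ^ 2 / 4 := by nlinarith [sq_nonneg (s / 2 - τ)]
    have : lam * (τ * s - τ ^ 2) ≤ lam * (r ^ 2 / 4) := mul_le_mul_of_nonneg_left h2 hlam.le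
    linarith)
  -- Jensen
  have hJ1 : a * Real.exp ((lam * τ) * E1) ≤ ∫ x in A, F x ∂(uniformProbOn K) :=
    key_jensen hKc hKi hwc hw0 hζ (lam * τ) ha ha0 hA
  have hJ2 : a' * Real.exp ((-(lam * τ)) * E2) ≤
      ∫ x in A', w x * Real.exp ((-(lam * τ)) * ζ x) ∂(uniformProbOn K) :=
    key_jensen hKc hKi hwc hw0 hζ (-(lam * τ)) ha' ha'0 hA'
  have hF'int : ∫ x in A', F' x ∂(uniformProbOn K) =
      (∫ x in A', w x * Real.exp ((-(lam * τ)) * ζ x) ∂(uniformProbOn K))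
        * Real.exp (-(lam * τ ^ 2)) := by
    simp only [F']
    rw [integral_mul_const]
  have hJ2' : a' * Real.exp ((-(lam * τ)) * E2) * Real.exp (-(lam * τ ^ 2))
      ≤ ∫ x in A', F' x ∂(uniformProbOn K) := by
    rw [hF'int]
    exact mul_le_mul_of_nonneg_right hJ2 (Real.exp_pos _).le
  have hprod : a * a' * Real.exp (lam * D ^ 2 / 4)
      ≤ (∫ x in M, w x ∂(uniformProbOn K)) ^ 2 := by
    refine le_trans ?_ hPL
    have h1 : a * a' * Real.exp (lam * D ^ 2 / 4)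
        = (a * Real.exp ((lam * τ) * E1)) *
            (a' * Real.exp ((-(lam * τ)) * E2) * Real.exp (-(lam * τ ^ 2))) := by
      have : lam * D ^ 2 / 4 = (lam * τ) * E1 + (-(lam * τ)) * E2 + -(lam * τ ^ 2) := by
        rw [hτ, hD]; ring
      rw [this, Real.exp_add, Real.exp_add]
      ring
    rw [h1]
    exact mul_le_mul hJ1 hJ2' (by positivity) (le_trans (by positivity) hJ1)
  -- from exponential to polynomial
  set y := lam * D ^ 2 / 8 with hy
  have hy0 : 0 ≤ y := by rw [hy]; positivity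
  have hexp : (1 + y) ^ 2 ≤ Real.exp (lam * D ^ 2 / 4) := by
    have : lam * D ^ 2 / 4 = y + y := by rw [hy]; ring
    rw [this, Real.exp_add]
    have h1 : 1 + y ≤ Real.exp y := by linarith [Real.add_one_le_exp y]
    nlinarith
  set H := 2 * a * a' / (a + a') with hH
  have hH0 : 0 < H := by rw [hH]; positivity
  have hHsq : H ^ 2 ≤ a * a' := by
    rw [hH, div_pow, div_le_iff₀ (by positivity)]
    nlinarith [sq_nonneg (a - a'), mul_pos ha0 ha'0]
  have hMnn : 0 ≤ ∫ x in M, w x ∂(uniformProbOn K) := integral_nonneg hw0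
  have hfin : (H * (1 + y)) ^ 2 ≤ (∫ x in M, w x ∂(uniformProbOn K)) ^ 2 := by
    calc (H * (1 + y)) ^ 2 = H ^ 2 * (1 + y) ^ 2 := by ring
      _ ≤ (a * a') * Real.exp (lam * D ^ 2 / 4) := by
        apply mul_le_mul hHsq hexp (by positivity) (by positivity)
      _ ≤ _ := hprod
  exact (pow_le_pow_iff_left₀ (by positivity) hMnn (by norm_num)).mp hfin

end Crest.Agent.Lib.OT
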