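import Crest.Agent.Lib.OT.SemiDiscrete

/-!
# Limit potentials for general targets (S0109)

Discretise a coupling `π` on a compact set by finitely many atoms (with both marginals injective),
solve the semi-discrete problems, extract a uniformly convergent subsequence of the potentials
(Arzela-Ascoli), identify the push-forwards by the gradients of the limit potentials (subgradients
converge to the gradient at points of differentiability), and pass the atomic stability estimate
to the limit.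
-/

set_option autoImplicit false

open MeasureTheory Set Filter Topology Function
open scoped ENNReal NNReal RealInnerProductSpace
open Crest.AnalysisR.OT

namespace Crest.Agent.Lib.OT

section Subgrad
variable {E : Type*} [NormedAddCommGroup E] [InnerProductSpace ℝ E] [CompleteSpace E]

/-- A subgradient of a uniformly close function at a point of differentiability is close to
the gradient. -/
theorem subgrad_close {K : Set E} {u : E → ℝ} {x : E} (hx : x ∈ interior K)
    (hd : DifferentiableAt ℝ u x) {η : ℝ} (hη : 0 < η) :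
    ∃ δ > 0, ∀ (w : E → ℝ), (∀ z ∈ K, |w z - u z| ≤ δ) →
      ∀ p : E, (∀ z, w x + ⟪z - x, p⟫ ≤ w z) → ‖p - gradient u x‖ ≤ η := by
  set G := gradient u x with hG
  have hgrad : HasFDerivAt u (InnerProductSpace.toDual ℝ E G) x := hd.hasGradientAt
  have hlo := hgrad.isLittleO.def (c := η / 3) (by positivity)
  have hev := hlo.and (mem_interior_iff_mem_nhds.mp hx)
  obtain ⟨r, hr, hball⟩ := Metric.eventually_nhds_iff.mp hev
  set t := r / 2 with ht
  have htpos : 0 < t := by positivity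
  refine ⟨η * t / 6, by positivity, fun w hw p hp => ?_⟩
  by_cases hpG : p = G
  · simp [hpG, hη.le]
  have hne : ‖p - G‖ ≠ 0 := norm_ne_zero_iff.mpr (sub_ne_zero.mpr hpG)
  have hnpos : 0 < ‖p - G‖ := lt_of_le_of_ne (norm_nonneg _) (Ne.symm hne)
  set b : E := (‖p - G‖)⁻¹ • (p - G) with hb
  have hbn : ‖b‖ = 1 := by
    rw [hb, norm_smul, norm_inv, norm_norm, inv_mul_cancel₀ hne]
  set z := x + t • b with hz
  have hzx : z - x = t • b := by rw [hz]; abel
  have hzn : ‖z - x‖ = t := by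
    rw [hzx, norm_smul, hbn, mul_one, Real.norm_of_nonneg htpos.le]
  have hzball : dist z x < r := by
    rw [dist_eq_norm, hzn, ht]; linarith
  obtain ⟨h1, h2⟩ := hball hzball
  have hxK : x ∈ K := interior_subset hx
  have h3 := hw z h2
  have h4 := hw x hxK
  have h5 := hp z
  rw [Real.norm_eq_abs, hzn, InnerProductSpace.toDual_apply_apply] at h1
  rw [abs_le] at h3 h4
  have h1' := (abs_le.mp h1).2
  -- inner products
  have h6 : ⟪z - x, p⟫ - ⟪G, z - x⟫ = t * ‖p - G‖ := by
    rw [real_inner_comm (z - x) G, ← inner_sub_right, hzx, real_inner_smul_left, hb,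
      real_inner_smul_left, real_inner_self_eq_norm_sq]
    field_simp
  have h7 : t * ‖p - G‖ ≤ t * (2 * η / 3) := by
    have : t * (2 * η / 3) = η / 3 * t + 2 * (η * t / 6) := by ring
    rw [this]
    linarith [h3.2, h4.1]
  have := le_of_mul_le_mul_left h7 htpos
  linarith

end Subgrad


section Limit

variable {d : ℕ} {K : Set (EuclideanSpace ℝ (Fin d))}

/-- Boundedly many cells: the sum of indicators is the value at the unique cell. -/
theorem ae_unique_cell (hKc : IsCompact K) (hKi : (interior K).Nonempty) {N : ℕ → ℕ}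
    (y : ∀ n, Fin (N n) → EuclideanSpace ℝ (Fin d)) (φ : ∀ n, Fin (N n) → ℝ)
    (hy : ∀ n, Injective (y n)) :
    ∀ᵐ x ∂(uniformProbOn K), ∀ n, ∀ i j, i ≠ j → x ∈ cell (y n) (φ n) i → x ∉ cell (y n) (φ n) j := by
  have hP := isSource_uniform hKc hKi
  rw [ae_all_iff]
  intro n
  rw [ae_all_iff]
  intro i
  rw [ae_all_iff]
  intro j
  by_cases hij : i = j
  · exact Eventually.of_forall fun x h => absurd hij h
  have h1 : uniformProbOn K (cell (y n) (φ n) i ∩ cell (y n) (φ n) j) = 0 :=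
    hP.aedisjoint_cell (hy n) (φ n) hij
  have h2 : ∀ᵐ x ∂(uniformProbOn K), x ∉ cell (y n) (φ n) i ∩ cell (y n) (φ n) j := by
    rw [ae_iff]
    simpa using h1
  filter_upwards [h2] with x hx _ hxi hxj
  exact hx ⟨hxi, hxj⟩

/-- a.e. point of a convex body lies in the interior. -/
theorem ae_mem_interior (hKc : IsCompact K) (hKv : Convex ℝ K) :
    ∀ᵐ x ∂(uniformProbOn K), x ∈ interior K := by
  have h1 : volume (frontier K) = 0 := hKv.addHaar_frontier volume
  have h2 : ∀ᵐ x ∂(uniformProbOn K), x ∉ frontier K := by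
    rw [ae_iff]
    simp only [not_not]
    exact uniform_ac h1
  filter_upwards [h2, uniform_ae_mem hKc] with x hx hxK
  by_contra hcon
  exact hx ⟨subset_closure hxK, hcon⟩

theorem tendsto_sum_of_uniform (hKc : IsCompact K) (hKv : Convex ℝ K)
    (hKi : (interior K).Nonempty) {N : ℕ → ℕ} (hN : ∀ n, 0 < N n)
    (y : ∀ n, Fin (N n) → EuclideanSpace ℝ (Fin d)) (φ m : ∀ n, Fin (N n) → ℝ)
    (hy : ∀ n, Injective (y n)) (hsol : ∀ n, IsSol (uniformProbOn K) (y n) (m n) (φ n))
    {u : EuclideanSpace ℝ (Fin d) → ℝ} {L : ℝ≥0} (hu : LipschitzWith L u)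
    (hconv : ∀ ε > 0, ∀ᶠ n in atTop, ∀ x ∈ K, |pot (y n) (φ n) x - u x| ≤ ε)
    (f : BoundedContinuousFunction (EuclideanSpace ℝ (Fin d)) ℝ) :
    Tendsto (fun n => ∑ i, m n i * f (y n i)) atTop
      (𝓝 (∫ x, f (gradient u x) ∂(uniformProbOn K))) := by
  classical
  have hP := isSource_uniform hKc hKi
  have := hP.prob
  set U := uniformProbOn K with hU
  have hne : ∀ n, Nonempty (Fin (N n)) := fun n => ⟨⟨0, hN n⟩⟩
  let h : ℕ → EuclideanSpace ℝ (Fin d) → ℝ := fun n x =>
    ∑ i, (cell (y n) (φ n) i).indicator (fun _ => f (y n i)) x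
  -- integral of `h n`
  have hint : ∀ n, ∫ x, h n x ∂U = ∑ i, m n i * f (y n i) := by
    intro n
    have := hne n
    simp only [h]
    rw [integral_finsetSum]
    · refine Finset.sum_congr rfl fun i _ => ?_
      rw [integral_indicator (measurableSet_cell _ _ i), setIntegral_const, smul_eq_mul]
      rw [show U.real (cell (y n) (φ n) i) = m n i from hsol n i]
    · intro i _
      exact (integrable_const _).indicator (measurableSet_cell _ _ i)
  have hmeas : ∀ n, Measurable (h n) := by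
    intro n
    have := hne n
    exact Finset.measurable_sum _ fun i _ =>
      measurable_const.indicator (measurableSet_cell _ _ i)
  -- value of `h n`
  have hval : ∀ᵐ x ∂U, ∀ n, ∃ i, x ∈ cell (y n) (φ n) i ∧ h n x = f (y n i) := by
    filter_upwards [ae_unique_cell hKc hKi y φ hy] with x hx n
    have := hne n
    obtain ⟨i, hi⟩ := exists_mem_cell (y n) (φ n) x
    refine ⟨i, hi, ?_⟩
    simp only [h]
    rw [Finset.sum_eq_single i]
    · exact indicator_of_mem hi _
    · intro j _ hj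
      exact indicator_of_notMem (hx n i j (Ne.symm hj) hi) _
    · intro hi'
      exact absurd (Finset.mem_univ i) hi'
  have hbound : ∀ n, ∀ᵐ x ∂U, ‖h n x‖ ≤ ‖f‖ := by
    intro n
    filter_upwards [hval] with x hx
    obtain ⟨i, _, hi⟩ := hx n
    rw [hi]
    exact f.norm_coe_le_norm _
  have hlim : ∀ᵐ x ∂U, Tendsto (fun n => h n x) atTop (𝓝 (f (gradient u x))) := by
    have hdiff : ∀ᵐ x ∂U, DifferentiableAt ℝ u x := uniform_ac hu.ae_differentiableAt
    filter_upwards [hval, hdiff, ae_mem_interior hKc hKv] with x hx hdx hxK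
    rw [Metric.tendsto_nhds]
    intro ε hε
    have hcont : ContinuousAt f (gradient u x) := f.continuous.continuousAt
    obtain ⟨η, hη, hηf⟩ := Metric.continuousAt_iff.mp hcont ε hε
    obtain ⟨δ, hδ, hclose⟩ := subgrad_close hxK hdx (η := η / 2) (by positivity)
    filter_upwards [hconv δ hδ] with n hn
    have := hne n
    obtain ⟨i, hi, hhi⟩ := hx n
    rw [hhi]
    have h1 := hclose (pot (y n) (φ n)) hn (y n i) (fun z => pot_ge_of_mem_cell hi z)
    apply hηf
    rw [dist_eq_norm]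
    linarith
  have htend := tendsto_integral_of_dominated_convergence (μ := U) (fun _ => ‖f‖)
    (fun n => (hmeas n).aestronglyMeasurable) (integrable_const _) hbound hlim
  simpa only [hint] using htend

end Limit

section Atoms

variable {d : ℕ}

theorem subsingleton_bad {E : Type*} [AddCommGroup E] [Module ℝ E] {a : E} (ha : a ≠ 0) {c c' : ℝ}
    (hc : c ≠ c') (A B : E) :
    ({τ : ℝ | A + (τ * c) • a = B + (τ * c') • a}).Subsingleton := by
  intro τ hτ τ' hτ'
  simp only [mem_ofPred_eq] at hτ hτ'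
  have h1 : A - B = (τ * c' - τ * c) • a := by
    rw [sub_smul]
    have : A = B + (τ * c') • a - (τ * c) • a := by rw [← hτ]; abel
    rw [this]; abel
  have h2 : A - B = (τ' * c' - τ' * c) • a := by
    rw [sub_smul]
    have : A = B + (τ' * c') • a - (τ' * c) • a := by rw [← hτ']; abel
    rw [this]; abel
  have h3 : ((τ * c' - τ * c) - (τ' * c' - τ' * c)) • a = 0 := by
    rw [sub_smul, ← h1, ← h2, sub_self]
  have h4 := (smul_eq_zero.mp h3).resolve_right ha
  have h5 : (τ - τ') * (c' - c) = 0 := by linarith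
  have h6 : c' - c ≠ 0 := sub_ne_zero.mpr (Ne.symm hc)
  have := (mul_eq_zero.mp h5).resolve_right h6
  linarith

/-- One discretisation step: a simple function `s`, after dropping the null atoms and shifting
slightly to make both marginals injective. -/
theorem exists_atoms_step (hd : 0 < d)
    (π : Measure (EuclideanSpace ℝ (Fin d) × EuclideanSpace ℝ (Fin d))) [IsProbabilityMeasure π]
    (s : SimpleFunc (EuclideanSpace ℝ (Fin d) × EuclideanSpace ℝ (Fin d))
      (EuclideanSpace ℝ (Fin d) × EuclideanSpace ℝ (Fin d))) {R : ℝ}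
    (hs : ∀ p, ‖(s p).1‖ ≤ R ∧ ‖(s p).2‖ ≤ R) {ε : ℝ} (hε : 0 < ε) (hε1 : ε ≤ 1) :
    ∃ (N : ℕ) (_ : 0 < N) (m : Fin N → ℝ) (y z : Fin N → EuclideanSpace ℝ (Fin d))
      (q : EuclideanSpace ℝ (Fin d) × EuclideanSpace ℝ (Fin d) → Fin N),
      Measurable q ∧ (∀ i, 0 < m i) ∧ (∀ i, m i = π.real (q ⁻¹' {i})) ∧ Injective y ∧ Injective z ∧
      (∀ i, ‖y i‖ ≤ R + 1) ∧ (∀ i, ‖z i‖ ≤ R + 1) ∧
      ∀ᵐ p ∂π, ‖y (q p) - (s p).1‖ ≤ ε ∧ ‖z (q p) - (s p).2‖ ≤ ε := by
  classical
  set F := s.range.filter (fun v => π (s ⁻¹' {v}) ≠ 0) with hF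
  have hae : ∀ᵐ p ∂π, s p ∈ F := by
    have hnull : π (⋃ w ∈ s.range.filter (fun v => π (s ⁻¹' {v}) = 0), s ⁻¹' {w}) = 0 := by
      refine (measure_biUnion_null_iff (Finset.countable_toSet _)).mpr ?_
      intro w hw
      exact (Finset.mem_filter.mp hw).2
    have hsub : {p | ¬ (s p ∈ F)} ⊆ ⋃ w ∈ s.range.filter (fun v => π (s ⁻¹' {v}) = 0), s ⁻¹' {w} := by
      intro p hp
      refine mem_iUnion₂.mpr ⟨s p, ?_, rfl⟩
      rw [Finset.mem_filter]
      refine ⟨s.mem_range_self p, ?_⟩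
      by_contra hne
      exact hp (Finset.mem_filter.mpr ⟨s.mem_range_self p, hne⟩)
    rw [ae_iff]
    exact measure_mono_null hsub hnull
  obtain ⟨p₀, hp₀⟩ := hae.exists
  set N := F.card with hN
  have hNpos : 0 < N := Finset.card_pos.mpr ⟨s p₀, hp₀⟩
  let e : F ≃ Fin N := F.equivFin
  let v : Fin N → EuclideanSpace ℝ (Fin d) × EuclideanSpace ℝ (Fin d) := fun i => (e.symm i).1
  have hvF : ∀ i, v i ∈ F := fun i => (e.symm i).2
  let c : Fin N → ℝ := fun i => (i : ℝ) / N
  have hNr : (0 : ℝ) < N := by exact_mod_cast hNpos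
  have hc : Injective c := by
    intro i j hij
    simp only [c] at hij
    have := (div_left_inj' hNr.ne').mp hij
    exact Fin.ext (by exact_mod_cast this)
  have hc0 : ∀ i, 0 ≤ c i := fun i => by simp only [c]; positivity
  have hc1 : ∀ i, c i ≤ 1 := fun i => by
    simp only [c]
    rw [div_le_one hNr]
    exact_mod_cast i.2.le
  let a : EuclideanSpace ℝ (Fin d) := EuclideanSpace.single ⟨0, hd⟩ (1 : ℝ)
  have han : ‖a‖ = 1 := by simp [a]
  have ha : a ≠ 0 := by
    intro h
    rw [h, norm_zero] at han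
    exact zero_ne_one han
  -- the bad shifts
  let B : Set ℝ := ⋃ i, ⋃ j, ⋃ (_ : i ≠ j),
    ({τ : ℝ | (v i).1 + (τ * c i) • a = (v j).1 + (τ * c j) • a} ∪
      {τ : ℝ | (v i).2 + (τ * c i) • a = (v j).2 + (τ * c j) • a})
  have hB : B.Finite := by
    refine finite_iUnion fun i => finite_iUnion fun j => ?_
    by_cases hij : i = j
    · simp [hij]
    · simp only [ne_eq, hij, not_false_eq_true, iUnion_true]
      exact (subsingleton_bad ha (hc.ne hij) _ _).finite.union
        (subsingleton_bad ha (hc.ne hij) _ _).finite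
  obtain ⟨τ, ⟨hτ0, hτε⟩, hτB⟩ := ((Set.Ioo_infinite hε).sdiff hB).nonempty
  let y : Fin N → EuclideanSpace ℝ (Fin d) := fun i => (v i).1 + (τ * c i) • a
  let z : Fin N → EuclideanSpace ℝ (Fin d) := fun i => (v i).2 + (τ * c i) • a
  have hy : Injective y := by
    intro i j hij
    by_contra hne
    exact hτB (mem_iUnion.mpr ⟨i, mem_iUnion.mpr ⟨j, mem_iUnion.mpr ⟨hne, Or.inl hij⟩⟩⟩)
  have hz : Injective z := by
    intro i j hij
    by_contra hne
    exact hτB (mem_iUnion.mpr ⟨i, mem_iUnion.mpr ⟨j, mem_iUnion.mpr ⟨hne, Or.inr hij⟩⟩⟩)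
  have hshift : ∀ i, ‖(τ * c i) • a‖ ≤ τ := by
    intro i
    rw [norm_smul, han, mul_one, Real.norm_of_nonneg (mul_nonneg hτ0.le (hc0 i))]
    nlinarith [hc1 i, hτ0]
  have hvR : ∀ i, ‖(v i).1‖ ≤ R ∧ ‖(v i).2‖ ≤ R := by
    intro i
    have h1 := (Finset.mem_filter.mp (hvF i)).1
    obtain ⟨p, hp⟩ := (s.mem_range).mp h1
    have h2 := hs p
    rwa [hp] at h2
  let g : EuclideanSpace ℝ (Fin d) × EuclideanSpace ℝ (Fin d) → Fin N :=
    fun x => if h : x ∈ F then e ⟨x, h⟩ else e ⟨s p₀, hp₀⟩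
  let q := g ∘ s
  have hq : Measurable q := (s.map g).measurable
  have hqv : ∀ p, s p ∈ F → v (q p) = s p := by
    intro p hp
    simp only [q, g, comp, v, dif_pos hp, Equiv.symm_apply_apply]
  have hqi : ∀ p, s p ∈ F → ∀ i, q p = i ↔ s p = v i := by
    intro p hp i
    constructor
    · intro h
      rw [← h, hqv p hp]
    · intro h
      have h1 : q p = e ⟨s p, hp⟩ := by simp only [q, g, comp, dif_pos hp]
      rw [h1]
      have h2 : (⟨s p, hp⟩ : F) = e.symm i := Subtype.ext h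
      rw [h2, Equiv.apply_symm_apply]
  refine ⟨N, hNpos, fun i => π.real (s ⁻¹' {v i}), y, z, q, hq, ?_, ?_, hy, hz, ?_, ?_, ?_⟩
  · intro i
    have h1 : π (s ⁻¹' {v i}) ≠ 0 := (Finset.mem_filter.mp (hvF i)).2
    exact ENNReal.toReal_pos h1 (measure_ne_top _ _)
  · intro i
    refine measureReal_congr ?_
    filter_upwards [hae] with p hp
    have := hqi p hp i
    apply propext
    exact this.symm
  · intro i
    calc ‖y i‖ ≤ ‖(v i).1‖ + ‖(τ * c i) • a‖ := norm_add_le _ _
      _ ≤ R + 1 := add_le_add (hvR i).1 ((hshift i).trans (by linarith))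
  · intro i
    calc ‖z i‖ ≤ ‖(v i).2‖ + ‖(τ * c i) • a‖ := norm_add_le _ _
      _ ≤ R + 1 := add_le_add (hvR i).2 ((hshift i).trans (by linarith))
  · filter_upwards [hae] with p hp
    have h1 := hqv p hp
    constructor
    · have : y (q p) - (s p).1 = (τ * c (q p)) • a := by
        simp only [y, h1]; abel
      rw [this]
      exact (hshift _).trans hτε.le
    · have : z (q p) - (s p).2 = (τ * c (q p)) • a := by
        simp only [z, h1]; abel
      rw [this]
      exact (hshift _).trans hτε.le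

/-- The sum over atoms is an integral. -/
theorem sum_eq_integral_of_atoms {Ω : Type*} [MeasurableSpace Ω] (π : Measure Ω)
    [IsProbabilityMeasure π] {N : ℕ} (m : Fin N → ℝ) (q : Ω → Fin N) (hq : Measurable q)
    (hm : ∀ i, m i = π.real (q ⁻¹' {i})) (G : Fin N → ℝ) :
    ∑ i, m i * G i = ∫ p, G (q p) ∂π := by
  have h1 : ∫ p, G (q p) ∂π = ∫ i, G i ∂(π.map q) := by
    rw [integral_map hq.aemeasurable (Measurable.of_discrete.aestronglyMeasurable)]
  rw [h1, integral_fintype]
  · refine Finset.sum_congr rfl fun i _ => ?_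
    rw [hm i, smul_eq_mul, map_measureReal_apply hq (measurableSet_singleton i)]
  · exact Integrable.of_finite

end Atoms

section Compactness

variable {E : Type*} [NormedAddCommGroup E]

/-- Arzela-Ascoli: a sequence of normalised `L`-Lipschitz functions converges uniformly on a compact
set along a subsequence, to (the restriction of) a global `L`-Lipschitz function. -/
theorem exists_uniform_subseq_one {K : Set E} (hKc : IsCompact K) {x₁ : E} (_hx₁ : x₁ ∈ K) {L : ℝ≥0}
    (u : ℕ → E → ℝ) (hu : ∀ n, LipschitzWith L (u n)) (hu0 : ∀ n, u n x₁ = 0) :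
    ∃ (φ : ℕ → ℕ) (f : E → ℝ), StrictMono φ ∧ LipschitzWith L f ∧
      ∀ ε > 0, ∀ᶠ n in atTop, ∀ x ∈ K, |u (φ n) x - f x| ≤ ε := by
  classical
  have : CompactSpace K := isCompact_iff_compactSpace.mp hKc
  have hcont : ∀ n, Continuous (fun x : K => u n x) := fun n =>
    (hu n).continuous.comp continuous_subtype_val
  let F : ℕ → BoundedContinuousFunction K ℝ := fun n =>
    BoundedContinuousFunction.mkOfCompact ⟨fun x : K => u n x, hcont n⟩
  have hF : ∀ n x, F n x = u n x := fun n x => rfl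
  obtain ⟨D, hD⟩ := hKc.isBounded.subset_closedBall x₁ |>.imp fun D h => h
  set M : ℝ := L * D with hM
  have hin : ∀ (f : BoundedContinuousFunction K ℝ) (x : K), f ∈ range F → f x ∈ Set.Icc (-M) M := by
    rintro f x ⟨n, rfl⟩
    rw [hF]
    have h1 : dist (u n x) (u n x₁) ≤ L * dist (x : E) x₁ := (hu n).dist_le_mul _ _
    have h2 : dist (x : E) x₁ ≤ D := hD x.2
    rw [hu0, Real.dist_eq, sub_zero] at h1
    have h3 : |u n x| ≤ M := h1.trans (mul_le_mul_of_nonneg_left h2 L.2)
    exact abs_le.mp h3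
  have hequi : Equicontinuous ((↑) : range F → K → ℝ) := by
    refine (LipschitzWith.uniformEquicontinuous _ L ?_).equicontinuous
    rintro ⟨f, n, rfl⟩
    refine LipschitzWith.of_dist_le_mul fun a b => ?_
    exact (hu n).dist_le_mul _ _
  have hcomp : IsCompact (closure (range F)) :=
    BoundedContinuousFunction.arzela_ascoli (Set.Icc (-M) M) isCompact_Icc (range F) hin hequi
  obtain ⟨a, -, φ, hφ, hlim⟩ := hcomp.tendsto_subseq (x := F) (fun n => subset_closure ⟨n, rfl⟩)
  have hdist : ∀ ε > 0, ∀ᶠ n in atTop, ∀ x : K, |u (φ n) x - a x| ≤ ε := by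
    intro ε hε
    filter_upwards [Metric.tendsto_nhds.mp hlim ε hε] with n hn x
    have h1 := BoundedContinuousFunction.dist_coe_le_dist (f := F (φ n)) (g := a) x
    rw [Real.dist_eq, hF] at h1
    exact h1.trans (le_of_lt hn)
  have hpt : ∀ x : K, Tendsto (fun n => u (φ n) x) atTop (𝓝 (a x)) := by
    intro x
    rw [Metric.tendsto_nhds]
    intro ε hε
    filter_upwards [hdist (ε / 2) (by positivity)] with n hn
    rw [Real.dist_eq]
    have := hn x
    linarith
  have hlip : ∀ x x' : K, dist (a x) (a x') ≤ L * dist (x : E) x' := by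
    intro x x'
    refine le_of_tendsto' ((hpt x).dist (hpt x')) fun n => ?_
    exact (hu _).dist_le_mul _ _
  let f₀ : E → ℝ := fun x => if h : x ∈ K then a ⟨x, h⟩ else 0
  have hf₀ : ∀ x (h : x ∈ K), f₀ x = a ⟨x, h⟩ := fun x h => dif_pos h
  have hf₀L : LipschitzOnWith L f₀ K := by
    refine LipschitzOnWith.of_dist_le_mul fun x hx x' hx' => ?_
    rw [hf₀ x hx, hf₀ x' hx']
    exact hlip ⟨x, hx⟩ ⟨x', hx'⟩
  obtain ⟨f, hfL, hfeq⟩ := hf₀L.extend_real
  refine ⟨φ, f, hφ, hfL, fun ε hε => ?_⟩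
  filter_upwards [hdist ε hε] with n hn x hx
  rw [← hfeq hx, hf₀ x hx]
  exact hn ⟨x, hx⟩

theorem exists_uniform_subseq {K : Set E} (hKc : IsCompact K) {x₁ : E} (hx₁ : x₁ ∈ K) {L : ℝ≥0}
    (u v : ℕ → E → ℝ) (hu : ∀ n, LipschitzWith L (u n)) (hu0 : ∀ n, u n x₁ = 0)
    (hv : ∀ n, LipschitzWith L (v n)) (hv0 : ∀ n, v n x₁ = 0) :
    ∃ (φ : ℕ → ℕ) (f g : E → ℝ), StrictMono φ ∧ LipschitzWith L f ∧ LipschitzWith L g ∧
      (∀ ε > 0, ∀ᶠ n in atTop, ∀ x ∈ K, |u (φ n) x - f x| ≤ ε) ∧
      (∀ ε > 0, ∀ᶠ n in atTop, ∀ x ∈ K, |v (φ n) x - g x| ≤ ε) := by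
  obtain ⟨φ, f, hφ, hf, hfu⟩ := exists_uniform_subseq_one hKc hx₁ u hu hu0
  obtain ⟨ψ, g, hψ, hg, hgu⟩ := exists_uniform_subseq_one hKc hx₁ (fun n => v (φ n))
    (fun n => hv _) (fun n => hv0 _)
  refine ⟨φ ∘ ψ, f, g, hφ.comp hψ, hf, hg, fun ε hε => ?_, hgu⟩
  exact hψ.tendsto_atTop.eventually (hfu ε hε)

end Compactness

section AtomsSeq

variable {d : ℕ}

theorem exists_atoms_seq (hd : 0 < d)
    (π : Measure (EuclideanSpace ℝ (Fin d) × EuclideanSpace ℝ (Fin d))) [IsProbabilityMeasure π]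
    {S : Set (EuclideanSpace ℝ (Fin d) × EuclideanSpace ℝ (Fin d))}
    (hSn : S.Nonempty) (hS : π Sᶜ = 0) {R : ℝ} (hR : ∀ p ∈ S, ‖p.1‖ ≤ R ∧ ‖p.2‖ ≤ R) :
    ∃ (N : ℕ → ℕ) (_ : ∀ n, 0 < N n) (m : ∀ n, Fin (N n) → ℝ)
      (y z : ∀ n, Fin (N n) → EuclideanSpace ℝ (Fin d)),
      (∀ n i, 0 < m n i) ∧ (∀ n, ∑ i, m n i = 1) ∧ (∀ n, Injective (y n)) ∧ (∀ n, Injective (z n)) ∧
      (∀ n i, ‖y n i‖ ≤ R + 1) ∧ (∀ n i, ‖z n i‖ ≤ R + 1) ∧
      ∀ g : EuclideanSpace ℝ (Fin d) × EuclideanSpace ℝ (Fin d) → ℝ, Continuous g → ∀ C : ℝ,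
        (∀ n i, |g (y n i, z n i)| ≤ C) →
        Tendsto (fun n => ∑ i, m n i * g (y n i, z n i)) atTop (𝓝 (∫ p, g p ∂π)) := by
  classical
  obtain ⟨p₀, hp₀⟩ := hSn
  let s : ℕ → SimpleFunc (EuclideanSpace ℝ (Fin d) × EuclideanSpace ℝ (Fin d))
      (EuclideanSpace ℝ (Fin d) × EuclideanSpace ℝ (Fin d)) :=
    fun n => SimpleFunc.approxOn id measurable_id S p₀ hp₀ n
  have hsS : ∀ n p, s n p ∈ S := fun n p => SimpleFunc.approxOn_mem measurable_id hp₀ n p
  have hslim : ∀ p ∈ S, Tendsto (fun n => s n p) atTop (𝓝 p) := fun p hp =>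
    SimpleFunc.tendsto_approxOn measurable_id hp₀ (subset_closure hp)
  have hstep := fun n : ℕ => exists_atoms_step hd π (s n) (R := R) (fun p => hR _ (hsS n p))
    (ε := 1 / ((n : ℝ) + 1)) (by positivity)
    (by rw [div_le_one (by positivity)]; linarith [(Nat.cast_nonneg n : (0 : ℝ) ≤ n)])
  choose N hN m y z q hq hmpos hm hy hz hyR hzR hae using hstep
  refine ⟨N, hN, m, y, z, hmpos, ?_, hy, hz, hyR, hzR, ?_⟩
  · intro n
    have h1 := sum_eq_integral_of_atoms π (m n) (q n) (hq n) (hm n) (fun _ => 1)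
    simpa using h1
  · intro g hg C hC
    have hsum : ∀ n, ∑ i, m n i * g (y n i, z n i) = ∫ p, g (y n (q n p), z n (q n p)) ∂π :=
      fun n => sum_eq_integral_of_atoms π (m n) (q n) (hq n) (hm n) fun i => g (y n i, z n i)
    simp only [hsum]
    have hmeas : ∀ n, AEStronglyMeasurable (fun p => g (y n (q n p), z n (q n p))) π := by
      intro n
      have h1 : Measurable (fun i : Fin (N n) => g (y n i, z n i)) := Measurable.of_discrete
      exact (h1.comp (hq n)).aestronglyMeasurable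
    have hbound : ∀ n, ∀ᵐ p ∂π, ‖g (y n (q n p), z n (q n p))‖ ≤ C := fun n =>
      Eventually.of_forall fun p => by simpa using hC n (q n p)
    have hSae : ∀ᵐ p ∂π, p ∈ S := by
      rw [ae_iff]; exact hS
    have hlim : ∀ᵐ p ∂π, Tendsto (fun n => g (y n (q n p), z n (q n p))) atTop (𝓝 (g p)) := by
      filter_upwards [ae_all_iff.mpr hae, hSae] with p hp hpS
      refine hg.continuousAt.tendsto.comp ?_
      have h1 := hslim p hpS
      have hsmall : Tendsto (fun n : ℕ => 1 / ((n : ℝ) + 1)) atTop (𝓝 0) :=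
        tendsto_one_div_add_atTop_nhds_zero_nat
      have h2 : Tendsto (fun n => y n (q n p) - (s n p).1) atTop (𝓝 0) :=
        squeeze_zero_norm (fun n => (hp n).1) hsmall
      have h3 : Tendsto (fun n => z n (q n p) - (s n p).2) atTop (𝓝 0) :=
        squeeze_zero_norm (fun n => (hp n).2) hsmall
      have h4 : Tendsto (fun n => y n (q n p)) atTop (𝓝 p.1) := by
        have := h2.add (continuous_fst.tendsto p |>.comp h1)
        simpa using this
      have h5 : Tendsto (fun n => z n (q n p)) atTop (𝓝 p.2) := by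
        have := h3.add (continuous_snd.tendsto p |>.comp h1)
        simpa using this
      exact h4.prodMk_nhds h5
    exact tendsto_integral_of_dominated_convergence (fun _ => C) hmeas (integrable_const _)
      hbound hlim

end AtomsSeq

section Assembly

variable {d : ℕ} {K : Set (EuclideanSpace ℝ (Fin d))}

theorem lipschitz_pot {E : Type*} [NormedAddCommGroup E] [InnerProductSpace ℝ E] {ι : Type*}
    [Fintype ι] [Nonempty ι] {y : ι → E} (φ : ι → ℝ) {L : ℝ≥0} (hL : ∀ i, ‖y i‖ ≤ L) :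
    LipschitzWith L (pot y φ) := by
  refine LipschitzWith.of_dist_le_mul fun a b => ?_
  rw [Real.dist_eq, dist_eq_norm]
  exact abs_pot_sub_pot_le hL a b

theorem convexOn_of_uniform {E : Type*} [NormedAddCommGroup E] [NormedSpace ℝ E]
    {w : ℕ → E → ℝ} (hw : ∀ n, ConvexOn ℝ univ (w n)) {f : E → ℝ} {K : Set E}
    (hKv : Convex ℝ K) (h : ∀ ε > 0, ∀ᶠ n in atTop, ∀ x ∈ K, |w n x - f x| ≤ ε) :
    ConvexOn ℝ K f := by
  have hpt : ∀ x ∈ K, Tendsto (fun n => w n x) atTop (𝓝 (f x)) := by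
    intro x hx
    rw [Metric.tendsto_nhds]
    intro ε hε
    filter_upwards [h (ε / 2) (by positivity)] with n hn
    rw [Real.dist_eq]
    have := hn x hx
    linarith
  refine ⟨hKv, fun a ha b hb s t hs ht hst => ?_⟩
  have hab : s • a + t • b ∈ K := hKv ha hb hs ht hst
  refine le_of_tendsto_of_tendsto' (hpt _ hab) (((hpt a ha).const_smul s).add
    ((hpt b hb).const_smul t)) fun n => ?_
  exact (hw n).2 (mem_univ a) (mem_univ b) hs ht hst

theorem integral_sq_sub_const {Ω : Type*} [MeasurableSpace Ω] {μ : Measure Ω}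
    [IsProbabilityMeasure μ] {w : Ω → ℝ} (hw : Integrable w μ)
    (hw2 : Integrable (fun x => w x ^ 2) μ) (c : ℝ) :
    ∫ x, (w x - c) ^ 2 ∂μ = ∫ x, w x ^ 2 ∂μ - 2 * c * ∫ x, w x ∂μ + c ^ 2 := by
  have h1 : (fun x => (w x - c) ^ 2) = fun x => w x ^ 2 - 2 * c * w x + c ^ 2 := by
    funext x; ring
  have hi : Integrable (fun x => w x ^ 2 - 2 * c * w x) μ := hw2.sub (hw.const_mul _)
  rw [h1, integral_add hi (integrable_const _),
    integral_sub hw2 (hw.const_mul _), integral_const_mul, integral_const]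
  simp

theorem integral_sub_mean_sq_le {Ω : Type*} [MeasurableSpace Ω] {μ : Measure Ω}
    [IsProbabilityMeasure μ] {w : Ω → ℝ} (hw : Integrable w μ)
    (hw2 : Integrable (fun x => w x ^ 2) μ) (c : ℝ) :
    ∫ x, (w x - ∫ x, w x ∂μ) ^ 2 ∂μ ≤ ∫ x, (w x - c) ^ 2 ∂μ := by
  rw [integral_sq_sub_const hw hw2, integral_sq_sub_const hw hw2]
  nlinarith [sq_nonneg (c - ∫ x, w x ∂μ)]

theorem measurable_gradient' {E : Type*} [NormedAddCommGroup E] [InnerProductSpace ℝ E]
    [CompleteSpace E] [MeasurableSpace E] [BorelSpace E] [SecondCountableTopology E]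
    (f : E → ℝ) : Measurable (gradient f) := by
  have h1 : Measurable (fderiv ℝ f) := measurable_fderiv ℝ f
  have h2 : Continuous (InnerProductSpace.toDual ℝ E).symm :=
    (InnerProductSpace.toDual ℝ E).symm.continuous
  exact h2.measurable.comp h1

/-- Identification of the push-forward. -/
theorem map_gradient_eq (hKc : IsCompact K) (hKv : Convex ℝ K)
    (hKi : (interior K).Nonempty) {N : ℕ → ℕ} (hN : ∀ n, 0 < N n)
    (y : ∀ n, Fin (N n) → EuclideanSpace ℝ (Fin d)) (φ m : ∀ n, Fin (N n) → ℝ)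
    (hy : ∀ n, Injective (y n)) (hsol : ∀ n, IsSol (uniformProbOn K) (y n) (m n) (φ n))
    {σ : ℕ → ℕ} (hσ : StrictMono σ)
    {f : EuclideanSpace ℝ (Fin d) → ℝ} {L : ℝ≥0} (hf : LipschitzWith L f)
    (hconv : ∀ ε > 0, ∀ᶠ n in atTop, ∀ x ∈ K, |pot (y (σ n)) (φ (σ n)) x - f x| ≤ ε)
    (μ : Measure (EuclideanSpace ℝ (Fin d))) [IsProbabilityMeasure μ]
    (hμ : ∀ h : BoundedContinuousFunction (EuclideanSpace ℝ (Fin d)) ℝ,
      Tendsto (fun n => ∑ i, m n i * h (y n i)) atTop (𝓝 (∫ x, h x ∂μ))) :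
    (uniformProbOn K).map (gradient f) = μ := by
  have := uniform_isProb hKc hKi
  have hgm : Measurable (gradient f) := measurable_gradient' f
  have : IsProbabilityMeasure ((uniformProbOn K).map (gradient f)) :=
    Measure.isProbabilityMeasure_map hgm.aemeasurable
  refine ext_of_forall_integral_eq_of_IsFiniteMeasure fun h => ?_
  rw [integral_map hgm.aemeasurable h.continuous.aestronglyMeasurable]
  have h1 := tendsto_sum_of_uniform hKc hKv hKi (N := fun n => N (σ n)) (fun n => hN _)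
    (fun n => y (σ n)) (fun n => φ (σ n)) (fun n => m (σ n)) (fun n => hy _) (fun n => hsol _)
    hf hconv h
  have h2 := (hμ h).comp hσ.tendsto_atTop
  exact tendsto_nhds_unique h1 h2

theorem exists_limit_potentials (hKc : IsCompact K) (hKv : Convex ℝ K)
    (hKi : (interior K).Nonempty) {Y : Set (EuclideanSpace ℝ (Fin d))} (hYc : IsCompact Y)
    (hYn : Y.Nonempty) (hd : 0 < d) {C₂ : ℝ} (hC₂ : AtomStability K C₂) :
    ∃ L : ℝ≥0, ∀ π : Measure (EuclideanSpace ℝ (Fin d) × EuclideanSpace ℝ (Fin d)),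
      IsProbabilityMeasure π → π ((Y ×ˢ Y)ᶜ) = 0 →
      ∃ u v : EuclideanSpace ℝ (Fin d) → ℝ, LipschitzWith L u ∧ LipschitzWith L v ∧
        ConvexOn ℝ K u ∧ ConvexOn ℝ K v ∧
        (uniformProbOn K).map (gradient u) = π.map Prod.fst ∧
        (uniformProbOn K).map (gradient v) = π.map Prod.snd ∧
        ∃ c : ℝ, ∫ x, (u x - v x - c) ^ 2 ∂(uniformProbOn K) ≤ C₂ * ∫ p, ‖p.1 - p.2‖ ^ 2 ∂π := by
  classical
  obtain ⟨R₀, hR₀⟩ := hYc.isBounded.exists_norm_le
  set R : ℝ := |R₀| with hR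
  have hRnn : 0 ≤ R := abs_nonneg _
  refine ⟨⟨R + 1, by positivity⟩, fun π hπ hS => ?_⟩
  set L : ℝ≥0 := ⟨R + 1, by positivity⟩ with hL
  have hLc : (L : ℝ) = R + 1 := rfl
  have hP := isSource_uniform hKc hKi
  have hprob := hP.prob
  set U := uniformProbOn K with hU
  obtain ⟨y₀, hy₀⟩ := hYn
  obtain ⟨x₁, hx₁i⟩ := hKi
  have hx₁ : x₁ ∈ K := interior_subset hx₁i
  have hKi' : (interior K).Nonempty := ⟨x₁, hx₁i⟩
  obtain ⟨N, hN, m, y, z, hmpos, hsum, hy, hz, hyR, hzR, hlimg⟩ := exists_atoms_seq hd π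
    (S := Y ×ˢ Y) ⟨(y₀, y₀), hy₀, hy₀⟩ hS (R := R)
    (fun p hp => ⟨(hR₀ _ hp.1).trans (le_abs_self _), (hR₀ _ hp.2).trans (le_abs_self _)⟩)
  have hne : ∀ n, Nonempty (Fin (N n)) := fun n => ⟨⟨0, hN n⟩⟩
  -- solutions, normalised at the base point
  have hsolex : ∀ n, ∃ φ, IsSol U (y n) (m n) φ ∧ pot (y n) φ x₁ = 0 := by
    intro n
    have := hne n
    obtain ⟨φ₀, hφ₀⟩ := exists_sol_uniform hKc hKi' (y n) (hy n) (m n) (hmpos n) (hsum n)
    refine ⟨fun j => φ₀ j + pot (y n) φ₀ x₁, fun i => ?_, ?_⟩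
    · rw [cell_add_const]; exact hφ₀ i
    · rw [pot_add_const, sub_self]
  have hsolex' : ∀ n, ∃ ψ, IsSol U (z n) (m n) ψ ∧ pot (z n) ψ x₁ = 0 := by
    intro n
    have := hne n
    obtain ⟨φ₀, hφ₀⟩ := exists_sol_uniform hKc hKi' (z n) (hz n) (m n) (hmpos n) (hsum n)
    refine ⟨fun j => φ₀ j + pot (z n) φ₀ x₁, fun i => ?_, ?_⟩
    · rw [cell_add_const]; exact hφ₀ i
    · rw [pot_add_const, sub_self]
  choose φ hφ hφ0 using hsolex
  choose ψ hψ hψ0 using hsolex'
  have hyL : ∀ n i, ‖y n i‖ ≤ L := fun n i => hyR n i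
  have hzL : ∀ n i, ‖z n i‖ ≤ L := fun n i => hzR n i
  have hulip : ∀ n, LipschitzWith L (pot (y n) (φ n)) := fun n => by
    have := hne n
    exact lipschitz_pot _ (hyL n)
  have hvlip : ∀ n, LipschitzWith L (pot (z n) (ψ n)) := fun n => by
    have := hne n
    exact lipschitz_pot _ (hzL n)
  obtain ⟨σ, f, g, hσ, hfL, hgL, hfu, hgu⟩ := exists_uniform_subseq hKc hx₁
    (fun n => pot (y n) (φ n)) (fun n => pot (z n) (ψ n)) hulip hφ0 hvlip hψ0
  refine ⟨f, g, hfL, hgL, ?_, ?_, ?_, ?_, ?_⟩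
  · exact convexOn_of_uniform (fun n => by
      have := hne (σ n)
      exact convexOn_pot _ _) hKv hfu
  · exact convexOn_of_uniform (fun n => by
      have := hne (σ n)
      exact convexOn_pot _ _) hKv hgu
  · have : IsProbabilityMeasure (π.map Prod.fst) :=
      Measure.isProbabilityMeasure_map measurable_fst.aemeasurable
    refine map_gradient_eq hKc hKv hKi' hN y φ m hy hφ hσ hfL hfu _ fun h => ?_
    rw [integral_map measurable_fst.aemeasurable h.continuous.aestronglyMeasurable]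
    exact hlimg (fun p => h p.1) (h.continuous.comp continuous_fst) ‖h‖ fun n i => by
      simpa using h.norm_coe_le_norm (y n i)
  · have : IsProbabilityMeasure (π.map Prod.snd) :=
      Measure.isProbabilityMeasure_map measurable_snd.aemeasurable
    refine map_gradient_eq hKc hKv hKi' hN z ψ m hz hψ hσ hgL hgu _ fun h => ?_
    rw [integral_map measurable_snd.aemeasurable h.continuous.aestronglyMeasurable]
    exact hlimg (fun p => h p.2) (h.continuous.comp continuous_snd) ‖h‖ fun n i => by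
      simpa using h.norm_coe_le_norm (z n i)
  · -- the limit inequality
    let W : ℕ → EuclideanSpace ℝ (Fin d) → ℝ := fun n x => pot (y n) (φ n) x - pot (z n) (ψ n) x
    have hWc : ∀ n, Continuous (W n) := fun n => (hulip n).continuous.sub (hvlip n).continuous
    have hWi : ∀ n, Integrable (W n) U := fun n => uniform_integrable_of_continuous hKc hKi' (hWc n)
    have hWi2 : ∀ n, Integrable (fun x => W n x ^ 2) U := fun n =>
      uniform_integrable_of_continuous hKc hKi' ((hWc n).pow 2)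
    let w : EuclideanSpace ℝ (Fin d) → ℝ := fun x => f x - g x
    have hwc : Continuous w := hfL.continuous.sub hgL.continuous
    have hWlim : ∀ x ∈ K, Tendsto (fun n => W (σ n) x) atTop (𝓝 (w x)) := by
      intro x hx
      rw [Metric.tendsto_nhds]
      intro ε hε
      filter_upwards [hfu (ε / 3) (by positivity), hgu (ε / 3) (by positivity)] with n h1 h2
      rw [Real.dist_eq]
      have h3 := abs_le.mp (h1 x hx)
      have h4 := abs_le.mp (h2 x hx)
      simp only [W, w]
      rw [abs_lt]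
      constructor <;> linarith [h3.1, h3.2, h4.1, h4.2]
    -- uniform bound
    obtain ⟨D, hD⟩ := hKc.isBounded.subset_closedBall x₁ |>.imp fun D h => h
    set M : ℝ := 2 * ((L : ℝ) * D) with hM
    have hWb : ∀ n, ∀ x ∈ K, |W n x| ≤ M := by
      intro n x hx
      have h1 : dist (pot (y n) (φ n) x) (pot (y n) (φ n) x₁) ≤ L * dist x x₁ :=
        (hulip n).dist_le_mul _ _
      have h2 : dist (pot (z n) (ψ n) x) (pot (z n) (ψ n) x₁) ≤ L * dist x x₁ :=
        (hvlip n).dist_le_mul _ _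
      have h3 : dist x x₁ ≤ D := hD hx
      rw [hφ0, Real.dist_eq, sub_zero] at h1
      rw [hψ0, Real.dist_eq, sub_zero] at h2
      have h4 : (L : ℝ) * dist x x₁ ≤ L * D := mul_le_mul_of_nonneg_left h3 L.2
      simp only [W]
      rw [hM]
      have := abs_sub (pot (y n) (φ n) x) (pot (z n) (ψ n) x)
      linarith
    have hWae : ∀ n, ∀ᵐ x ∂U, ‖W n x‖ ≤ M := fun n => by
      filter_upwards [uniform_ae_mem hKc] with x hx
      simpa using hWb n x hx
    have hMnn : 0 ≤ M := by
      have := hWb 0 x₁ hx₁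
      exact (abs_nonneg _).trans this
    -- means
    have hmean : Tendsto (fun n => ∫ x, W (σ n) x ∂U) atTop (𝓝 (∫ x, w x ∂U)) := by
      refine tendsto_integral_of_dominated_convergence (fun _ => M)
        (fun n => (hWc _).aestronglyMeasurable) (integrable_const _) (fun n => hWae _) ?_
      filter_upwards [uniform_ae_mem hKc] with x hx
      exact hWlim x hx
    have hmeanb : ∀ n, |∫ x, W n x ∂U| ≤ M := by
      intro n
      have := norm_integral_le_of_norm_le_const (μ := U) (hWae n)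
      simpa using this
    have hT2 : Tendsto (fun n => ∫ x, (W (σ n) x - ∫ x', W (σ n) x' ∂U) ^ 2 ∂U) atTop
        (𝓝 (∫ x, (w x - ∫ x', w x' ∂U) ^ 2 ∂U)) := by
      refine tendsto_integral_of_dominated_convergence (fun _ => (M + M) ^ 2)
        (fun n => (((hWc _).sub continuous_const).pow 2).aestronglyMeasurable)
        (integrable_const _) (fun n => ?_) ?_
      · filter_upwards [uniform_ae_mem hKc] with x hx
        have h1 := hWb (σ n) x hx
        have h2 := hmeanb (σ n)
        rw [Real.norm_eq_abs, abs_pow]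
        refine pow_le_pow_left₀ (abs_nonneg _) ((abs_sub _ _).trans ?_) 2
        linarith
      · filter_upwards [uniform_ae_mem hKc] with x hx
        exact ((hWlim x hx).sub hmean).pow 2
    have hT3 : Tendsto (fun n => ∑ i, m (σ n) i * ‖y (σ n) i - z (σ n) i‖ ^ 2) atTop
        (𝓝 (∫ p, ‖p.1 - p.2‖ ^ 2 ∂π)) := by
      have h0 := hlimg (fun p => ‖p.1 - p.2‖ ^ 2) (by fun_prop) ((R + 1 + (R + 1)) ^ 2)
        (fun n i => by
          simp only
          rw [abs_of_nonneg (by positivity)]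
          refine pow_le_pow_left₀ (norm_nonneg _) ((norm_sub_le _ _).trans ?_) 2
          exact add_le_add (hyR n i) (hzR n i))
      exact h0.comp hσ.tendsto_atTop
    refine ⟨∫ x', w x' ∂U, ?_⟩
    refine le_of_tendsto_of_tendsto' hT2 (hT3.const_mul C₂) fun n => ?_
    have := hne (σ n)
    obtain ⟨c, hc⟩ := hC₂ (Fin (N (σ n))) (m (σ n)) (hmpos _) (hsum _) (y (σ n)) (z (σ n))
      (φ (σ n)) (ψ (σ n)) (hy _) (hz _) (hφ _) (hψ _)
    refine (integral_sub_mean_sq_le (hWi _) (hWi2 _) c).trans ?_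
    convert hc using 1

end Assembly

end Crest.Agent.Lib.OT
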