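import Crest.Agent.Lib.OT.Uniform

/-!
# The semi-discrete optimal transport problem

Existence of solutions (power cells with prescribed masses) by minimising the dual functional,
weak duality, and uniqueness of the potential for the uniform measure on a convex body.
-/

set_option autoImplicit false

open MeasureTheory Set Filter Topology Function
open scoped ENNReal NNReal RealInnerProductSpace
open Crest.AnalysisR.OT

namespace Crest.Agent.Lib.OT

section General

variable {E : Type*} [NormedAddCommGroup E] [InnerProductSpace ℝ E] [MeasurableSpace E] [BorelSpace E]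
variable {ι : Type*} [Fintype ι] [Nonempty ι]
variable {P : Measure E} {K : Set E}

omit [BorelSpace E] in
theorem IsSource.ae_mem (hP : IsSource P K) : ∀ᵐ x ∂P, x ∈ K := by
  rw [ae_iff]; exact hP.conc

omit [BorelSpace E] in
theorem IsSource.restrict_eq (hP : IsSource P K) : P.restrict K = P :=
  Measure.restrict_eq_self_of_ae_mem hP.ae_mem

theorem IsSource.integrable (hP : IsSource P K) {f : E → ℝ} (hf : Continuous f) :
    Integrable f P := by
  have := hP.prob
  rw [← hP.restrict_eq]
  exact hf.continuousOn.integrableOn_compact hP.compact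

omit [BorelSpace E] [Nonempty ι] [Fintype ι] in
theorem IsSource.aedisjoint_cell (hP : IsSource P K) {y : ι → E} (hy : Injective y) (φ : ι → ℝ) :
    Pairwise (AEDisjoint P on cell y φ) := by
  intro i j hij
  exact measure_mono_null (cell_inter_subset_hyperplane y φ i j)
    (hP.null_hyper _ _ (sub_ne_zero.mpr (hy.ne hij)))

omit [BorelSpace E] [Nonempty ι] in
/-- Integrals split along an a.e.-partition. -/
theorem integral_partition_of {A : ι → Set E} (hAm : ∀ i, MeasurableSet (A i))
    (hAU : ⋃ i, A i = univ) (hAd : Pairwise (AEDisjoint P on A)) {f : E → ℝ}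
    (hf : Integrable f P) : ∫ x, f x ∂P = ∑ i, ∫ x in A i, f x ∂P := by
  have h := integral_iUnion_ae (μ := P) (f := f) (fun i => (hAm i).nullMeasurableSet) hAd
    (by rw [hAU]; exact hf.integrableOn)
  rw [hAU, tsum_fintype, setIntegral_univ] at h
  exact h

theorem measurableSet_cell (y : ι → E) (φ : ι → ℝ) (i : ι) : MeasurableSet (cell y φ i) :=
  (isClosed_cell y φ i).measurableSet

theorem IsSource.integral_partition (hP : IsSource P K) {y : ι → E} (hy : Injective y) (φ : ι → ℝ)
    {f : E → ℝ} (hf : Integrable f P) : ∫ x, f x ∂P = ∑ i, ∫ x in cell y φ i, f x ∂P :=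
  integral_partition_of (measurableSet_cell y φ) (iUnion_cell y φ) (hP.aedisjoint_cell hy φ) hf

theorem IsSource.sum_mass (hP : IsSource P K) {y : ι → E} (hy : Injective y) (φ : ι → ℝ) :
    ∑ i, P.real (cell y φ i) = 1 := by
  have := hP.prob
  have h := hP.integral_partition hy φ (f := fun _ => (1 : ℝ)) (integrable_const _)
  simpa using h.symm

theorem integrable_inner_right (hP : IsSource P K) (v : E) : Integrable (fun x => ⟪x, v⟫) P :=
  hP.integrable (by fun_prop)

/-- Weak duality: an a.e.-partition with masses `m` gives a lower bound for the dual functional. -/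
theorem Phi_ge_of_partition (hP : IsSource P K) {A : ι → Set E} (hAm : ∀ i, MeasurableSet (A i))
    (hAU : ⋃ i, A i = univ) (hAd : Pairwise (AEDisjoint P on A)) {m : ι → ℝ}
    (hmass : ∀ i, P.real (A i) = m i) (y' : ι → E) (φ' : ι → ℝ) :
    ∑ i, ∫ x in A i, ⟪x, y' i⟫ ∂P ≤ Phi P y' m φ' := by
  have := hP.prob
  have h1 := integral_partition_of (P := P) hAm hAU hAd (hP.integrable (continuous_pot y' φ'))
  unfold Phi
  rw [h1]
  have h2 : ∀ i, ∫ x in A i, ⟪x, y' i⟫ ∂P - m i * φ' i ≤ ∫ x in A i, pot y' φ' x ∂P := by
    intro i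
    have h3 : ∫ x in A i, piece y' φ' i x ∂P = ∫ x in A i, ⟪x, y' i⟫ ∂P - m i * φ' i := by
      simp only [piece]
      rw [integral_sub (integrable_inner_right hP _).integrableOn (integrable_const _)]
      simp [hmass i, mul_comm]
    rw [← h3]
    exact setIntegral_mono (hP.integrable (continuous_piece y' φ' i)).integrableOn
      (hP.integrable (continuous_pot y' φ')).integrableOn (fun x => piece_le_pot y' φ' i x)
  have h4 := Finset.sum_le_sum (fun i (_ : i ∈ Finset.univ) => h2 i)
  rw [Finset.sum_sub_distrib] at h4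
  linarith

/-- The value of the dual functional at a solution. -/
theorem Phi_eq_of_sol (hP : IsSource P K) {y : ι → E} (hy : Injective y) {m φ : ι → ℝ}
    (hφ : IsSol P y m φ) : Phi P y m φ = ∑ i, ∫ x in cell y φ i, ⟪x, y i⟫ ∂P := by
  have := hP.prob
  unfold Phi
  rw [hP.integral_partition hy φ (hP.integrable (continuous_pot y φ))]
  have h2 : ∀ i, ∫ x in cell y φ i, pot y φ x ∂P = ∫ x in cell y φ i, ⟪x, y i⟫ ∂P - m i * φ i := by
    intro i
    have h3 : ∫ x in cell y φ i, piece y φ i x ∂P = ∫ x in cell y φ i, ⟪x, y i⟫ ∂P - m i * φ i := by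
      simp only [piece]
      rw [integral_sub (integrable_inner_right hP _).integrableOn (integrable_const _)]
      simp [hφ i, mul_comm]
    rw [← h3]
    exact setIntegral_congr_fun (measurableSet_cell y φ i)
      (fun x hx => pot_eq_of_mem_cell hx)
  simp only [h2, Finset.sum_sub_distrib]
  ring

/-- A solution minimises the dual functional. -/
theorem isMin_of_sol (hP : IsSource P K) {y : ι → E} (hy : Injective y) {m φ : ι → ℝ}
    (hφ : IsSol P y m φ) (φ' : ι → ℝ) : Phi P y m φ ≤ Phi P y m φ' := by
  rw [Phi_eq_of_sol hP hy hφ]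
  exact Phi_ge_of_partition hP (measurableSet_cell y φ) (iUnion_cell y φ) (hP.aedisjoint_cell hy φ)
    hφ y φ'

/-- The dual functional does not change when a constant is added to the weights. -/
theorem Phi_add_const (hP : IsSource P K) (y : ι → E) {m : ι → ℝ} (hs : ∑ i, m i = 1) (φ : ι → ℝ)
    (c : ℝ) : Phi P y m (fun j => φ j + c) = Phi P y m φ := by
  have := hP.prob
  unfold Phi
  simp only [pot_add_const, mul_add, Finset.sum_add_distrib, ← Finset.sum_mul, hs]
  rw [integral_sub (hP.integrable (continuous_pot y φ)) (integrable_const _)]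
  simp

/-- Dependence of the functional on the weights is continuous. -/
theorem continuous_Phi (hP : IsSource P K) (y : ι → E) (m : ι → ℝ) :
    Continuous (Phi P y m) := by
  have := hP.prob
  have h1 : Continuous (fun φ : ι → ℝ => ∫ x, pot y φ x ∂P) := by
    refine (LipschitzWith.of_dist_le_mul (K := 1) fun a b => ?_).continuous
    rw [Real.dist_eq, ← integral_sub (hP.integrable (continuous_pot y a))
      (hP.integrable (continuous_pot y b))]
    have hB : ∀ i, |a i - b i| ≤ dist a b := fun i => by
      rw [← Real.dist_eq]; exact dist_le_pi_dist a b i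
    have := norm_integral_le_of_norm_le_const (μ := P) (f := fun x => pot y a x - pot y b x)
      (C := dist a b) (Eventually.of_forall fun x => abs_pot_sub_pot_weights_le hB x)
    simpa using this
  unfold Phi
  exact h1.add (continuous_finset_sum _ fun i _ => continuous_const.mul (continuous_apply i))

/-- The dual functional attains its minimum. -/
theorem exists_isMin (hP : IsSource P K) (y : ι → E) {m : ι → ℝ} (hm : ∀ i, 0 < m i)
    (hs : ∑ i, m i = 1) : ∃ φ, ∀ φ', Phi P y m φ ≤ Phi P y m φ' := by
  have := hP.prob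
  obtain ⟨R, hR⟩ := hP.compact.isBounded.exists_norm_le
  -- a bound for the inner products on `K`
  set C₀ : ℝ := |R| * ∑ j, ‖y j‖ with hC₀
  have hinner : ∀ x ∈ K, ∀ i, |⟪x, y i⟫| ≤ C₀ := by
    intro x hx i
    calc |⟪x, y i⟫| ≤ ‖x‖ * ‖y i‖ := abs_real_inner_le_norm _ _
      _ ≤ |R| * ∑ j, ‖y j‖ := by
        gcongr
        · exact (hR x hx).trans (le_abs_self R)
        · exact Finset.single_le_sum (f := fun j => ‖y j‖) (fun _ _ => norm_nonneg _)
            (Finset.mem_univ i)
  -- lower bound of the integral of the potential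
  have hlow : ∀ (φ : ι → ℝ) (i : ι), φ i = 0 → -C₀ ≤ ∫ x, pot y φ x ∂P := by
    intro φ i hi
    have h1 : ∫ _x : E, (-C₀) ∂P ≤ ∫ x, pot y φ x ∂P := by
      refine integral_mono_ae (integrable_const _) (hP.integrable (continuous_pot y φ)) ?_
      filter_upwards [hP.ae_mem] with x hx
      have h2 := piece_le_pot y φ i x
      have h3 := (abs_le.mp (hinner x hx i)).1
      simp only [piece, hi, sub_zero] at h2
      linarith
    simpa using h1
  obtain ⟨i₁, hi₁⟩ := Finite.exists_min m
  set mmin := m i₁ with hmmin
  have hmminpos : 0 < mmin := hm i₁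
  set B : ℝ := (Phi P y m (fun _ => 0) + C₀) / mmin + 1 with hB
  have hPhi0 : -C₀ ≤ Phi P y m (fun _ => 0) := by
    have := hlow (fun _ => 0) i₁ rfl
    unfold Phi
    simpa using this
  have hB0 : 0 ≤ B := by
    have : 0 ≤ (Phi P y m (fun _ => 0) + C₀) / mmin := div_nonneg (by linarith) hmminpos.le
    linarith
  have hcomp : IsCompact (Set.Icc (0 : ι → ℝ) (fun _ => B)) := isCompact_Icc
  have hne : (Set.Icc (0 : ι → ℝ) (fun _ => B)).Nonempty :=
    ⟨0, le_refl _, fun i => hB0⟩
  obtain ⟨φs, hφs, hmin⟩ := hcomp.exists_isMinOn hne (continuous_Phi hP y m).continuousOn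
  refine ⟨φs, fun φ => ?_⟩
  -- normalise
  obtain ⟨i₀, hi₀⟩ := Finite.exists_min φ
  set ψ : ι → ℝ := fun j => φ j + (- φ i₀) with hψ
  have hψeq : Phi P y m ψ = Phi P y m φ := Phi_add_const hP y hs φ _
  rw [← hψeq]
  have hψ0 : ∀ j, 0 ≤ ψ j := fun j => by
    have := hi₀ j
    simp only [hψ]
    linarith
  have hψi : ψ i₀ = 0 := by simp [hψ]
  by_cases hcase : ∀ j, ψ j ≤ B
  · exact hmin ⟨hψ0, hcase⟩
  · push_neg at hcase
    obtain ⟨j, hj⟩ := hcase
    have h1 := hlow ψ i₀ hψi
    have h2 : m j * ψ j ≤ ∑ i, m i * ψ i :=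
      Finset.single_le_sum (f := fun i => m i * ψ i)
        (fun i _ => mul_nonneg (hm i).le (hψ0 i)) (Finset.mem_univ j)
    have h3 : mmin * B ≤ m j * ψ j := by
      have : mmin ≤ m j := hi₁ j
      exact mul_le_mul this hj.le hB0 (hm j).le
    have h4 : Phi P y m φs ≤ Phi P y m (fun _ => 0) := hmin ⟨le_refl _, fun i => hB0⟩
    have h5 : mmin * B = Phi P y m (fun _ => 0) + C₀ + mmin := by
      rw [hB]
      field_simp
    unfold Phi at h4 h5 ⊢
    nlinarith

/-- First-order condition at a minimiser: no cell can be heavier than prescribed. -/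
theorem mass_le_of_isMin (hP : IsSource P K) {y : ι → E} (hy : Injective y) {m φ : ι → ℝ}
    (hmin : ∀ φ', Phi P y m φ ≤ Phi P y m φ') (i : ι) : P.real (cell y φ i) ≤ m i := by
  classical
  have := hP.prob
  let A : ℝ → Set E := fun t => {x | ∀ j, j ≠ i → piece y φ j x ≤ piece y φ i x - t}
  have hAclosed : ∀ t, IsClosed (A t) := by
    intro t
    have : A t = ⋂ j, ⋂ (_ : j ≠ i), {x | piece y φ j x ≤ piece y φ i x - t} := by
      ext x; simp [A]
    rw [this]
    exact isClosed_iInter fun j => isClosed_iInter fun _ =>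
      isClosed_le (continuous_piece y φ j) ((continuous_piece y φ i).sub continuous_const)
  have hAmeas : ∀ t, MeasurableSet (A t) := fun t => (hAclosed t).measurableSet
  have hstep : ∀ t, 0 < t → P.real (A t) ≤ m i := by
    intro t ht
    let φt : ι → ℝ := fun j => φ j + if j = i then t else 0
    have hpt : ∀ x, pot y φt x + (A t).indicator (fun _ => t) x ≤ pot y φ x := by
      intro x
      have hpiece : ∀ j, piece y φt j x = piece y φ j x - if j = i then t else 0 := by
        intro j; simp only [piece, φt]; ring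
      by_cases hx : x ∈ A t
      · have hxc : x ∈ cell y φ i := by
          intro j
          by_cases hj : j = i
          · rw [hj]
          · have := hx j hj
            linarith
        rw [indicator_of_mem hx, pot_eq_of_mem_cell hxc]
        have : pot y φt x ≤ piece y φ i x - t := by
          refine ciSup_le fun j => ?_
          rw [hpiece]
          by_cases hj : j = i
          · simp [hj]
          · simp only [hj, if_false, sub_zero]
            exact hx j hj
        linarith
      · rw [indicator_of_notMem hx, add_zero]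
        refine ciSup_le fun j => ?_
        rw [hpiece]
        have h1 := piece_le_pot y φ j x
        have h2 : (0 : ℝ) ≤ if j = i then t else 0 := by
          split_ifs
          · exact ht.le
          · exact le_refl _
        linarith
    have hint : ∫ x, pot y φt x ∂P + t * P.real (A t) ≤ ∫ x, pot y φ x ∂P := by
      have h1 : Integrable ((A t).indicator (fun _ => t)) P :=
        (integrable_const t).indicator (hAmeas t)
      have h2 : ∫ x, (A t).indicator (fun _ => t) x ∂P = t * P.real (A t) := by
        rw [integral_indicator (hAmeas t)]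
        simp [mul_comm]
      rw [← h2, ← integral_add (hP.integrable (continuous_pot y φt)) h1]
      exact integral_mono ((hP.integrable (continuous_pot y φt)).add h1)
        (hP.integrable (continuous_pot y φ)) hpt
    have hsum : ∑ j, m j * φt j = ∑ j, m j * φ j + m i * t := by
      simp only [φt, mul_add, Finset.sum_add_distrib, mul_ite, mul_zero, Finset.sum_ite_eq',
        Finset.mem_univ, if_true]
    have h3 := hmin φt
    unfold Phi at h3
    rw [hsum] at h3
    have h4 : t * P.real (A t) ≤ t * m i := by nlinarith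
    exact le_of_mul_le_mul_left h4 ht
  have hmi : 0 ≤ m i := le_trans measureReal_nonneg (hstep 1 one_pos)
  -- monotone limit
  let B : ℕ → Set E := fun n => A (1 / ((n : ℝ) + 1))
  have hBmono : Monotone B := by
    intro a b hab x hx j hj
    have h1 := hx j hj
    have h2 : (1 : ℝ) / ((b : ℝ) + 1) ≤ 1 / ((a : ℝ) + 1) := by
      apply one_div_le_one_div_of_le (by positivity)
      have : (a : ℝ) ≤ b := by exact_mod_cast hab
      linarith
    linarith
  have hBU : P (⋃ n, B n) ≤ ENNReal.ofReal (m i) := by
    rw [hBmono.measure_iUnion]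
    refine iSup_le fun n => ?_
    rw [← ofReal_measureReal (μ := P) (s := B n)]
    exact ENNReal.ofReal_le_ofReal (hstep _ (by positivity))
  have hsub : cell y φ i ⊆ (⋃ n, B n) ∪ ⋃ j, ⋃ (_ : j ≠ i), {x | ⟪x, y i - y j⟫ = φ i - φ j} := by
    intro x hx
    by_cases hcase : ∀ j, j ≠ i → piece y φ j x < piece y φ i x
    · left
      have hev : ∀ᶠ n : ℕ in atTop, ∀ j, j ≠ i → piece y φ j x ≤ piece y φ i x - 1 / ((n : ℝ) + 1) := by
        rw [eventually_all]
        intro j
        by_cases hj : j = i
        · exact Eventually.of_forall fun n h => absurd hj h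
        · have h1 := hcase j hj
          have h2 : Tendsto (fun n : ℕ => piece y φ i x - 1 / ((n : ℝ) + 1)) atTop
              (𝓝 (piece y φ i x - 0)) :=
            tendsto_const_nhds.sub tendsto_one_div_add_atTop_nhds_zero_nat
          rw [sub_zero] at h2
          filter_upwards [h2.eventually (lt_mem_nhds h1)] with n hn _
          exact hn.le
      obtain ⟨n, hn⟩ := hev.exists
      exact mem_iUnion.mpr ⟨n, hn⟩
    · right
      push_neg at hcase
      obtain ⟨j, hj, hle⟩ := hcase
      refine mem_iUnion.mpr ⟨j, mem_iUnion.mpr ⟨hj, ?_⟩⟩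
      have h1 := hx j
      simp only [piece] at h1 hle
      simp only [mem_setOf_eq, inner_sub_right]
      linarith
  have hnull : P (⋃ j, ⋃ (_ : j ≠ i), {x | ⟪x, y i - y j⟫ = φ i - φ j}) = 0 := by
    rw [measure_iUnion_null_iff]
    intro j
    rw [measure_iUnion_null_iff]
    intro hj
    exact hP.null_hyper _ _ (sub_ne_zero.mpr (hy.ne (Ne.symm hj)))
  have hfinal : P (cell y φ i) ≤ ENNReal.ofReal (m i) :=
    calc P (cell y φ i) ≤ P ((⋃ n, B n) ∪ ⋃ j, ⋃ (_ : j ≠ i), {x | ⟪x, y i - y j⟫ = φ i - φ j}) :=
          measure_mono hsub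
      _ ≤ P (⋃ n, B n) + P (⋃ j, ⋃ (_ : j ≠ i), {x | ⟪x, y i - y j⟫ = φ i - φ j}) :=
          measure_union_le _ _
      _ ≤ ENNReal.ofReal (m i) := by rw [hnull, add_zero]; exact hBU
  exact ENNReal.toReal_le_of_le_ofReal hmi hfinal

/-- A minimiser of the dual functional is a solution. -/
theorem sol_of_isMin (hP : IsSource P K) {y : ι → E} (hy : Injective y) {m φ : ι → ℝ}
    (hs : ∑ i, m i = 1) (hmin : ∀ φ', Phi P y m φ ≤ Phi P y m φ') : IsSol P y m φ := by
  intro i
  have h1 := hP.sum_mass hy φ
  have h2 : ∀ j ∈ Finset.univ, P.real (cell y φ j) ≤ m j :=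
    fun j _ => mass_le_of_isMin hP hy hmin j
  have h3 := (Finset.sum_eq_sum_iff_of_le h2).mp (by rw [h1, hs])
  exact h3 i (Finset.mem_univ i)

/-- Existence of a solution of the semi-discrete problem. -/
theorem exists_sol (hP : IsSource P K) {y : ι → E} (hy : Injective y) {m : ι → ℝ}
    (hm : ∀ i, 0 < m i) (hs : ∑ i, m i = 1) : ∃ φ, IsSol P y m φ := by
  obtain ⟨φ, hφ⟩ := exists_isMin hP y hm hs
  exact ⟨φ, sol_of_isMin hP hy hs hφ⟩

end General

section Uniform

variable {d : ℕ} {K : Set (EuclideanSpace ℝ (Fin d))}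
variable {ι : Type*} [Fintype ι] [Nonempty ι]

theorem exists_sol_uniform (hKc : IsCompact K) (hKi : (interior K).Nonempty)
    (y : ι → EuclideanSpace ℝ (Fin d)) (hy : Injective y) (m : ι → ℝ) (hm : ∀ i, 0 < m i)
    (hs : ∑ i, m i = 1) : ∃ φ, IsSol (uniformProbOn K) y m φ :=
  exists_sol (isSource_uniform hKc hKi) hy hm hs

/-- Uniqueness of the potential up to a constant, for the uniform measure on a convex body. -/
theorem pot_unique (hKc : IsCompact K) (hKv : Convex ℝ K) (hKi : (interior K).Nonempty)
    {y : ι → EuclideanSpace ℝ (Fin d)} (hy : Injective y) {m φ φ' : ι → ℝ}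
    (hφ : IsSol (uniformProbOn K) y m φ) (hφ' : IsSol (uniformProbOn K) y m φ') :
    ∃ c : ℝ, ∀ x ∈ K, pot y φ x - pot y φ' x = c := by
  classical
  have hP := isSource_uniform hKc hKi
  have := hP.prob
  set U := uniformProbOn K with hU
  set L := cell y φ with hL
  set L' := cell y φ' with hL'
  -- Step 1: equal values
  have heq : Phi U y m φ = Phi U y m φ' :=
    le_antisymm (isMin_of_sol hP hy hφ φ') (isMin_of_sol hP hy hφ' φ)
  have hgap : ∀ i, 0 ≤ ∫ x in L i, (pot y φ' x - piece y φ' i x) ∂U := by
    intro i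
    refine setIntegral_nonneg (measurableSet_cell y φ i) fun x _ => ?_
    have := piece_le_pot y φ' i x
    linarith
  have hintg : ∀ i, Integrable (fun x => pot y φ' x - piece y φ' i x) U := fun i =>
    hP.integrable ((continuous_pot y φ').sub (continuous_piece y φ' i))
  have hsum : ∑ i, ∫ x in L i, (pot y φ' x - piece y φ' i x) ∂U = 0 := by
    have h1 : ∀ i, ∫ x in L i, (pot y φ' x - piece y φ' i x) ∂U =
        ∫ x in L i, pot y φ' x ∂U - ∫ x in L i, ⟪x, y i⟫ ∂U + m i * φ' i := by
      intro i
      rw [integral_sub (hP.integrable (continuous_pot y φ')).integrableOn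
        (hP.integrable (continuous_piece y φ' i)).integrableOn]
      simp only [piece]
      rw [integral_sub (integrable_inner_right hP _).integrableOn (integrable_const _)]
      simp only [integral_const, MeasurableSet.univ, measureReal_restrict_apply, univ_inter,
        smul_eq_mul]
      rw [hφ i]
      ring
    simp only [h1, Finset.sum_add_distrib, Finset.sum_sub_distrib]
    rw [← hP.integral_partition hy φ (hP.integrable (continuous_pot y φ')),
      ← Phi_eq_of_sol hP hy hφ, heq]
    unfold Phi
    ring
  have hzero := (Finset.sum_eq_zero_iff_of_nonneg (fun i _ => hgap i)).mp hsum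
  -- Step 2: cells agree a.e.
  have hae : ∀ i, U (L i \ L' i) = 0 := by
    intro i
    have h1 := hzero i (Finset.mem_univ i)
    have h2 := (setIntegral_eq_zero_iff_of_nonneg_ae
      (f := fun x => pot y φ' x - piece y φ' i x) (s := L i) (μ := U)
      (Eventually.of_forall fun x => by
        have := piece_le_pot y φ' i x
        simpa using this)
      (hintg i).integrableOn).mp h1
    rw [EventuallyEq, ae_restrict_iff' (measurableSet_cell y φ i)] at h2
    rw [← compl_compl (L i \ L' i), ← mem_ae_iff]
    filter_upwards [h2] with x hx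
    intro hmem
    have h3 := hx hmem.1
    apply hmem.2
    rw [hL', mem_cell_iff_pot_eq]
    simp only [Pi.zero_apply] at h3
    linarith
  set C : Set (EuclideanSpace ℝ (Fin d)) := ⋃ i, (L i ∩ L' i) with hC
  have hCclosed : IsClosed C :=
    isClosed_iUnion_of_finite fun i => (isClosed_cell y φ i).inter (isClosed_cell y φ' i)
  have hCcompl : U Cᶜ = 0 := by
    have hsub : Cᶜ ⊆ ⋃ i, (L i \ L' i) := by
      intro x hx
      obtain ⟨i, hi⟩ := exists_mem_cell y φ x
      refine mem_iUnion.mpr ⟨i, hi, fun hi' => hx (mem_iUnion.mpr ⟨i, hi, hi'⟩)⟩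
    exact measure_mono_null hsub (measure_iUnion_null hae)
  -- Step 3: interior of `K` is contained in `C`
  have hint : interior K ⊆ C := by
    by_contra hcon
    obtain ⟨x, hxK, hxC⟩ := not_subset.mp hcon
    have hopen : IsOpen (interior K ∩ Cᶜ) := isOpen_interior.inter hCclosed.isOpen_compl
    have hpos : 0 < volume (interior K ∩ Cᶜ) := hopen.measure_pos volume ⟨x, hxK, hxC⟩
    have h0 : U (interior K ∩ Cᶜ) = 0 := measure_mono_null inter_subset_right hCcompl
    rw [hU, uniform_apply hKc hopen.measurableSet] at h0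
    have h1 : interior K ∩ Cᶜ ∩ K = interior K ∩ Cᶜ := by
      apply inter_eq_left.mpr
      exact inter_subset_left.trans interior_subset
    rw [h1] at h0
    have h2 : (volume K)⁻¹ ≠ 0 := ENNReal.inv_ne_zero.mpr (volume_ne_top_of_compact hKc)
    exact hpos.ne' ((mul_eq_zero.mp h0).resolve_left h2)
  -- Step 4: `K` is contained in `C`
  have hKC : K ⊆ C := by
    have h1 : closure (interior K) = closure K :=
      hKv.closure_interior_eq_closure_of_nonempty_interior hKi
    calc K ⊆ closure K := subset_closure
      _ = closure (interior K) := h1.symm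
      _ ⊆ C := closure_minimal hint hCclosed
  -- Step 5: connectedness
  have hf : ∀ x ∈ K, pot y φ x - pot y φ' x ∈ Set.range (fun i => φ' i - φ i) := by
    intro x hx
    obtain ⟨i, hi, hi'⟩ := mem_iUnion.mp (hKC hx)
    refine ⟨i, ?_⟩
    simp only
    rw [pot_eq_of_mem_cell hi, pot_eq_of_mem_cell hi']
    simp only [piece]
    ring
  obtain ⟨x₁, hx₁⟩ := hKi
  have hx₁K := interior_subset hx₁
  refine ⟨pot y φ x₁ - pot y φ' x₁, fun x hx => ?_⟩
  have hcont : ContinuousOn (fun x => pot y φ x - pot y φ' x) K :=
    ((continuous_pot y φ).sub (continuous_pot y φ')).continuousOn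
  have hfin : (Set.range (fun i => φ' i - φ i)).Finite := Set.finite_range _
  exact hKv.isPreconnected.constant_of_mapsTo hfin.isDiscrete hcont hf hx hx₁K

end Uniform

end Crest.Agent.Lib.OT
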