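import Crest.Agent.Lib.OT.Uniform

/-!
# Step A of S0109: `L²` distance of gradients of Lipschitz convex functions controlled by the
`L²` distance of the functions (exponent `1/3`).
-/

set_option autoImplicit false

open MeasureTheory Set Filter Topology
open scoped ENNReal NNReal RealInnerProductSpace
open Crest.AnalysisR.OT

namespace Crest.Agent.Lib.OT

section Pointwise

variable {E : Type*} [NormedAddCommGroup E] [NormedSpace ℝ E]

/-- Subgradient inequality for a function convex on `K`, differentiable at `x ∈ K`. -/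
theorem fderiv_le_of_convexOn {K : Set E} {u : E → ℝ} (hu : ConvexOn ℝ K u) {x z : E}
    (hx : x ∈ K) (hz : z ∈ K) (hd : DifferentiableAt ℝ u x) :
    fderiv ℝ u x (z - x) ≤ u z - u x := by
  have h1 : HasDerivAt (fun s : ℝ => u (x + s • (z - x))) (fderiv ℝ u x (z - x)) 0 :=
    hd.hasFDerivAt.hasLineDerivAt (z - x)
  have h2 := h1.tendsto_slope_zero_right
  refine le_of_tendsto h2 ?_
  filter_upwards [Ioo_mem_nhdsGT (show (0:ℝ) < 1 by norm_num)] with s hs
  obtain ⟨hs0, hs1⟩ := hs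
  have h3 := hu.2 hx hz (sub_pos.2 hs1).le hs0.le (by ring : (1 - s) + s = 1)
  have h4 : (1 - s) • x + s • z = x + s • (z - x) := by
    simp only [sub_smul, smul_sub, one_smul]; abel
  rw [h4] at h3
  simp only [smul_eq_mul] at h3 ⊢
  have h5 : u (x + (0 + s) • (z - x)) - u (x + (0:ℝ) • (z - x)) = u (x + s • (z - x)) - u x := by
    simp
  rw [h5]
  have h6 : u (x + s • (z - x)) - u x ≤ s * (u z - u x) := by nlinarith
  calc s⁻¹ * (u (x + s • (z - x)) - u x) ≤ s⁻¹ * (s * (u z - u x)) := by gcongr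
    _ = u z - u x := by field_simp

theorem sq_le_of_two_sided {τ Dp Dm D2 : ℝ} (h1 : τ ≤ Dp + D2) (h2 : -τ ≤ Dm + D2)
    (hD2 : 0 ≤ D2) : τ ^ 2 ≤ 2 * (Dp ^ 2 + Dm ^ 2) + 2 * D2 ^ 2 := by
  rcases le_total 0 τ with h | h
  · have : τ ^ 2 ≤ (Dp + D2) ^ 2 := by nlinarith
    nlinarith [sq_nonneg (Dp - D2), sq_nonneg Dm]
  · have : τ ^ 2 ≤ (Dm + D2) ^ 2 := by nlinarith
    nlinarith [sq_nonneg (Dm - D2), sq_nonneg Dp]

end Pointwise

section Core

variable {d : ℕ} {K : Set (EuclideanSpace ℝ (Fin d))}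

local notation "E" => EuclideanSpace ℝ (Fin d)

/-- The set of points of `K` that stay in `K` under translation by `± a`. -/
def shrink (K : Set (EuclideanSpace ℝ (Fin d))) (a : EuclideanSpace ℝ (Fin d)) :
    Set (EuclideanSpace ℝ (Fin d)) := {x | x + a ∈ K ∧ x - a ∈ K}

theorem shrink_subset (hKv : Convex ℝ K) (a : E) : shrink K a ⊆ K := by
  rintro x ⟨h1, h2⟩
  have := hKv h1 h2 (by norm_num : (0:ℝ) ≤ 1/2) (by norm_num : (0:ℝ) ≤ 1/2) (by norm_num)
  convert this using 1
  simp only [smul_add, smul_sub]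
  rw [show (1/2:ℝ) • x + (1/2:ℝ) • a + ((1/2:ℝ) • x - (1/2:ℝ) • a) = (1/2:ℝ) • x + (1/2:ℝ) • x by abel,
    ← add_smul]
  norm_num

theorem isClosed_shrink (hKc : IsCompact K) (a : E) : IsClosed (shrink K a) := by
  have h1 : IsClosed {x : E | x + a ∈ K} := hKc.isClosed.preimage (by fun_prop)
  have h2 : IsClosed {x : E | x - a ∈ K} := hKc.isClosed.preimage (by fun_prop)
  exact h1.inter h2

/-- Translation: a nonnegative function integrated over a translate in `K`. -/
theorem setIntegral_translate_eq (F : E → ℝ) (B : Set E) (b : E) :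
    ∫ x in B, F (x + b) = ∫ y in {y | y - b ∈ B}, F y := by
  have hmp := measurePreserving_add_right (volume : Measure E) b
  have hemb : MeasurableEmbedding (fun x : E => x + b) :=
    (Homeomorph.addRight b).measurableEmbedding
  have := hmp.setIntegral_preimage_emb hemb F {y | y - b ∈ B}
  rw [← this]
  congr 2
  ext x
  simp

theorem setIntegral_translate_le {F : E → ℝ} (hF : ∀ x, 0 ≤ F x)
    (hFi : IntegrableOn F K) {B : Set E} {b : E} (hb : ∀ x ∈ B, x + b ∈ K) :
    ∫ x in B, F (x + b) ≤ ∫ x in K, F x := by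
  rw [setIntegral_translate_eq]
  refine setIntegral_mono_set hFi (Eventually.of_forall hF) (LE.le.eventuallyLE ?_)
  intro y hy
  have := hb _ hy
  simpa using this

variable {u v : EuclideanSpace ℝ (Fin d) → ℝ} {L : ℝ≥0} {c : ℝ}

theorem lip_abs_le (hu : LipschitzWith L u) (x y : E) : |u x - u y| ≤ L * ‖x - y‖ := by
  have := hu.dist_le_mul x y
  rw [Real.dist_eq, dist_eq_norm] at this
  exact this

theorem abs_fderiv_le (hu : LipschitzWith L u) (x a : E) : |fderiv ℝ u x a| ≤ L * ‖a‖ := by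
  have h1 := (fderiv ℝ u x).le_opNorm a
  have h2 := norm_fderiv_le_of_lipschitz ℝ hu (x₀ := x)
  rw [Real.norm_eq_abs] at h1
  calc |fderiv ℝ u x a| ≤ ‖fderiv ℝ u x‖ * ‖a‖ := h1
    _ ≤ L * ‖a‖ := by gcongr

theorem measurable_fderiv_sub (u v : E → ℝ) (a : E) :
    Measurable (fun x => fderiv ℝ u x a - fderiv ℝ v x a) :=
  (measurable_fderiv_apply_const ℝ u a).sub (measurable_fderiv_apply_const ℝ v a)

/-- Core estimate for the difference of the directional derivatives. -/
theorem core_estimate (hKc : IsCompact K) (hKv : Convex ℝ K)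
    (hu : LipschitzWith L u) (hv : LipschitzWith L v)
    (huc : ConvexOn ℝ K u) (hvc : ConvexOn ℝ K v) (c : ℝ) (a : E)
    {B : Set E} (hBm : MeasurableSet B) (hB1 : B ⊆ shrink K a)
    (hB2 : ∀ y ∈ B, y + a ∈ shrink K a) :
    ∫ x in K, (fderiv ℝ u x a - fderiv ℝ v x a) ^ 2 ≤
      16 * (∫ x in K, (u x - v x - c) ^ 2) +
        12 * (L : ℝ) ^ 2 * ‖a‖ ^ 2 * (volume (K \ B)).toReal := by
  set S := shrink K a with hS
  have hSK : S ⊆ K := shrink_subset hKv a
  have hSm : MeasurableSet S := (isClosed_shrink hKc a).measurableSet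
  have hKm : MeasurableSet K := hKc.isClosed.measurableSet
  have hKfin : volume K < ⊤ := hKc.measure_lt_top
  have hcu : Continuous u := hu.continuous
  have hcv : Continuous v := hv.continuous
  set ρ : ℝ := (L : ℝ) * ‖a‖ with hρ
  have hρ0 : 0 ≤ ρ := by positivity
  -- notations
  set F : E → ℝ := fun x => (u x - v x - c) ^ 2 with hF
  have hF0 : ∀ x, 0 ≤ F x := fun x => sq_nonneg _
  have hFc : Continuous F := by simp only [hF]; fun_prop
  have hFi : IntegrableOn F K := hFc.continuousOn.integrableOn_compact hKc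
  set A : ℝ := ∫ x in K, F x with hA
  have hA0 : 0 ≤ A := setIntegral_nonneg hKm (fun x _ => hF0 x)
  set Dp : E → ℝ := fun x => (u (x + a) - v (x + a)) - (u x - v x) with hDp
  set Dm : E → ℝ := fun x => (u (x - a) - v (x - a)) - (u x - v x) with hDm
  set D2 : E → ℝ := fun x => v (x + a) + v (x - a) - 2 * v x with hD2
  have hDpc : Continuous Dp := by simp only [hDp]; fun_prop
  have hDmc : Continuous Dm := by simp only [hDm]; fun_prop
  have hD2c : Continuous D2 := by simp only [hD2]; fun_prop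
  have hSc : IsCompact S := hKc.of_isClosed_subset (isClosed_shrink hKc a) hSK
  have cont_int : ∀ f : E → ℝ, Continuous f → IntegrableOn f S :=
    fun f hf => hf.continuousOn.integrableOn_compact hSc
  -- D2 pointwise
  have hD2nn : ∀ x ∈ S, 0 ≤ D2 x := by
    intro x hx
    have := hvc.2 hx.1 hx.2 (by norm_num : (0:ℝ) ≤ 1/2) (by norm_num : (0:ℝ) ≤ 1/2) (by norm_num)
    have h2 : (1/2:ℝ) • (x + a) + (1/2:ℝ) • (x - a) = x := by
      simp only [smul_add, smul_sub]
      rw [show (1/2:ℝ) • x + (1/2:ℝ) • a + ((1/2:ℝ) • x - (1/2:ℝ) • a) = (1/2:ℝ) • x + (1/2:ℝ) • x by abel,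
        ← add_smul]
      norm_num
    rw [h2] at this
    simp only [smul_eq_mul] at this
    simp only [hD2]
    linarith
  have hD2le : ∀ x, D2 x ≤ 2 * ρ := by
    intro x
    have h1 := abs_le.1 (lip_abs_le hv (x + a) x)
    have h2 := abs_le.1 (lip_abs_le hv (x - a) x)
    simp only [add_sub_cancel_left, sub_sub_cancel_left, norm_neg] at h1 h2
    simp only [hD2, hρ]
    linarith [h1.2, h2.2]
  -- Dp, Dm integrals
  have hDpi : ∫ x in S, Dp x ^ 2 ≤ 4 * A := by
    have h1 : ∫ x in S, F (x + a) ≤ A := setIntegral_translate_le hF0 hFi (fun x hx => hx.1)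
    have h2 : ∫ x in S, F x ≤ A :=
      setIntegral_mono_set hFi (Eventually.of_forall hF0) (LE.le.eventuallyLE hSK)
    have h3 : ∫ x in S, Dp x ^ 2 ≤ ∫ x in S, (2 * F (x + a) + 2 * F x) := by
      refine setIntegral_mono_on (cont_int _ (by fun_prop)) (cont_int _ (by fun_prop)) hSm
        (fun x _ => ?_)
      simp only [hDp, hF]
      nlinarith [sq_nonneg ((u (x + a) - v (x + a) - c) + (u x - v x - c))]
    rw [integral_add (cont_int _ (by fun_prop)) (cont_int _ (by fun_prop)),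
      integral_const_mul, integral_const_mul] at h3
    linarith
  have hDmi : ∫ x in S, Dm x ^ 2 ≤ 4 * A := by
    have h1 : ∫ x in S, F (x + -a) ≤ A := setIntegral_translate_le hF0 hFi
      (fun x hx => by simpa [sub_eq_add_neg] using hx.2)
    have h2 : ∫ x in S, F x ≤ A :=
      setIntegral_mono_set hFi (Eventually.of_forall hF0) (LE.le.eventuallyLE hSK)
    have h3 : ∫ x in S, Dm x ^ 2 ≤ ∫ x in S, (2 * F (x + -a) + 2 * F x) := by
      refine setIntegral_mono_on (cont_int _ (by fun_prop)) (cont_int _ (by fun_prop)) hSm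
        (fun x _ => ?_)
      simp only [hDm, hF, ← sub_eq_add_neg]
      nlinarith [sq_nonneg ((u (x - a) - v (x - a) - c) + (u x - v x - c))]
    rw [integral_add (cont_int _ (by fun_prop)) (cont_int _ (by fun_prop)),
      integral_const_mul, integral_const_mul] at h3
    linarith
  -- D2 integral
  set W : ℝ := (volume (K \ B)).toReal with hW
  have hW0 : 0 ≤ W := ENNReal.toReal_nonneg
  have hKBfin : volume (K \ B) < ⊤ := (measure_mono sdiff_subset).trans_lt hKfin
  have hD2i : ∫ x in S, D2 x ≤ 2 * ρ * W := by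
    set f : E → ℝ := fun x => v (x + a) - v x with hf
    have hfc : Continuous f := by simp only [hf]; fun_prop
    have hfb : ∀ x, ‖f x‖ ≤ ρ := by
      intro x
      have := lip_abs_le hv (x + a) x
      simpa [hf, hρ] using this
    set S' : Set E := {y | y + a ∈ S} with hS'
    have hS'm : MeasurableSet S' := (isClosed_shrink hKc a).preimage (by fun_prop) |>.measurableSet
    have hS'K : S' ⊆ K := by
      intro y hy
      have := hy.2
      simpa using this
    have hS'c : IsCompact S' := hKc.of_isClosed_subset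
      ((isClosed_shrink hKc a).preimage (by fun_prop)) hS'K
    have hBS : B ⊆ S := hB1
    have hBS' : B ⊆ S' := fun y hy => hB2 y hy
    have e1 : ∫ x in S, D2 x = (∫ x in S, f x) - ∫ x in S', f x := by
      have h1 : ∫ x in S, f (x + -a) = ∫ y in S', f y := by
        rw [setIntegral_translate_eq]
        congr 2
        ext y
        simp [hS']
      have h2 : ∀ x, D2 x = f x - f (x + -a) := by
        intro x
        simp only [hD2, hf, ← sub_eq_add_neg, sub_add_cancel]
        ring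
      simp_rw [h2]
      rw [integral_sub (cont_int _ hfc) (cont_int _ (by fun_prop)), h1]
    have e2 : ∫ x in S \ B, f x = (∫ x in S, f x) - ∫ x in B, f x :=
      setIntegral_sdiff hBm (hfc.continuousOn.integrableOn_compact hSc) hBS
    have e3 : ∫ x in S' \ B, f x = (∫ x in S', f x) - ∫ x in B, f x :=
      setIntegral_sdiff hBm (hfc.continuousOn.integrableOn_compact hS'c) hBS'
    have e4 : |∫ x in S \ B, f x| ≤ ρ * W := by
      have h1 : volume (S \ B) < ⊤ := (measure_mono (sdiff_subset_sdiff_left hSK)).trans_lt hKBfin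
      have := norm_setIntegral_le_of_norm_le_const (μ := volume) h1 (fun x _ => hfb x)
      rw [Real.norm_eq_abs] at this
      refine this.trans ?_
      gcongr
      exact ENNReal.toReal_mono hKBfin.ne (measure_mono (sdiff_subset_sdiff_left hSK))
    have e5 : |∫ x in S' \ B, f x| ≤ ρ * W := by
      have h1 : volume (S' \ B) < ⊤ :=
        (measure_mono (sdiff_subset_sdiff_left hS'K)).trans_lt hKBfin
      have := norm_setIntegral_le_of_norm_le_const (μ := volume) h1 (fun x _ => hfb x)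
      rw [Real.norm_eq_abs] at this
      refine this.trans ?_
      gcongr
      exact ENNReal.toReal_mono hKBfin.ne (measure_mono (sdiff_subset_sdiff_left hS'K))
    rw [e1]
    have := abs_le.1 e4
    have := abs_le.1 e5
    linarith [(abs_le.1 e4).2, (abs_le.1 e5).1]
  have hD2sq : ∫ x in S, D2 x ^ 2 ≤ 2 * ρ * (2 * ρ * W) := by
    have h1 : ∫ x in S, D2 x ^ 2 ≤ ∫ x in S, (2 * ρ) * D2 x := by
      refine setIntegral_mono_on (cont_int _ (by fun_prop)) (cont_int _ (by fun_prop)) hSm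
        (fun x hx => ?_)
      have h2 := hD2nn x hx
      have h3 := hD2le x
      nlinarith
    rw [integral_const_mul] at h1
    refine h1.trans ?_
    gcongr
  -- the pointwise estimate
  set τ : E → ℝ := fun x => fderiv ℝ u x a - fderiv ℝ v x a with hτ
  have hτm : Measurable τ := measurable_fderiv_sub u v a
  have hτb : ∀ x, |τ x| ≤ 2 * ρ := by
    intro x
    have h1 := abs_fderiv_le hu x a
    have h2 := abs_fderiv_le hv x a
    calc |τ x| ≤ |fderiv ℝ u x a| + |fderiv ℝ v x a| := abs_sub _ _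
      _ ≤ 2 * ρ := by simp only [hρ]; linarith
  have hτsq : ∀ x, τ x ^ 2 ≤ (2 * ρ) ^ 2 := fun x => sq_le_sq' (abs_le.1 (hτb x)).1 (abs_le.1 (hτb x)).2
  have hτsqm : Measurable (fun x => τ x ^ 2) := hτm.pow_const 2
  have hτi : ∀ T : Set E, volume T < ⊤ → IntegrableOn (fun x => τ x ^ 2) T := by
    intro T hT
    refine Measure.integrableOn_of_bounded (M := (2 * ρ) ^ 2) hT.ne hτsqm.aestronglyMeasurable ?_
    refine Eventually.of_forall fun x => ?_
    rw [Real.norm_eq_abs, abs_of_nonneg (sq_nonneg _)]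
    exact hτsq x
  have hae : ∀ᵐ x, x ∈ S → τ x ^ 2 ≤ 2 * (Dp x ^ 2 + Dm x ^ 2) + 2 * D2 x ^ 2 := by
    filter_upwards [hu.ae_differentiableAt (μ := volume), hv.ae_differentiableAt (μ := volume)]
      with x hdu hdv hx
    have hxK := hSK hx
    have h1 := fderiv_le_of_convexOn huc hxK hx.1 hdu
    have h2 := fderiv_le_of_convexOn huc hxK hx.2 hdu
    have h3 := fderiv_le_of_convexOn hvc hxK hx.1 hdv
    have h4 := fderiv_le_of_convexOn hvc hxK hx.2 hdv
    simp only [add_sub_cancel_left, show x - a - x = -a by abel, map_neg] at h1 h2 h3 h4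
    refine sq_le_of_two_sided (τ := τ x) (Dp := Dp x) (Dm := Dm x) (D2 := D2 x) ?_ ?_ (hD2nn x hx)
    · simp only [hτ, hDp, hD2]; linarith
    · simp only [hτ, hDm, hD2]; linarith
  have hS1 : ∫ x in S, τ x ^ 2 ≤ 16 * A + 2 * (2 * ρ * (2 * ρ * W)) := by
    have h1 : ∫ x in S, τ x ^ 2 ≤ ∫ x in S, (2 * (Dp x ^ 2 + Dm x ^ 2) + 2 * D2 x ^ 2) :=
      setIntegral_mono_on_ae (hτi S (hSc.measure_lt_top)) (cont_int _ (by fun_prop)) hSm hae
    rw [integral_add (cont_int _ (by fun_prop)) (cont_int _ (by fun_prop)),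
      integral_const_mul, integral_const_mul,
      integral_add (cont_int _ (by fun_prop)) (cont_int _ (by fun_prop))] at h1
    linarith
  have hS2 : ∫ x in K \ S, τ x ^ 2 ≤ (2 * ρ) ^ 2 * W := by
    have hBS : B ⊆ S := hB1
    have h1 : volume (K \ S) < ⊤ := (measure_mono sdiff_subset).trans_lt hKfin
    have := norm_setIntegral_le_of_norm_le_const (μ := volume) (f := fun x => τ x ^ 2)
      (C := (2 * ρ) ^ 2) h1 (fun x _ => by
        rw [Real.norm_eq_abs, abs_of_nonneg (sq_nonneg _)]; exact hτsq x)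
    rw [Real.norm_eq_abs] at this
    refine (le_abs_self _).trans (this.trans ?_)
    gcongr
    exact ENNReal.toReal_mono hKBfin.ne (measure_mono (sdiff_subset_sdiff_right hBS))
  have hsplit : ∫ x in K, τ x ^ 2 = (∫ x in S, τ x ^ 2) + ∫ x in K \ S, τ x ^ 2 := by
    have := setIntegral_sdiff hSm (hτi K hKfin) hSK
    linarith
  have hρ2 : ρ ^ 2 = (L : ℝ) ^ 2 * ‖a‖ ^ 2 := by simp only [hρ]; ring
  calc ∫ x in K, τ x ^ 2 = (∫ x in S, τ x ^ 2) + ∫ x in K \ S, τ x ^ 2 := hsplit
    _ ≤ 16 * A + 2 * (2 * ρ * (2 * ρ * W)) + (2 * ρ) ^ 2 * W := add_le_add hS1 hS2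
    _ = 16 * A + 12 * (ρ ^ 2) * W := by ring
    _ = 16 * A + 12 * (L : ℝ) ^ 2 * ‖a‖ ^ 2 * W := by rw [hρ2]; ring

end Core

section Assembly

variable {d : ℕ} {K : Set (EuclideanSpace ℝ (Fin d))}

/-- The homothetic copy of `K` with centre `x0` and ratio `1 - s`. -/
noncomputable def homoSet (K : Set (EuclideanSpace ℝ (Fin d))) (x0 : EuclideanSpace ℝ (Fin d))
    (s : ℝ) : Set (EuclideanSpace ℝ (Fin d)) :=
  AffineMap.homothety x0 (1 - s) '' K

theorem homo_add_mem (hKv : Convex ℝ K) {x0 : EuclideanSpace ℝ (Fin d)} {r0 s : ℝ}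
    (hball : Metric.closedBall x0 r0 ⊆ K) (hs0 : 0 < s) (hs1 : s ≤ 1)
    {x h : EuclideanSpace ℝ (Fin d)} (hx : x ∈ homoSet K x0 s) (hh : ‖h‖ ≤ s * r0) :
    x + h ∈ K := by
  obtain ⟨k, hk, rfl⟩ := hx
  have hp : x0 + s⁻¹ • h ∈ K := by
    apply hball
    rw [Metric.mem_closedBall, dist_eq_norm, add_sub_cancel_left, norm_smul, Real.norm_eq_abs,
      abs_of_pos (inv_pos.2 hs0)]
    calc s⁻¹ * ‖h‖ ≤ s⁻¹ * (s * r0) := by gcongr
      _ = r0 := by field_simp
  have := hKv hk hp (sub_nonneg.2 hs1) hs0.le (by ring : (1 - s) + s = 1)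
  convert this using 1
  rw [AffineMap.homothety_apply, smul_add, smul_smul, mul_inv_cancel₀ hs0.ne', one_smul]
  simp only [vsub_eq_sub, vadd_eq_add]
  module

theorem homo_subset (hKv : Convex ℝ K) {x0 : EuclideanSpace ℝ (Fin d)} {r0 s : ℝ}
    (hball : Metric.closedBall x0 r0 ⊆ K) (hs0 : 0 < s) (hs1 : s ≤ 1) (hr0 : 0 ≤ r0) :
    homoSet K x0 s ⊆ K := by
  intro x hx
  have := homo_add_mem hKv hball hs0 hs1 hx (h := 0) (by simpa using mul_nonneg hs0.le hr0)
  simpa using this

theorem volume_homo_diff_le (hKc : IsCompact K) (hKv : Convex ℝ K)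
    {x0 : EuclideanSpace ℝ (Fin d)} {r0 s : ℝ}
    (hball : Metric.closedBall x0 r0 ⊆ K) (hs0 : 0 < s) (hs1 : s ≤ 1) (hr0 : 0 ≤ r0) :
    (volume (K \ homoSet K x0 s)).toReal ≤ d * s * (volume K).toReal := by
  have hsub := homo_subset hKv hball hs0 hs1 hr0
  have hcont : Continuous (AffineMap.homothety x0 (1 - s)) :=
    AffineMap.continuous_of_finiteDimensional _
  have hcomp : IsCompact (homoSet K x0 s) := hKc.image hcont
  have hfin : volume (homoSet K x0 s) ≠ ⊤ := hcomp.measure_lt_top.ne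
  have hKfin : volume K ≠ ⊤ := hKc.measure_lt_top.ne
  rw [measure_diff hsub hcomp.measurableSet.nullMeasurableSet hfin,
    ENNReal.toReal_sub_of_le (measure_mono hsub) hKfin]
  have hvol : (volume (homoSet K x0 s)).toReal = (1 - s) ^ d * (volume K).toReal := by
    unfold homoSet
    rw [Measure.addHaar_image_homothety, finrank_euclideanSpace_fin, ENNReal.toReal_mul,
      ENNReal.toReal_ofReal (abs_nonneg _), abs_of_nonneg (pow_nonneg (sub_nonneg.2 hs1) _)]
  rw [hvol]
  have hB : 1 + (d : ℝ) * (-s) ≤ (1 + -s) ^ d :=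
    one_add_mul_le_pow (by linarith) d
  have hV : 0 ≤ (volume K).toReal := ENNReal.toReal_nonneg
  rw [← sub_eq_add_neg] at hB
  nlinarith

variable {u v : EuclideanSpace ℝ (Fin d) → ℝ} {L : ℝ≥0}

theorem coordinate_estimate (hKc : IsCompact K) (hKv : Convex ℝ K)
    (hu : LipschitzWith L u) (hv : LipschitzWith L v)
    (huc : ConvexOn ℝ K u) (hvc : ConvexOn ℝ K v) (c : ℝ)
    {x0 : EuclideanSpace ℝ (Fin d)} {r0 t : ℝ}
    (hball : Metric.closedBall x0 r0 ⊆ K) (hr0 : 0 < r0) (ht0 : 0 < t) (ht1 : t ≤ r0 / 2)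
    {e : EuclideanSpace ℝ (Fin d)} (he : ‖e‖ = 1) :
    ∫ x in K, (fderiv ℝ u x e - fderiv ℝ v x e) ^ 2 ≤
      16 * (∫ x in K, (u x - v x - c) ^ 2) / t ^ 2 +
        12 * (L : ℝ) ^ 2 * (d * (2 * t / r0) * (volume K).toReal) := by
  set s : ℝ := 2 * t / r0 with hs
  have hs0 : 0 < s := by positivity
  have hs1 : s ≤ 1 := by rw [hs, div_le_one hr0]; linarith
  have hsr : s * r0 = 2 * t := by rw [hs]; field_simp
  set a : EuclideanSpace ℝ (Fin d) := t • e with ha
  have hna : ‖a‖ = t := by rw [ha, norm_smul, he, mul_one, Real.norm_eq_abs, abs_of_pos ht0]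
  set B := homoSet K x0 s with hBdef
  have hcont : Continuous (AffineMap.homothety x0 (1 - s)) :=
    AffineMap.continuous_of_finiteDimensional _
  have hBc : IsCompact B := hKc.image hcont
  have hB1 : B ⊆ shrink K a := by
    intro y hy
    constructor
    · exact homo_add_mem hKv hball hs0 hs1 hy (by rw [hsr, hna]; linarith)
    · have := homo_add_mem hKv hball hs0 hs1 hy (h := -a) (by rw [hsr, norm_neg, hna]; linarith)
      simpa [sub_eq_add_neg] using this
  have hB2 : ∀ y ∈ B, y + a ∈ shrink K a := by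
    intro y hy
    constructor
    · have := homo_add_mem hKv hball hs0 hs1 hy (h := a + a) (by
        rw [hsr]
        calc ‖a + a‖ ≤ ‖a‖ + ‖a‖ := norm_add_le _ _
          _ = 2 * t := by rw [hna]; ring)
      simpa [add_assoc] using this
    · have := homo_subset hKv hball hs0 hs1 hr0.le hy
      simpa using this
  have hcore := core_estimate hKc hKv hu hv huc hvc c a hBc.measurableSet hB1 hB2
  have hW := volume_homo_diff_le hKc hKv hball hs0 hs1 hr0.le
  have hfd : ∀ x, fderiv ℝ u x a - fderiv ℝ v x a = t * (fderiv ℝ u x e - fderiv ℝ v x e) := by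
    intro x
    rw [ha, map_smul, map_smul, smul_eq_mul, smul_eq_mul]
    ring
  simp_rw [hfd, mul_pow] at hcore
  rw [integral_const_mul, hna] at hcore
  have ht2 : 0 < t ^ 2 := by positivity
  have hL : 0 ≤ (L : ℝ) := L.2
  set J := ∫ x in K, (fderiv ℝ u x e - fderiv ℝ v x e) ^ 2 with hJ
  set A := ∫ x in K, (u x - v x - c) ^ 2 with hA
  set W := (volume (K \ B)).toReal with hWdef
  have h3 : t ^ 2 * J ≤ t ^ 2 * (16 * A / t ^ 2 + 12 * (L : ℝ) ^ 2 * W) := by
    have : t ^ 2 * (16 * A / t ^ 2 + 12 * (L : ℝ) ^ 2 * W) = 16 * A + 12 * (L : ℝ) ^ 2 * t ^ 2 * W := by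
      field_simp
    rw [this]
    exact hcore
  have h4 := le_of_mul_le_mul_left h3 ht2
  refine h4.trans ?_
  gcongr

/-- Elementary optimisation over `t`. -/
theorem final_numeric {I X r D M M₂ : ℝ} (hr : 0 < r) (hX : 0 ≤ X) (hD : 0 ≤ D) (hM : 0 ≤ M)
    (hM₂ : 0 ≤ M₂) (h1 : ∀ t, 0 < t → t ≤ r / 2 → I ≤ D * X / t ^ 2 + M * t) (h2 : I ≤ M₂) :
    I ≤ (D + M + 2 * M₂ / r) * X ^ (1 / 3 : ℝ) := by
  set ξ : ℝ := X ^ (1 / 3 : ℝ) with hξ
  have hξ0 : 0 ≤ ξ := Real.rpow_nonneg hX _
  have hξ3 : ξ ^ 3 = X := by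
    rw [hξ, ← Real.rpow_natCast, ← Real.rpow_mul hX]
    norm_num
  have hC : 0 ≤ 2 * M₂ / r := by positivity
  rcases hξ0.eq_or_lt with h0 | hpos
  · -- `X = 0`
    have hX0 : X = 0 := by rw [← hξ3, ← h0]; norm_num
    rw [← h0, mul_zero]
    refine le_of_forall_pos_le_add fun ε hε => ?_
    set t : ℝ := min (r / 2) (ε / (M + 1)) with ht
    have ht0 : 0 < t := lt_min (by positivity) (by positivity)
    have := h1 t ht0 (min_le_left _ _)
    rw [hX0, mul_zero, zero_div, zero_add] at this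
    refine this.trans ?_
    have h3 : t ≤ ε / (M + 1) := min_le_right _ _
    have h4 : M * t ≤ M * (ε / (M + 1)) := by gcongr
    have h5 : M * (ε / (M + 1)) ≤ ε := by
      rw [mul_div_assoc', div_le_iff₀ (by positivity)]
      nlinarith
    linarith
  · rcases le_or_gt ξ (r / 2) with hle | hgt
    · have := h1 ξ hpos hle
      rw [← hξ3] at this
      have h6 : D * ξ ^ 3 / ξ ^ 2 = D * ξ := by field_simp
      rw [h6] at this
      refine this.trans ?_
      nlinarith
    · have h7 : 1 ≤ 2 * ξ / r := by rw [le_div_iff₀ hr]; linarith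
      have h8 : M₂ ≤ 2 * M₂ / r * ξ := by
        calc M₂ = M₂ * 1 := (mul_one _).symm
          _ ≤ M₂ * (2 * ξ / r) := by gcongr
          _ = 2 * M₂ / r * ξ := by ring
      have h9 : 0 ≤ (D + M) * ξ := by positivity
      nlinarith

theorem uniform_integral_eq (f : EuclideanSpace ℝ (Fin d) → ℝ) :
    ∫ x, f x ∂(uniformProbOn K) = (volume K).toReal⁻¹ * ∫ x in K, f x := by
  have := setIntegral_uniform (K := K) univ MeasurableSet.univ f
  simpa using this

/-- **Step A.** -/
theorem gradient_L2_le (hKc : IsCompact K) (hKv : Convex ℝ K) (hKi : (interior K).Nonempty)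
    (L : ℝ≥0) :
    ∃ C : ℝ≥0, ∀ u v : EuclideanSpace ℝ (Fin d) → ℝ, LipschitzWith L u → LipschitzWith L v →
      ConvexOn ℝ K u → ConvexOn ℝ K v → ∀ c : ℝ,
      ∫⁻ x, ‖gradient u x - gradient v x‖ₑ ^ 2 ∂(uniformProbOn K) ≤
        C * ENNReal.ofReal (∫ x, (u x - v x - c) ^ 2 ∂(uniformProbOn K)) ^ (1 / 3 : ℝ) := by
  obtain ⟨x0, hx0⟩ := hKi
  have hnh : K ∈ 𝓝 x0 := mem_interior_iff_mem_nhds.1 hx0
  obtain ⟨r0, hr0, hball⟩ := Metric.nhds_basis_closedBall.mem_iff.1 hnh
  have hL0 : (0 : ℝ) ≤ L := L.2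
  set D : ℝ := d * 16 with hD
  set M : ℝ := d * (12 * (L : ℝ) ^ 2 * (d * (2 / r0))) with hM
  set M₂ : ℝ := d * (2 * (L : ℝ)) ^ 2 with hM₂
  have hD0 : 0 ≤ D := by positivity
  have hM0 : 0 ≤ M := by positivity
  have hM₂0 : 0 ≤ M₂ := by positivity
  set C₀ : ℝ := D + M + 2 * M₂ / r0 with hC₀
  have hC₀0 : 0 ≤ C₀ := by positivity
  refine ⟨Real.toNNReal C₀, fun u v hu hv huc hvc c => ?_⟩
  have hKi' : (interior K).Nonempty := ⟨x0, hx0⟩
  have hprob := uniform_isProb hKc hKi'
  set U := uniformProbOn K with hU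
  set V : ℝ := (volume K).toReal with hV
  have hVpos : 0 < V := ENNReal.toReal_pos (volume_ne_zero_of_interior hKi')
    (volume_ne_top_of_compact hKc)
  let e : Fin d → EuclideanSpace ℝ (Fin d) := fun k => EuclideanSpace.single k 1
  have he : ∀ k, ‖e k‖ = 1 := fun k => by simp [e]
  set h : Fin d → EuclideanSpace ℝ (Fin d) → ℝ :=
    fun k x => fderiv ℝ u x (e k) - fderiv ℝ v x (e k) with hh
  have hhm : ∀ k, Measurable (h k) := fun k => measurable_fderiv_sub u v (e k)
  have hhb : ∀ k x, (h k x) ^ 2 ≤ (2 * (L : ℝ)) ^ 2 := by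
    intro k x
    have h1 := abs_fderiv_le hu x (e k)
    have h2 := abs_fderiv_le hv x (e k)
    rw [he, mul_one] at h1 h2
    have h3 : |h k x| ≤ 2 * (L : ℝ) := by
      calc |h k x| ≤ |fderiv ℝ u x (e k)| + |fderiv ℝ v x (e k)| := abs_sub _ _
        _ ≤ 2 * (L : ℝ) := by linarith
    exact sq_le_sq' (abs_le.1 h3).1 (abs_le.1 h3).2
  have hgr : ∀ x, ‖gradient u x - gradient v x‖ ^ 2 = ∑ k, (h k x) ^ 2 := by
    intro x
    rw [EuclideanSpace.real_norm_sq_eq]
    refine Finset.sum_congr rfl fun k _ => ?_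
    congr 1
    have h1 : ∀ w : EuclideanSpace ℝ (Fin d) → ℝ, (gradient w x).ofLp k = fderiv ℝ w x (e k) := by
      intro w
      have h2 : ⟪gradient w x, e k⟫ = fderiv ℝ w x (e k) := by
        unfold gradient
        exact InnerProductSpace.toDual_symm_apply
      refine Eq.trans ?_ h2
      simp only [e]
      rw [EuclideanSpace.inner_single_right]
      simp
    simp only [PiLp.sub_apply, h1, hh]
  set S : EuclideanSpace ℝ (Fin d) → ℝ := fun x => ∑ k, (h k x) ^ 2 with hS
  have hSm : Measurable S := Finset.measurable_sum _ fun k _ => (hhm k).pow_const 2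
  have hS0 : ∀ x, 0 ≤ S x := fun x => Finset.sum_nonneg fun k _ => sq_nonneg _
  have hSb : ∀ x, S x ≤ M₂ := by
    intro x
    calc S x ≤ ∑ _k : Fin d, (2 * (L : ℝ)) ^ 2 := Finset.sum_le_sum fun k _ => hhb k x
      _ = M₂ := by simp [hM₂]
  have hSint : Integrable S U :=
    Integrable.of_bound hSm.aestronglyMeasurable M₂ (Eventually.of_forall fun x => by
      rw [Real.norm_eq_abs, abs_of_nonneg (hS0 x)]; exact hSb x)
  set I : ℝ := ∫ x, S x ∂U with hI
  have hF : Continuous fun x => (u x - v x - c) ^ 2 := by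
    have := hu.continuous
    have := hv.continuous
    fun_prop
  set X : ℝ := ∫ x, (u x - v x - c) ^ 2 ∂U with hX
  have hX0 : 0 ≤ X := integral_nonneg fun x => sq_nonneg _
  have hXeq : X = V⁻¹ * ∫ x in K, (u x - v x - c) ^ 2 := uniform_integral_eq _
  have hIeq : I = V⁻¹ * ∫ x in K, S x := uniform_integral_eq _
  have hI2 : I ≤ M₂ := by
    have : I ≤ ∫ _x, M₂ ∂U := integral_mono hSint (integrable_const _) hSb
    simpa using this
  have hh_int : ∀ k, IntegrableOn (fun x => (h k x) ^ 2) K := by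
    intro k
    refine Measure.integrableOn_of_bounded (M := (2 * (L : ℝ)) ^ 2) hKc.measure_lt_top.ne
      ((hhm k).pow_const 2).aestronglyMeasurable (Eventually.of_forall fun x => ?_)
    rw [Real.norm_eq_abs, abs_of_nonneg (sq_nonneg _)]
    exact hhb k x
  have hI1 : ∀ t, 0 < t → t ≤ r0 / 2 → I ≤ D * X / t ^ 2 + M * t := by
    intro t ht0 ht1
    have hk : ∀ k, ∫ x in K, (h k x) ^ 2 ≤
        16 * (∫ x in K, (u x - v x - c) ^ 2) / t ^ 2 +
          12 * (L : ℝ) ^ 2 * (d * (2 * t / r0) * V) := fun k =>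
      coordinate_estimate hKc hKv hu hv huc hvc c hball hr0 ht0 ht1 (he k)
    have hsum : ∫ x in K, S x ≤ d * (16 * (∫ x in K, (u x - v x - c) ^ 2) / t ^ 2 +
          12 * (L : ℝ) ^ 2 * (d * (2 * t / r0) * V)) := by
      rw [integral_finset_sum _ fun k _ => hh_int k]
      calc ∑ k, ∫ x in K, (h k x) ^ 2
          ≤ ∑ _k : Fin d, (16 * (∫ x in K, (u x - v x - c) ^ 2) / t ^ 2 +
            12 * (L : ℝ) ^ 2 * (d * (2 * t / r0) * V)) := Finset.sum_le_sum fun k _ => hk k
        _ = _ := by simp only [Finset.sum_const, Finset.card_univ, Fintype.card_fin, nsmul_eq_mul]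
    rw [hIeq]
    have hA : ∫ x in K, (u x - v x - c) ^ 2 = V * X := by
      rw [hXeq]; field_simp
    rw [hA] at hsum
    have hVi : 0 < V⁻¹ := inv_pos.2 hVpos
    calc V⁻¹ * ∫ x in K, S x ≤ V⁻¹ * (d * (16 * (V * X) / t ^ 2 +
          12 * (L : ℝ) ^ 2 * (d * (2 * t / r0) * V))) := by gcongr
      _ = D * X / t ^ 2 + M * t := by
        simp only [hD, hM]
        field_simp
  have hfinal := final_numeric hr0 hX0 hD0 hM0 hM₂0 hI1 hI2
  -- convert to lintegral
  have hl : ∫⁻ x, ‖gradient u x - gradient v x‖ₑ ^ 2 ∂U = ENNReal.ofReal I := by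
    rw [hI, ofReal_integral_eq_lintegral_ofReal hSint (Eventually.of_forall hS0)]
    refine lintegral_congr fun x => ?_
    rw [← ofReal_norm_eq_enorm, ← ENNReal.ofReal_pow (norm_nonneg _), hgr]
  rw [hl, ENNReal.ofReal_rpow_of_nonneg hX0 (by norm_num)]
  change ENNReal.ofReal I ≤ ENNReal.ofReal C₀ * ENNReal.ofReal (X ^ (1 / 3 : ℝ))
  rw [← ENNReal.ofReal_mul hC₀0]
  exact ENNReal.ofReal_le_ofReal hfinal

end Assembly

end Crest.Agent.Lib.OT
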