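import Crest.Agent.Lib.OT.SemiDiscrete

/-!
# Telescoping along a linear path of atoms

From the key stability estimate for cell means under a density perturbation, we deduce the
`L²(U)` stability of the potentials for atomic targets (`AtomStability`).
-/

set_option autoImplicit false

open MeasureTheory Set Filter Topology Function
open scoped ENNReal NNReal RealInnerProductSpace
open Crest.AnalysisR.OT

namespace Crest.Agent.Lib.OT

section Dens

variable {E : Type*} [NormedAddCommGroup E] [InnerProductSpace ℝ E] [MeasurableSpace E] [BorelSpace E]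
variable {U : Measure E} {K : Set E}

/-- The measure with density `r` with respect to `U`. -/
noncomputable def dens (U : Measure E) (r : E → ℝ) : Measure E :=
  U.withDensity (fun x => ENNReal.ofReal (r x))

theorem setIntegral_dens (hU : IsSource U K) {r : E → ℝ} (hr : Continuous r)
    (hr0 : ∀ x ∈ K, 0 ≤ r x) {A : Set E} (hA : MeasurableSet A) (f : E → ℝ) :
    ∫ x in A, f x ∂(dens U r) = ∫ x in A, f x * r x ∂U := by
  unfold dens
  rw [setIntegral_withDensity_eq_setIntegral_toReal_smul₀ (hr.measurable.ennreal_ofReal.aemeasurable)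
    (Eventually.of_forall fun _ => ENNReal.ofReal_lt_top) f hA]
  refine setIntegral_congr_ae hA ?_
  filter_upwards [hU.ae_mem] with x hx _
  rw [ENNReal.toReal_ofReal (hr0 x hx), smul_eq_mul, mul_comm]

theorem integral_dens (hU : IsSource U K) {r : E → ℝ} (hr : Continuous r)
    (hr0 : ∀ x ∈ K, 0 ≤ r x) (f : E → ℝ) :
    ∫ x, f x ∂(dens U r) = ∫ x, f x * r x ∂U := by
  simpa using setIntegral_dens hU hr hr0 MeasurableSet.univ f

theorem dens_real (hU : IsSource U K) {r : E → ℝ} (hr : Continuous r)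
    (hr0 : ∀ x ∈ K, 0 ≤ r x) {A : Set E} (hA : MeasurableSet A) :
    (dens U r).real A = ∫ x in A, r x ∂U := by
  simpa using setIntegral_dens hU hr hr0 hA (fun _ => 1)

theorem isSource_dens (hU : IsSource U K) {r : E → ℝ} (hr : Continuous r)
    (hr0 : ∀ x ∈ K, 0 ≤ r x) (hint : ∫ x, r x ∂U = 1) : IsSource (dens U r) K := by
  refine ⟨⟨?_⟩, hU.compact, ?_, fun v c hv => ?_⟩
  · unfold dens
    rw [withDensity_apply _ MeasurableSet.univ, Measure.restrict_univ,
      ← ofReal_integral_eq_lintegral_ofReal (hU.integrable hr), hint, ENNReal.ofReal_one]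
    filter_upwards [hU.ae_mem] with x hx using hr0 x hx
  · exact (withDensity_absolutelyContinuous U _) hU.conc
  · exact (withDensity_absolutelyContinuous U _) (hU.null_hyper v c hv)

end Dens

section Path

variable {E : Type*} [NormedAddCommGroup E] [InnerProductSpace ℝ E] [MeasurableSpace E] [BorelSpace E]
variable {ι : Type*} [Fintype ι] [Nonempty ι]
variable {P : Measure E} {K : Set E}

/-- One-sided comparison of the values at two atom families. -/
theorem value_step (hP : IsSource P K) {y y' : ι → E} (hy : Injective y) {m φ : ι → ℝ}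
    (hφ : IsSol P y m φ) (φ' : ι → ℝ) :
    ∑ i, ∫ x in cell y φ i, ⟪x, y' i - y i⟫ ∂P ≤ Phi P y' m φ' - Phi P y m φ := by
  rw [Phi_eq_of_sol hP hy hφ]
  have h := Phi_ge_of_partition hP (measurableSet_cell y φ) (iUnion_cell y φ)
    (hP.aedisjoint_cell hy φ) hφ y' φ'
  have h2 : ∀ i, ∫ x in cell y φ i, ⟪x, y' i - y i⟫ ∂P =
      ∫ x in cell y φ i, ⟪x, y' i⟫ ∂P - ∫ x in cell y φ i, ⟪x, y i⟫ ∂P := by
    intro i
    simp only [inner_sub_right]
    exact integral_sub (integrable_inner_right hP _).integrableOn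
      (integrable_inner_right hP _).integrableOn
  simp only [h2, Finset.sum_sub_distrib]
  linarith

/-- The pairing of the cells with a family of vectors. -/
noncomputable def Aval (P : Measure E) (y : ι → E) (φ : ι → ℝ) (a : ι → E) : ℝ :=
  ∑ i, ∫ x in cell y φ i, ⟪x, a i⟫ ∂P

/-- The linear path of atoms. -/
def atomPath (y a : ι → E) (s : ℝ) : ι → E := fun i => y i + s • a i

omit [MeasurableSpace E] [BorelSpace E] [Fintype ι] [Nonempty ι] in
theorem atomPath_sub (y a : ι → E) (s s' : ℝ) (i : ι) :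
    atomPath y a s' i - atomPath y a s i = (s' - s) • a i := by
  simp only [atomPath, sub_smul]
  abel

/-- Lower bound for the increment of the value along the path. -/
theorem path_lower (hP : IsSource P K) {y a : ι → E} {s s' : ℝ}
    (hs : Injective (atomPath y a s)) {m φ : ι → ℝ} (hφ : IsSol P (atomPath y a s) m φ)
    (φ' : ι → ℝ) :
    (s' - s) * Aval P (atomPath y a s) φ a
      ≤ Phi P (atomPath y a s') m φ' - Phi P (atomPath y a s) m φ := by
  have h := value_step hP (y' := atomPath y a s') hs hφ φ'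
  simp only [atomPath_sub, real_inner_smul_right, integral_const_mul, ← Finset.mul_sum] at h
  exact h

/-- Upper bound for the increment of the value along the path. -/
theorem path_upper (hP : IsSource P K) {y a : ι → E} {s s' : ℝ}
    (hs' : Injective (atomPath y a s')) {m φ' : ι → ℝ} (hφ' : IsSol P (atomPath y a s') m φ')
    (φ : ι → ℝ) :
    Phi P (atomPath y a s') m φ' - Phi P (atomPath y a s) m φ
      ≤ (s' - s) * Aval P (atomPath y a s') φ' a := by
  have h := value_step hP (y' := atomPath y a s) hs' hφ' φ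
  simp only [atomPath_sub, real_inner_smul_right, integral_const_mul, ← Finset.mul_sum] at h
  unfold Aval
  linarith

/-- The pairing is bounded. -/
theorem abs_Aval_le (hP : IsSource P K) {y a : ι → E} {m φ : ι → ℝ} (hφ : IsSol P y m φ) {R₁ : ℝ}
    (hR₁ : ∀ x ∈ K, ‖x‖ ≤ R₁) :
    |Aval P y φ a| ≤ R₁ * ∑ i, m i * ‖a i‖ := by
  have := hP.prob
  unfold Aval
  refine (Finset.abs_sum_le_sum_abs _ _).trans ?_
  rw [Finset.mul_sum]
  refine Finset.sum_le_sum fun i _ => ?_
  have h1 := norm_integral_le_of_norm_le_const (μ := P.restrict (cell y φ i))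
    (f := fun x => ⟪x, a i⟫) (C := R₁ * ‖a i‖) (by
      apply ae_restrict_of_ae
      filter_upwards [hP.ae_mem] with x hx
      calc ‖⟪x, a i⟫‖ ≤ ‖x‖ * ‖a i‖ := by
            rw [Real.norm_eq_abs]; exact abs_real_inner_le_norm _ _
        _ ≤ R₁ * ‖a i‖ := by gcongr; exact hR₁ x hx)
  have h2 : (P.restrict (cell y φ i)).real univ = m i := by
    rw [measureReal_restrict_apply MeasurableSet.univ, univ_inter, hφ i]
  rw [h2] at h1
  rw [Real.norm_eq_abs] at h1
  calc _ ≤ R₁ * ‖a i‖ * m i := h1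
    _ = R₁ * (m i * ‖a i‖) := by ring

omit [Nonempty ι] [Fintype ι] [MeasurableSpace E] [BorelSpace E] in
/-- Only finitely many times on the path have colliding atoms. -/
theorem finite_bad_times [Finite ι] {y : ι → E} (hy : Injective y) (a : ι → E) :
    {s : ℝ | ¬ Injective (atomPath y a s)}.Finite := by
  let bad : ι → ι → Set ℝ := fun i j => {s | i ≠ j ∧ atomPath y a s i = atomPath y a s j}
  have hbad : ∀ i j, (bad i j).Finite := by
    intro i j
    apply Set.Subsingleton.finite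
    rintro s ⟨hij, hs⟩ s' ⟨_, hs'⟩
    by_contra hne
    have h1 : (s - s') • (a i - a j) = 0 := by
      simp only [atomPath] at hs hs'
      have : (s - s') • (a i - a j) = (y i + s • a i) - (y i + s' • a i) - ((y j + s • a j) - (y j + s' • a j)) := by
        simp only [smul_sub, sub_smul]
        abel
      rw [this, hs, hs']
      abel
    have h2 : a i - a j = 0 := (smul_eq_zero.mp h1).resolve_left (sub_ne_zero.mpr hne)
    have h3 : a i = a j := sub_eq_zero.mp h2
    simp only [atomPath, h3] at hs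
    exact hij (hy (add_right_cancel hs))
  refine (Set.finite_iUnion fun i => Set.finite_iUnion fun j => hbad i j).subset ?_
  intro s hs
  simp only [mem_setOf_eq, Injective, not_forall] at hs
  obtain ⟨i, j, hij, hne⟩ := hs
  exact mem_iUnion.mpr ⟨i, mem_iUnion.mpr ⟨j, fun h => hne h, hij⟩⟩

end Path

/-- A grid of `[0,1]` with small mesh avoiding a given finite set of times. -/
theorem exists_grid {B : Set ℝ} (hB : B.Finite) {δ : ℝ} (hδ : 0 < δ) :
    ∃ (n : ℕ) (t : ℕ → ℝ), t 0 = 0 ∧ t n = 1 ∧ (∀ k < n, 0 < t (k + 1) - t k) ∧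
      (∀ k < n, t (k + 1) - t k ≤ δ) ∧ (∀ k ≤ n, k ≠ 0 → k ≠ n → t k ∉ B) := by
  obtain ⟨N₀, hN₀⟩ := exists_nat_gt (1 / δ)
  set N : ℕ := N₀ + 1 with hN
  have hNpos : (0 : ℝ) < N := by positivity
  have hN1 : (1 : ℝ) / N ≤ δ := by
    rw [div_le_iff₀ hNpos]
    rw [div_lt_iff₀ hδ] at hN₀
    have : (N₀ : ℝ) ≤ N := by simp [hN]
    nlinarith
  let T : Set ℝ := ⋃ k ∈ Finset.range N, (fun b => b - (k : ℝ) / N) '' B
  have hT : T.Finite := by
    refine Set.Finite.biUnion (Finset.finite_toSet _) fun k _ => hB.image _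
  have hI : (Set.Ioo (0 : ℝ) (1 / N)).Infinite := Set.Ioo_infinite (by positivity)
  obtain ⟨θ, ⟨hθ0, hθ1⟩, hθT⟩ := (hI.diff hT).nonempty
  let t : ℕ → ℝ := fun k => Nat.casesOn k 0 (fun j => if j < N then (j : ℝ) / N + θ else 1)
  have ht0 : t 0 = 0 := rfl
  have ht1 : ∀ j, j < N → t (j + 1) = (j : ℝ) / N + θ := fun j hj => by
    show (if j < N then (j : ℝ) / N + θ else 1) = _
    rw [if_pos hj]
  have ht2 : t (N + 1) = 1 := by
    show (if N < N then (N : ℝ) / N + θ else 1) = _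
    rw [if_neg (lt_irrefl N)]
  refine ⟨N + 1, t, ht0, ht2, ?_, ?_, ?_⟩
  · intro k hk
    rcases Nat.eq_zero_or_pos k with rfl | hk0
    · rw [ht0, ht1 0 (by omega)]
      simp [hθ0]
    · obtain ⟨j, rfl⟩ : ∃ j, k = j + 1 := ⟨k - 1, by omega⟩
      rw [ht1 j (by omega)]
      by_cases hj : j + 1 < N
      · rw [ht1 (j + 1) hj]
        push_cast
        have : ((j : ℝ) + 1) / N + θ - ((j : ℝ) / N + θ) = 1 / N := by ring
        rw [this]
        positivity
      · have hj' : j + 1 = N := by omega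
        rw [hj', ht2]
        have : (j : ℝ) + 1 = N := by exact_mod_cast hj'
        have h3 : (j : ℝ) / N = 1 - 1 / N := by
          field_simp
          linarith
        rw [h3]
        linarith
  · intro k hk
    rcases Nat.eq_zero_or_pos k with rfl | hk0
    · rw [ht0, ht1 0 (by omega)]
      simp only [Nat.cast_zero, zero_div, zero_add, sub_zero]
      linarith
    · obtain ⟨j, rfl⟩ : ∃ j, k = j + 1 := ⟨k - 1, by omega⟩
      rw [ht1 j (by omega)]
      by_cases hj : j + 1 < N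
      · rw [ht1 (j + 1) hj]
        push_cast
        have : ((j : ℝ) + 1) / N + θ - ((j : ℝ) / N + θ) = 1 / N := by ring
        rw [this]
        exact hN1
      · have hj' : j + 1 = N := by omega
        rw [hj', ht2]
        have : (j : ℝ) + 1 = N := by exact_mod_cast hj'
        have h3 : (j : ℝ) / N = 1 - 1 / N := by
          field_simp
          linarith
        rw [h3]
        linarith
  · intro k hk hk0 hk1 hmem
    obtain ⟨j, rfl⟩ : ∃ j, k = j + 1 := ⟨k - 1, by omega⟩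
    have hj : j < N := by omega
    rw [ht1 j hj] at hmem
    apply hθT
    refine mem_iUnion₂.mpr ⟨j, Finset.mem_range.mpr hj, _, hmem, ?_⟩
    ring

/-- The telescoping inequality, purely on real numbers. -/
theorem tele_real {n : ℕ} {t cP cU AP AU : ℕ → ℝ} {M δ : ℝ}
    (hpos : ∀ k < n, 0 < t (k + 1) - t k) (hmesh : ∀ k < n, t (k + 1) - t k ≤ δ)
    (hPup : ∀ k < n, cP (k + 1) - cP k ≤ (t (k + 1) - t k) * AP (k + 1))
    (hUlo : ∀ k < n, (t (k + 1) - t k) * AU k ≤ cU (k + 1) - cU k)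
    (hUup : ∀ k < n, cU (k + 1) - cU k ≤ (t (k + 1) - t k) * AU (k + 1))
    (hdiff : ∀ k ≤ n, AP k - AU k ≤ M) :
    (cP n - cU n) - (cP 0 - cU 0) ≤ (t n - t 0) * M + δ * (AU n - AU 0) := by
  have main : ∀ j ≤ n, (cP j - cU j) - (cP 0 - cU 0) ≤ (t j - t 0) * M + δ * (AU j - AU 0) := by
    intro j
    induction j with
    | zero => intro _; simp
    | succ j ih =>
      intro hj
      have hjn : j < n := by omega
      have h1 := ih hjn.le
      have h2 := hPup j hjn
      have h3 := hUlo j hjn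
      have h4 := hUup j hjn
      have h5 := hdiff (j + 1) hj
      have h6 := hpos j hjn
      have h7 := hmesh j hjn
      set h := t (j + 1) - t j with hh
      have h8 : AU j ≤ AU (j + 1) := by
        have : h * AU j ≤ h * AU (j + 1) := h3.trans h4
        exact le_of_mul_le_mul_left this h6
      have h9 : h * (AU (j + 1) - AU j) ≤ δ * (AU (j + 1) - AU j) :=
        mul_le_mul_of_nonneg_right h7 (sub_nonneg.mpr h8)
      have h10 : h * (AP (j + 1) - AU (j + 1)) ≤ h * M := mul_le_mul_of_nonneg_left h5 h6.le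
      have h11 : (t (j + 1) - t 0) * M = (t j - t 0) * M + h * M := by rw [hh]; ring
      nlinarith
  exact main n le_rfl

section Main

variable {d : ℕ} {K : Set (EuclideanSpace ℝ (Fin d))}

/-- The key estimate with a given constant (established in `Crest/Agent/Lib/OT/Key.lean`). -/
def KeyBound (K : Set (EuclideanSpace ℝ (Fin d))) (C₃ : ℝ) : Prop :=
  ∀ (ι : Type) [Fintype ι] (A A' M : ι → Set (EuclideanSpace ℝ (Fin d))),
    (∀ i, MeasurableSet (A i)) → (∀ i, MeasurableSet (A' i)) → (∀ i, MeasurableSet (M i)) →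
    ⋃ i, A i = univ → ⋃ i, A' i = univ →
    Pairwise (AEDisjoint (uniformProbOn K) on A) →
    Pairwise (AEDisjoint (uniformProbOn K) on A') →
    Pairwise (AEDisjoint (uniformProbOn K) on M) →
    (∀ i, ∀ x ∈ A i ∩ K, ∀ x' ∈ A' i ∩ K, (1 / 2 : ℝ) • (x + x') ∈ M i) →
    ∀ (g : EuclideanSpace ℝ (Fin d) → ℝ), Continuous g → (∀ x ∈ K, |g x| ≤ 1 / 2) →
    ∀ (m : ι → ℝ), (∀ i, 0 < m i) →
    (∀ i, (uniformProbOn K).real (A i) = m i) →
    (∀ i, ∫ x in A' i, (1 + g x) ∂(uniformProbOn K) = m i) →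
    ∀ (a : ι → EuclideanSpace ℝ (Fin d)),
    |∑ i, (∫ x in A i, ⟪x, a i⟫ ∂(uniformProbOn K)
        - ∫ x in A' i, ⟪x, a i⟫ * (1 + g x) ∂(uniformProbOn K))|
      ≤ C₃ * Real.sqrt (∫ x, g x ^ 2 ∂(uniformProbOn K)) * Real.sqrt (∑ i, m i * ‖a i‖ ^ 2)

variable {ι : Type} [Fintype ι] [Nonempty ι]

/-- The perturbed source. -/
noncomputable def pert (K : Set (EuclideanSpace ℝ (Fin d))) (ε : ℝ)
    (g : EuclideanSpace ℝ (Fin d) → ℝ) : Measure (EuclideanSpace ℝ (Fin d)) :=
  dens (uniformProbOn K) (fun x => 1 + ε * g x)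

theorem pert_pos {ε : ℝ} {g : EuclideanSpace ℝ (Fin d) → ℝ} (hεg : ∀ x ∈ K, |ε * g x| ≤ 1 / 2) :
    ∀ x ∈ K, 0 ≤ 1 + ε * g x := by
  intro x hx
  have := (abs_le.mp (hεg x hx)).1
  linarith

theorem isSource_pert (hKc : IsCompact K) (hKi : (interior K).Nonempty) {ε : ℝ}
    {g : EuclideanSpace ℝ (Fin d) → ℝ} (hg : Continuous g) (hεg : ∀ x ∈ K, |ε * g x| ≤ 1 / 2)
    (hgint : ∫ x, g x ∂(uniformProbOn K) = 0) : IsSource (pert K ε g) K := by
  have hU := isSource_uniform hKc hKi
  have := hU.prob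
  refine isSource_dens hU (by fun_prop) (pert_pos hεg) ?_
  rw [integral_add (integrable_const _) ((hU.integrable hg).const_mul _), integral_const_mul, hgint]
  simp

/-- Integrals against the perturbed source. -/
theorem integral_pert (hKc : IsCompact K) (hKi : (interior K).Nonempty) {ε : ℝ}
    {g : EuclideanSpace ℝ (Fin d) → ℝ} (hg : Continuous g) (hεg : ∀ x ∈ K, |ε * g x| ≤ 1 / 2)
    {f : EuclideanSpace ℝ (Fin d) → ℝ} (hf : Continuous f) :
    ∫ x, f x ∂(pert K ε g) = ∫ x, f x ∂(uniformProbOn K) + ε * ∫ x, f x * g x ∂(uniformProbOn K) := by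
  have hU := isSource_uniform hKc hKi
  unfold pert
  rw [integral_dens hU (by fun_prop) (pert_pos hεg), ← integral_const_mul,
    ← integral_add (hU.integrable hf) (hU.integrable (by fun_prop))]
  congr 1
  ext x
  ring

/-- The dual functional for the perturbed source. -/
theorem Phi_pert (hKc : IsCompact K) (hKi : (interior K).Nonempty) {ε : ℝ}
    {g : EuclideanSpace ℝ (Fin d) → ℝ} (hg : Continuous g) (hεg : ∀ x ∈ K, |ε * g x| ≤ 1 / 2)
    (y : ι → EuclideanSpace ℝ (Fin d)) (m φ : ι → ℝ) :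
    Phi (pert K ε g) y m φ = Phi (uniformProbOn K) y m φ
      + ε * ∫ x, pot y φ x * g x ∂(uniformProbOn K) := by
  unfold Phi
  rw [integral_pert hKc hKi hg hεg (continuous_pot y φ)]
  ring

/-- The comparison of the pairings for `U` and the perturbed source, from the key estimate. -/
theorem Aval_pert_sub_le (hKc : IsCompact K) (hKi : (interior K).Nonempty) {C₃ : ℝ}
    (hkey : KeyBound K C₃) {m : ι → ℝ} (hm : ∀ i, 0 < m i) {y : ι → EuclideanSpace ℝ (Fin d)}
    (hy : Injective y) {ε : ℝ} (hε : 0 < ε) {g : EuclideanSpace ℝ (Fin d) → ℝ} (hg : Continuous g)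
    (hεg : ∀ x ∈ K, |ε * g x| ≤ 1 / 2) {φU φP : ι → ℝ}
    (hφU : IsSol (uniformProbOn K) y m φU) (hφP : IsSol (pert K ε g) y m φP)
    (a : ι → EuclideanSpace ℝ (Fin d)) :
    Aval (pert K ε g) y φP a - Aval (uniformProbOn K) y φU a
      ≤ ε * (C₃ * Real.sqrt (∫ x, g x ^ 2 ∂(uniformProbOn K)) * Real.sqrt (∑ i, m i * ‖a i‖ ^ 2)) := by
  have hU := isSource_uniform hKc hKi
  have hpertint : ∀ i, ∫ x in cell y φP i, (1 + ε * g x) ∂(uniformProbOn K) = m i := by
    intro i
    rw [← hφP i]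
    exact (dens_real hU (by fun_prop) (pert_pos hεg) (measurableSet_cell y φP i)).symm
  have h := hkey ι (cell y φU) (cell y φP) (cell y (fun j => (φU j + φP j) / 2))
    (measurableSet_cell y φU) (measurableSet_cell y φP) (measurableSet_cell y _)
    (iUnion_cell y φU) (iUnion_cell y φP)
    (hU.aedisjoint_cell hy φU) (hU.aedisjoint_cell hy φP) (hU.aedisjoint_cell hy _)
    (fun i x hx x' hx' => mid_mem_cell hx.1 hx'.1)
    (fun x => ε * g x) (by fun_prop) hεg m hm hφU hpertint a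
  have h1 : ∀ i, ∫ x in cell y φP i, ⟪x, a i⟫ * (1 + ε * g x) ∂(uniformProbOn K)
      = ∫ x in cell y φP i, ⟪x, a i⟫ ∂(pert K ε g) := by
    intro i
    exact (setIntegral_dens hU (by fun_prop) (pert_pos hεg) (measurableSet_cell y φP i) _).symm
  simp only [h1, Finset.sum_sub_distrib] at h
  have h2 : Real.sqrt (∫ x, (ε * g x) ^ 2 ∂(uniformProbOn K))
      = ε * Real.sqrt (∫ x, g x ^ 2 ∂(uniformProbOn K)) := by
    have : ∫ x, (ε * g x) ^ 2 ∂(uniformProbOn K) = ε ^ 2 * ∫ x, g x ^ 2 ∂(uniformProbOn K) := by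
      rw [← integral_const_mul]
      congr 1
      ext x
      ring
    rw [this, Real.sqrt_mul (sq_nonneg ε), Real.sqrt_sq hε.le]
  rw [h2] at h
  unfold Aval
  have h3 := (abs_le.mp h).1
  nlinarith

/-- The main telescoping estimate. -/
theorem tele_core (hKc : IsCompact K) (hKi : (interior K).Nonempty) {C₃ : ℝ}
    (hkey : KeyBound K C₃) {m : ι → ℝ} (hm : ∀ i, 0 < m i) (hs : ∑ i, m i = 1)
    {y z : ι → EuclideanSpace ℝ (Fin d)} (hy : Injective y) (hz : Injective z) {ε : ℝ}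
    (hε : 0 < ε) {g : EuclideanSpace ℝ (Fin d) → ℝ} (hg : Continuous g)
    (hεg : ∀ x ∈ K, |ε * g x| ≤ 1 / 2) (hgint : ∫ x, g x ∂(uniformProbOn K) = 0)
    {φU0 φP0 φU1 φP1 : ι → ℝ}
    (h0U : IsSol (uniformProbOn K) y m φU0) (h0P : IsSol (pert K ε g) y m φP0)
    (h1U : IsSol (uniformProbOn K) z m φU1) (h1P : IsSol (pert K ε g) z m φP1) :
    (Phi (pert K ε g) z m φP1 - Phi (uniformProbOn K) z m φU1)
        - (Phi (pert K ε g) y m φP0 - Phi (uniformProbOn K) y m φU0)
      ≤ ε * (C₃ * Real.sqrt (∫ x, g x ^ 2 ∂(uniformProbOn K))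
          * Real.sqrt (∑ i, m i * ‖z i - y i‖ ^ 2)) := by
  have hU := isSource_uniform hKc hKi
  have hP := isSource_pert hKc hKi (ε := ε) hg hεg hgint
  set a : ι → EuclideanSpace ℝ (Fin d) := fun i => z i - y i with ha
  set M : ℝ := ε * (C₃ * Real.sqrt (∫ x, g x ^ 2 ∂(uniformProbOn K))
          * Real.sqrt (∑ i, m i * ‖a i‖ ^ 2)) with hM
  have hpath0 : atomPath y a 0 = y := by
    ext i; simp [atomPath]
  have hpath1 : atomPath y a 1 = z := by
    ext i; simp [atomPath, a]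
  obtain ⟨R₁, hR₁⟩ := hKc.isBounded.exists_norm_le
  set Amax : ℝ := R₁ * ∑ i, m i * ‖a i‖ with hAmax
  have hAmax0 : 0 ≤ Amax := by
    obtain ⟨φ, hφ⟩ := exists_sol hU hy hm hs
    exact (abs_nonneg _).trans (abs_Aval_le hU (a := a) hφ hR₁)
  refine le_of_forall_pos_le_add fun η hη => ?_
  set δ : ℝ := η / (2 * Amax + 1) with hδ
  have hδpos : 0 < δ := by positivity
  obtain ⟨n, t, ht0, htn, htpos, htmesh, htgood⟩ := exists_grid (finite_bad_times hy a) hδpos
  have hinj : ∀ k ≤ n, Injective (atomPath y a (t k)) := by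
    intro k hk
    by_cases hk0 : k = 0
    · rw [hk0, ht0, hpath0]; exact hy
    by_cases hkn : k = n
    · rw [hkn, htn, hpath1]; exact hz
    have := htgood k hk hk0 hkn
    simpa using this
  have hexU : ∀ k, ∃ φ, k ≤ n → IsSol (uniformProbOn K) (atomPath y a (t k)) m φ := by
    intro k
    by_cases hk : k ≤ n
    · obtain ⟨φ, hφ⟩ := exists_sol hU (hinj k hk) hm hs
      exact ⟨φ, fun _ => hφ⟩
    · exact ⟨0, fun h => absurd h hk⟩
  have hexP : ∀ k, ∃ φ, k ≤ n → IsSol (pert K ε g) (atomPath y a (t k)) m φ := by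
    intro k
    by_cases hk : k ≤ n
    · obtain ⟨φ, hφ⟩ := exists_sol hP (hinj k hk) hm hs
      exact ⟨φ, fun _ => hφ⟩
    · exact ⟨0, fun h => absurd h hk⟩
  choose φU hφU using hexU
  choose φP hφP using hexP
  let cU : ℕ → ℝ := fun k => Phi (uniformProbOn K) (atomPath y a (t k)) m (φU k)
  let cP : ℕ → ℝ := fun k => Phi (pert K ε g) (atomPath y a (t k)) m (φP k)
  let AU : ℕ → ℝ := fun k => Aval (uniformProbOn K) (atomPath y a (t k)) (φU k) a
  let AP : ℕ → ℝ := fun k => Aval (pert K ε g) (atomPath y a (t k)) (φP k) a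
  have hmain := tele_real (n := n) (t := t) (cP := cP) (cU := cU) (AP := AP) (AU := AU) (M := M)
    (δ := δ) htpos htmesh
    (fun k hk => path_upper hP (hinj (k + 1) hk) (hφP (k + 1) hk) _)
    (fun k hk => path_lower hU (hinj k hk.le) (hφU k hk.le) _)
    (fun k hk => path_upper hU (hinj (k + 1) hk) (hφU (k + 1) hk) _)
    (fun k hk => Aval_pert_sub_le hKc hKi hkey hm (hinj k hk) hε hg hεg (hφU k hk) (hφP k hk) a)
  -- endpoints
  have hcU0 : cU 0 = Phi (uniformProbOn K) y m φU0 := by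
    have h1 := hφU 0 (Nat.zero_le n)
    simp only [cU]
    rw [ht0, hpath0] at h1 ⊢
    exact le_antisymm (isMin_of_sol hU hy h1 _) (isMin_of_sol hU hy h0U _)
  have hcP0 : cP 0 = Phi (pert K ε g) y m φP0 := by
    have h1 := hφP 0 (Nat.zero_le n)
    simp only [cP]
    rw [ht0, hpath0] at h1 ⊢
    exact le_antisymm (isMin_of_sol hP hy h1 _) (isMin_of_sol hP hy h0P _)
  have hcUn : cU n = Phi (uniformProbOn K) z m φU1 := by
    have h1 := hφU n le_rfl
    simp only [cU]
    rw [htn, hpath1] at h1 ⊢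
    exact le_antisymm (isMin_of_sol hU hz h1 _) (isMin_of_sol hU hz h1U _)
  have hcPn : cP n = Phi (pert K ε g) z m φP1 := by
    have h1 := hφP n le_rfl
    simp only [cP]
    rw [htn, hpath1] at h1 ⊢
    exact le_antisymm (isMin_of_sol hP hz h1 _) (isMin_of_sol hP hz h1P _)
  rw [hcU0, hcP0, hcUn, hcPn, ht0, htn, sub_zero, one_mul] at hmain
  have hAU0 : |AU 0| ≤ Amax := abs_Aval_le hU (hφU 0 (Nat.zero_le n)) hR₁
  have hAUn : |AU n| ≤ Amax := abs_Aval_le hU (hφU n le_rfl) hR₁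
  have hAdiff : δ * (AU n - AU 0) ≤ η := by
    have h1 : AU n - AU 0 ≤ 2 * Amax := by
      have := (abs_le.mp hAU0).1
      have := (abs_le.mp hAUn).2
      linarith
    have h2 : δ * (AU n - AU 0) ≤ δ * (2 * Amax + 1) :=
      mul_le_mul_of_nonneg_left (by linarith) hδpos.le
    have h3 : δ * (2 * Amax + 1) = η := by
      rw [hδ]
      field_simp
    linarith
  linarith

/-- One-parameter consequence of `tele_core`: pairing of the potentials with `g`. -/
theorem pairing_pert (hKc : IsCompact K) (hKi : (interior K).Nonempty) {C₃ : ℝ}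
    (hkey : KeyBound K C₃) {m : ι → ℝ} (hm : ∀ i, 0 < m i) (hs : ∑ i, m i = 1)
    {y z : ι → EuclideanSpace ℝ (Fin d)} (hy : Injective y) (hz : Injective z) {ε : ℝ}
    (hε : 0 < ε) {g : EuclideanSpace ℝ (Fin d) → ℝ} (hg : Continuous g)
    (hεg : ∀ x ∈ K, |ε * g x| ≤ 1 / 2) (hgint : ∫ x, g x ∂(uniformProbOn K) = 0)
    {φ ψ φε : ι → ℝ}
    (hφ : IsSol (uniformProbOn K) y m φ) (hψ : IsSol (uniformProbOn K) z m ψ)
    (hφε : IsSol (pert K ε g) z m φε) :
    ∫ x, pot z φε x * g x ∂(uniformProbOn K) - ∫ x, pot y φ x * g x ∂(uniformProbOn K)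
      ≤ C₃ * Real.sqrt (∫ x, g x ^ 2 ∂(uniformProbOn K))
          * Real.sqrt (∑ i, m i * ‖z i - y i‖ ^ 2) := by
  have hU := isSource_uniform hKc hKi
  have hP := isSource_pert hKc hKi (ε := ε) hg hεg hgint
  obtain ⟨φ0, hφ0⟩ := exists_sol hP hy hm hs
  have h := tele_core hKc hKi hkey hm hs hy hz hε hg hεg hgint hφ hφ0 hψ hφε
  have h1 : Phi (pert K ε g) y m φ0 ≤ Phi (pert K ε g) y m φ := isMin_of_sol hP hy hφ0 φ
  have h2 : Phi (uniformProbOn K) z m ψ ≤ Phi (uniformProbOn K) z m φε := isMin_of_sol hU hz hψ φε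
  have e1 := Phi_pert hKc hKi hg hεg z m φε
  have e2 := Phi_pert hKc hKi hg hεg y m φ
  have h3 : ε * (∫ x, pot z φε x * g x ∂(uniformProbOn K) - ∫ x, pot y φ x * g x ∂(uniformProbOn K))
      ≤ ε * (C₃ * Real.sqrt (∫ x, g x ^ 2 ∂(uniformProbOn K))
          * Real.sqrt (∑ i, m i * ‖z i - y i‖ ^ 2)) := by
    rw [mul_sub]
    linarith
  exact le_of_mul_le_mul_left h3 hε

/-- A priori bound on the weights of a solution. -/
theorem sol_weights_bound {E : Type*} [NormedAddCommGroup E] [InnerProductSpace ℝ E]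
    [MeasurableSpace E] [BorelSpace E] {P : Measure E} {K : Set E} (hP : IsSource P K)
    {z : ι → E} {m φ : ι → ℝ} (hm : ∀ i, 0 < m i) (hφ : IsSol P z m φ) {R₁ : ℝ}
    (hR₁ : ∀ x ∈ K, ‖x‖ ≤ R₁) (i j : ι) : φ i - φ j ≤ R₁ * ‖z i - z j‖ := by
  have hne : (cell z φ i ∩ K).Nonempty := by
    by_contra hcon
    have h1 : cell z φ i ⊆ Kᶜ := by
      intro x hx hxK
      exact hcon ⟨x, hx, hxK⟩
    have h2 : P (cell z φ i) = 0 := measure_mono_null h1 hP.conc
    have h3 := hφ i
    rw [measureReal_def, h2] at h3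
    have := hm i
    simp at h3
    linarith
  obtain ⟨x, hx, hxK⟩ := hne
  have h1 := hx j
  simp only [piece] at h1
  have h2 : ⟪x, z i - z j⟫ ≤ R₁ * ‖z i - z j‖ := by
    calc ⟪x, z i - z j⟫ ≤ ‖x‖ * ‖z i - z j‖ := real_inner_le_norm _ _
      _ ≤ R₁ * ‖z i - z j‖ := by gcongr; exact hR₁ x hxK
  rw [inner_sub_right] at h2
  linarith

/-- The pairing of the potentials with a test function of mean zero. -/
theorem pot_pairing (hKc : IsCompact K) (hKv : Convex ℝ K) (hKi : (interior K).Nonempty) {C₃ : ℝ}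
    (hkey : KeyBound K C₃) {m : ι → ℝ} (hm : ∀ i, 0 < m i) (hs : ∑ i, m i = 1)
    {y z : ι → EuclideanSpace ℝ (Fin d)} (hy : Injective y) (hz : Injective z)
    {g : EuclideanSpace ℝ (Fin d) → ℝ} (hg : Continuous g)
    (hgint : ∫ x, g x ∂(uniformProbOn K) = 0)
    {φ ψ : ι → ℝ}
    (hφ : IsSol (uniformProbOn K) y m φ) (hψ : IsSol (uniformProbOn K) z m ψ) :
    ∫ x, (pot z ψ x - pot y φ x) * g x ∂(uniformProbOn K)
      ≤ C₃ * Real.sqrt (∫ x, g x ^ 2 ∂(uniformProbOn K))
          * Real.sqrt (∑ i, m i * ‖z i - y i‖ ^ 2) := by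
  have hU := isSource_uniform hKc hKi
  have := hU.prob
  obtain ⟨G, hG⟩ := hKc.exists_bound_of_continuousOn (f := g) hg.continuousOn
  set G₀ : ℝ := |G| + 1 with hG₀
  have hG₀pos : 0 < G₀ := by positivity
  have hgG : ∀ x ∈ K, |g x| ≤ G₀ := fun x hx => by
    have h1 := hG x hx
    rw [Real.norm_eq_abs] at h1
    have := le_abs_self G
    linarith
  let ε : ℕ → ℝ := fun k => 1 / (2 * G₀ * ((k : ℝ) + 1))
  have hεpos : ∀ k, 0 < ε k := fun k => by positivity
  have hεg : ∀ k, ∀ x ∈ K, |ε k * g x| ≤ 1 / 2 := by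
    intro k x hx
    rw [abs_mul, abs_of_pos (hεpos k)]
    calc ε k * |g x| ≤ ε k * G₀ := mul_le_mul_of_nonneg_left (hgG x hx) (hεpos k).le
      _ = 1 / (2 * ((k : ℝ) + 1)) := by
        simp only [ε]
        field_simp
      _ ≤ 1 / 2 := by
        apply one_div_le_one_div_of_le (by norm_num)
        have : (0 : ℝ) ≤ k := Nat.cast_nonneg k
        linarith
  have hεlim : Tendsto ε atTop (𝓝 0) := by
    have h1 : Tendsto (fun k : ℕ => (1 / (2 * G₀)) * (1 / ((k : ℝ) + 1))) atTop (𝓝 ((1 / (2 * G₀)) * 0)) :=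
      tendsto_one_div_add_atTop_nhds_zero_nat.const_mul _
    rw [mul_zero] at h1
    refine h1.congr fun k => ?_
    simp only [ε]
    rw [one_div_mul_one_div]
  have hP : ∀ k, IsSource (pert K (ε k) g) K := fun k => isSource_pert hKc hKi hg (hεg k) hgint
  -- normalised solutions
  obtain ⟨i₀⟩ : Nonempty ι := inferInstance
  have hex : ∀ k, ∃ φ' : ι → ℝ, IsSol (pert K (ε k) g) z m φ' ∧ φ' i₀ = 0 := by
    intro k
    obtain ⟨φ', hφ'⟩ := exists_sol (hP k) hz hm hs
    refine ⟨fun j => φ' j + (- φ' i₀), fun i => ?_, by simp⟩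
    rw [cell_add_const]
    exact hφ' i
  choose x hxsol hx0 using hex
  obtain ⟨R₁, hR₁⟩ := hKc.isBounded.exists_norm_le
  set B₀ : ℝ := |R₁| * ∑ i, ‖z i - z i₀‖ + |R₁| * ∑ i, ‖z i₀ - z i‖ with hB₀
  have hR₁' : ∀ x ∈ K, ‖x‖ ≤ |R₁| := fun x hx => (hR₁ x hx).trans (le_abs_self _)
  have hB₀0 : 0 ≤ B₀ := by positivity
  have hxbd : ∀ k, x k ∈ Metric.closedBall (0 : ι → ℝ) B₀ := by
    intro k
    rw [mem_closedBall_zero_iff, pi_norm_le_iff_of_nonneg hB₀0]
    intro i
    have h1 := sol_weights_bound (hP k) hm (hxsol k) hR₁' i i₀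
    have h2 := sol_weights_bound (hP k) hm (hxsol k) hR₁' i₀ i
    rw [hx0 k] at h1 h2
    have h3 : ‖z i - z i₀‖ ≤ ∑ j, ‖z j - z i₀‖ :=
      Finset.single_le_sum (f := fun j => ‖z j - z i₀‖) (fun _ _ => norm_nonneg _) (Finset.mem_univ i)
    have h4 : ‖z i₀ - z i‖ ≤ ∑ j, ‖z i₀ - z j‖ :=
      Finset.single_le_sum (f := fun j => ‖z i₀ - z j‖) (fun _ _ => norm_nonneg _) (Finset.mem_univ i)
    have h5 : 0 ≤ ∑ j, ‖z j - z i₀‖ := Finset.sum_nonneg fun _ _ => norm_nonneg _
    have h6 : 0 ≤ ∑ j, ‖z i₀ - z j‖ := Finset.sum_nonneg fun _ _ => norm_nonneg _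
    have h7 : |R₁| * ‖z i - z i₀‖ ≤ |R₁| * ∑ j, ‖z j - z i₀‖ :=
      mul_le_mul_of_nonneg_left h3 (abs_nonneg _)
    have h8 : |R₁| * ‖z i₀ - z i‖ ≤ |R₁| * ∑ j, ‖z i₀ - z j‖ :=
      mul_le_mul_of_nonneg_left h4 (abs_nonneg _)
    have h9 : 0 ≤ |R₁| * ∑ j, ‖z j - z i₀‖ := mul_nonneg (abs_nonneg _) h5
    have h10 : 0 ≤ |R₁| * ∑ j, ‖z i₀ - z j‖ := mul_nonneg (abs_nonneg _) h6
    rw [Real.norm_eq_abs, abs_le]
    constructor <;> linarith
  obtain ⟨φs, -, κ, hκ, hlim⟩ := tendsto_subseq_of_bounded Metric.isBounded_closedBall hxbd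
  -- continuity of the pairing in the weights
  have hpotg : ∀ (u : ι → EuclideanSpace ℝ (Fin d)) (ϕ : ι → ℝ),
      Integrable (fun x => pot u ϕ x * g x) (uniformProbOn K) := fun u ϕ =>
    hU.integrable ((continuous_pot u ϕ).mul hg)
  have hIcont : Continuous (fun ϕ : ι → ℝ => ∫ x, pot z ϕ x * g x ∂(uniformProbOn K)) := by
    refine (LipschitzWith.of_dist_le_mul (K := G₀.toNNReal) fun a b => ?_).continuous
    rw [Real.coe_toNNReal _ hG₀pos.le]
    rw [Real.dist_eq, ← integral_sub (hpotg z a) (hpotg z b)]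
    have hB : ∀ i, |a i - b i| ≤ dist a b := fun i => by
      rw [← Real.dist_eq]; exact dist_le_pi_dist a b i
    have := norm_integral_le_of_norm_le_const (μ := uniformProbOn K)
      (f := fun x => pot z a x * g x - pot z b x * g x)
      (C := dist a b * G₀) (by
        filter_upwards [hU.ae_mem] with x hx
        rw [← sub_mul, norm_mul, Real.norm_eq_abs, Real.norm_eq_abs]
        exact mul_le_mul (abs_pot_sub_pot_weights_le hB x) (hgG x hx) (abs_nonneg _) dist_nonneg)
    simp only [probReal_univ, mul_one, Real.norm_eq_abs] at this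
    simpa [mul_comm] using this
  set I : (ι → ℝ) → ℝ := fun ϕ => ∫ x, pot z ϕ x * g x ∂(uniformProbOn K) with hI
  have hIlim : Tendsto (fun k => I (x (κ k))) atTop (𝓝 (I φs)) :=
    hIcont.continuousAt.tendsto.comp hlim
  have hεκ : Tendsto (fun k => ε (κ k)) atTop (𝓝 0) := hεlim.comp hκ.tendsto_atTop
  -- the limit is a minimiser
  have hmin : ∀ φ', Phi (uniformProbOn K) z m φs ≤ Phi (uniformProbOn K) z m φ' := by
    intro φ'
    have hL : Tendsto (fun k => Phi (uniformProbOn K) z m (x (κ k))) atTop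
        (𝓝 (Phi (uniformProbOn K) z m φs)) :=
      (continuous_Phi hU z m).continuousAt.tendsto.comp hlim
    have hR : Tendsto (fun k => Phi (uniformProbOn K) z m φ'
        + ε (κ k) * (I φ' - I (x (κ k)))) atTop (𝓝 (Phi (uniformProbOn K) z m φ' + 0 * (I φ' - I φs))) :=
      tendsto_const_nhds.add (hεκ.mul (tendsto_const_nhds.sub hIlim))
    rw [zero_mul, add_zero] at hR
    refine le_of_tendsto_of_tendsto' hL hR fun k => ?_
    have h1 := isMin_of_sol (hP (κ k)) hz (hxsol (κ k)) φ'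
    rw [Phi_pert hKc hKi hg (hεg _), Phi_pert hKc hKi hg (hεg _)] at h1
    simp only [hI]
    nlinarith
  have hφs : IsSol (uniformProbOn K) z m φs := sol_of_isMin hU hz hs hmin
  obtain ⟨c, hc⟩ := pot_unique hKc hKv hKi hz hφs hψ
  have hIφs : I φs = ∫ x, pot z ψ x * g x ∂(uniformProbOn K) := by
    have h1 : I φs = ∫ x, (pot z ψ x * g x + c * g x) ∂(uniformProbOn K) := by
      refine integral_congr_ae ?_
      filter_upwards [hU.ae_mem] with x' hx'
      have := hc x' hx'
      have h2 : pot z φs x' = pot z ψ x' + c := by linarith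
      rw [h2]
      ring
    have h3 : Integrable (fun x => c * g x) (uniformProbOn K) := hU.integrable (by fun_prop)
    rw [h1, integral_add (hpotg z ψ) h3, integral_const_mul, hgint]
    simp
  -- pass to the limit in the inequality
  have hfin : I φs - ∫ x, pot y φ x * g x ∂(uniformProbOn K)
      ≤ C₃ * Real.sqrt (∫ x, g x ^ 2 ∂(uniformProbOn K))
          * Real.sqrt (∑ i, m i * ‖z i - y i‖ ^ 2) := by
    refine le_of_tendsto' (hIlim.sub_const _) fun k => ?_
    exact pairing_pert hKc hKi hkey hm hs hy hz (hεpos _) hg (hεg _) hgint hφ hψ (hxsol (κ k))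
  rw [hIφs] at hfin
  rw [show (fun x => (pot z ψ x - pot y φ x) * g x) = fun x => pot z ψ x * g x - pot y φ x * g x by
    ext x; ring]
  rw [integral_sub (hpotg z ψ) (hpotg y φ)]
  exact hfin

end Main

/-- `AtomStability` follows from the key estimate. -/
theorem atomStability_of_key {d : ℕ} {K : Set (EuclideanSpace ℝ (Fin d))} (hKc : IsCompact K)
    (hKv : Convex ℝ K) (hKi : (interior K).Nonempty) {C₃ : ℝ} (hC₃ : 0 ≤ C₃)
    (hkey : KeyBound K C₃) : AtomStability K (C₃ ^ 2) := by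
  intro ι _ _ m hm hs y z φ ψ hy hz hφ hψ
  have hU := isSource_uniform hKc hKi
  have := hU.prob
  set w : EuclideanSpace ℝ (Fin d) → ℝ := fun x => pot z ψ x - pot y φ x with hw
  have hwc : Continuous w := (continuous_pot z ψ).sub (continuous_pot y φ)
  set c : ℝ := ∫ x, w x ∂(uniformProbOn K) with hc
  set g : EuclideanSpace ℝ (Fin d) → ℝ := fun x => w x - c with hg
  have hgc : Continuous g := hwc.sub continuous_const
  have hgint : ∫ x, g x ∂(uniformProbOn K) = 0 := by
    simp only [hg]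
    rw [integral_sub (hU.integrable hwc) (integrable_const _), ← hc]
    simp
  have hpair := pot_pairing hKc hKv hKi hkey hm hs hy hz hgc hgint hφ hψ
  have hnorm : ∑ i, m i * ‖z i - y i‖ ^ 2 = ∑ i, m i * ‖y i - z i‖ ^ 2 := by
    refine Finset.sum_congr rfl fun i _ => ?_
    rw [norm_sub_rev]
  rw [hnorm] at hpair
  have hleft : ∫ x, (pot z ψ x - pot y φ x) * g x ∂(uniformProbOn K)
      = ∫ x, g x ^ 2 ∂(uniformProbOn K) := by
    have h1 : ∀ x, (pot z ψ x - pot y φ x) * g x = g x ^ 2 + c * g x := by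
      intro x
      simp only [hg, hw]
      ring
    simp only [h1]
    have h2 : Integrable (fun x => g x ^ 2) (uniformProbOn K) := hU.integrable (by fun_prop)
    have h3 : Integrable (fun x => c * g x) (uniformProbOn K) := hU.integrable (by fun_prop)
    rw [integral_add h2 h3, integral_const_mul, hgint]
    simp
  rw [hleft] at hpair
  set V : ℝ := ∫ x, g x ^ 2 ∂(uniformProbOn K) with hV
  set Q : ℝ := ∑ i, m i * ‖y i - z i‖ ^ 2 with hQ
  have hV0 : 0 ≤ V := integral_nonneg fun x => sq_nonneg _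
  have hQ0 : 0 ≤ Q := Finset.sum_nonneg fun i _ => mul_nonneg (hm i).le (sq_nonneg _)
  refine ⟨-c, ?_⟩
  have hconv : ∫ x, (pot y φ x - pot z ψ x - -c) ^ 2 ∂(uniformProbOn K) = V := by
    simp only [hV]
    congr 1
    ext x
    simp only [hg, hw]
    ring
  rw [hconv]
  -- from V ≤ C₃ √V √Q deduce V ≤ C₃² Q
  have hsV : Real.sqrt V * Real.sqrt V = V := Real.mul_self_sqrt hV0
  have hsQ : Real.sqrt Q * Real.sqrt Q = Q := Real.mul_self_sqrt hQ0
  have hsV0 := Real.sqrt_nonneg V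
  have hsQ0 := Real.sqrt_nonneg Q
  rcases hsV0.eq_or_lt with h0 | hpos
  · have : V = 0 := by rw [← hsV, ← h0]; ring
    rw [this]
    positivity
  · have h1 : Real.sqrt V ≤ C₃ * Real.sqrt Q := by
      have : Real.sqrt V * Real.sqrt V ≤ (C₃ * Real.sqrt Q) * Real.sqrt V := by
        rw [hsV]
        calc V ≤ C₃ * Real.sqrt V * Real.sqrt Q := hpair
          _ = _ := by ring
      exact le_of_mul_le_mul_right this hpos
    calc V = Real.sqrt V * Real.sqrt V := hsV.symm
      _ ≤ (C₃ * Real.sqrt Q) * (C₃ * Real.sqrt Q) :=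
          mul_le_mul h1 h1 hsV0 (mul_nonneg hC₃ hsQ0)
      _ = C₃ ^ 2 * (Real.sqrt Q * Real.sqrt Q) := by ring
      _ = C₃ ^ 2 * Q := by rw [hsQ]

end Crest.Agent.Lib.OT
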