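import Crest.Agent.Lib.OT.Defs

/-!
# Basic API for the uniform probability measure on a convex body
-/

set_option autoImplicit false

open MeasureTheory Set Filter Topology
open scoped ENNReal NNReal RealInnerProductSpace
open Crest.AnalysisR.OT

namespace Crest.Agent.Lib.OT

variable {d : ℕ} {K : Set (EuclideanSpace ℝ (Fin d))}

theorem volume_pos_of_interior (hKi : (interior K).Nonempty) : 0 < volume K :=
  lt_of_lt_of_le (isOpen_interior.measure_pos volume hKi) (measure_mono interior_subset)

theorem volume_ne_zero_of_interior (hKi : (interior K).Nonempty) : volume K ≠ 0 :=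
  (volume_pos_of_interior hKi).ne'

theorem volume_ne_top_of_compact (hKc : IsCompact K) : volume K ≠ ⊤ := hKc.measure_lt_top.ne

theorem uniform_apply (hKc : IsCompact K) {A : Set (EuclideanSpace ℝ (Fin d))}
    (hA : MeasurableSet A) : uniformProbOn K A = (volume K)⁻¹ * volume (A ∩ K) := by
  simp [uniformProbOn, Measure.restrict_apply hA]

theorem uniform_isProb (hKc : IsCompact K) (hKi : (interior K).Nonempty) :
    IsProbabilityMeasure (uniformProbOn K) := by
  constructor
  rw [uniform_apply hKc MeasurableSet.univ, univ_inter]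
  exact ENNReal.inv_mul_cancel (volume_ne_zero_of_interior hKi) (volume_ne_top_of_compact hKc)

theorem uniform_conc (hKc : IsCompact K) : uniformProbOn K Kᶜ = 0 := by
  rw [uniform_apply hKc hKc.isClosed.measurableSet.compl]
  simp

theorem uniform_ac : uniformProbOn K ≪ (volume : Measure (EuclideanSpace ℝ (Fin d))) := by
  unfold uniformProbOn
  exact (Measure.smul_absolutelyContinuous).trans Measure.restrict_le_self.absolutelyContinuous

theorem uniform_ae_mem (hKc : IsCompact K) : ∀ᵐ x ∂(uniformProbOn K), x ∈ K := by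
  rw [ae_iff]
  exact uniform_conc hKc

theorem uniform_restrict_self (hKc : IsCompact K) :
    (uniformProbOn K).restrict K = uniformProbOn K :=
  Measure.restrict_eq_self_of_ae_mem (uniform_ae_mem hKc)

/-- Every bounded-on-`K` ae-measurable function is integrable for the uniform measure. -/
theorem uniform_integrable_of_bdd (hKc : IsCompact K) (hKi : (interior K).Nonempty)
    {f : EuclideanSpace ℝ (Fin d) → ℝ} (hf : AEStronglyMeasurable f (uniformProbOn K)) {C : ℝ}
    (hC : ∀ x ∈ K, |f x| ≤ C) : Integrable f (uniformProbOn K) := by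
  have := uniform_isProb hKc hKi
  refine Integrable.of_bound hf C ?_
  filter_upwards [uniform_ae_mem hKc] with x hx
  simpa using hC x hx

/-- Every continuous function is integrable for the uniform measure. -/
theorem uniform_integrable_of_continuous (hKc : IsCompact K) (hKi : (interior K).Nonempty)
    {f : EuclideanSpace ℝ (Fin d) → ℝ} (hf : Continuous f) : Integrable f (uniformProbOn K) := by
  obtain ⟨C, hC⟩ := hKc.exists_bound_of_continuousOn (f := f) hf.continuousOn
  exact uniform_integrable_of_bdd hKc hKi hf.aestronglyMeasurable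
    (C := C) (fun x hx => by simpa using hC x hx)

/-- The uniform measure on a convex body is a source. -/
theorem isSource_uniform (hKc : IsCompact K) (hKi : (interior K).Nonempty) :
    IsSource (uniformProbOn K) K := by
  refine ⟨uniform_isProb hKc hKi, hKc, uniform_conc hKc, fun v c hv => ?_⟩
  refine uniform_ac ?_
  -- a hyperplane is a null set
  let S : AffineSubspace ℝ (EuclideanSpace ℝ (Fin d)) :=
    AffineSubspace.mk' ((c / ‖v‖ ^ 2) • v) (LinearMap.ker (innerₛₗ ℝ v))
  have hS : (S : Set (EuclideanSpace ℝ (Fin d))) = {x | ⟪x, v⟫ = c} := by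
    ext x
    have hv2 : ‖v‖ ^ 2 ≠ 0 := by positivity
    simp only [S, SetLike.mem_coe, AffineSubspace.mem_mk', LinearMap.mem_ker, vsub_eq_sub,
      mem_setOf_eq, innerₛₗ_apply_apply, inner_sub_right, real_inner_smul_right,
      real_inner_self_eq_norm_sq]
    rw [real_inner_comm]
    field_simp
    constructor <;> intro h <;> linarith
  rw [← hS]
  apply Measure.addHaar_affineSubspace
  intro htop
  have : v ∈ ({x | ⟪x, v⟫ = c} : Set _) ∧ (0 : EuclideanSpace ℝ (Fin d)) ∈ ({x | ⟪x, v⟫ = c} : Set _)
      ∧ (v + v) ∈ ({x | ⟪x, v⟫ = c} : Set _) := by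
    rw [← hS, htop]
    simp
  obtain ⟨h1, h2, h3⟩ := this
  simp only [mem_setOf_eq, inner_zero_left] at h1 h2 h3
  rw [inner_add_left, h1, ← h2] at h3
  have : ⟪v, v⟫ = 0 := by linarith
  exact hv (inner_self_eq_zero.mp this)

/-- Set integrals for the uniform measure in terms of Lebesgue measure. -/
theorem setIntegral_uniform (A : Set (EuclideanSpace ℝ (Fin d))) (hA : MeasurableSet A)
    (f : EuclideanSpace ℝ (Fin d) → ℝ) :
    ∫ x in A, f x ∂(uniformProbOn K) = (volume K).toReal⁻¹ * ∫ x in A ∩ K, f x := by
  unfold uniformProbOn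
  rw [Measure.restrict_smul, integral_smul_measure, Measure.restrict_restrict hA, ENNReal.toReal_inv,
    smul_eq_mul]

/-- The stability of potentials for atomic targets, with constant `C₂` (established in
`Crest/Agent/Lib/OT/Telescoping.lean`). -/
def AtomStability (K : Set (EuclideanSpace ℝ (Fin d))) (C₂ : ℝ) : Prop :=
  ∀ (ι : Type) [Fintype ι] [Nonempty ι] (m : ι → ℝ), (∀ i, 0 < m i) → ∑ i, m i = 1 →
    ∀ (y z : ι → EuclideanSpace ℝ (Fin d)) (φ ψ : ι → ℝ),
      Function.Injective y → Function.Injective z →
      IsSol (uniformProbOn K) y m φ → IsSol (uniformProbOn K) z m ψ →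
      ∃ c : ℝ, ∫ x, (pot y φ x - pot z ψ x - c) ^ 2 ∂(uniformProbOn K)
        ≤ C₂ * ∑ i, m i * ‖y i - z i‖ ^ 2

end Crest.Agent.Lib.OT
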